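import Vale.Agent.Lib.P237.PettySlice1

open MeasureTheory Set Module
open scoped RealInnerProductSpace Pointwise

namespace Vale.Agent.Lib.P237.Petty

open Vale.Agent.Lib.P237

noncomputable section

variable (b : OrthonormalBasis (Fin 3) ℝ E3)

lemma b_inner_self (i : Fin 3) : ⟪b i, b i⟫ = 1 := by
  rw [real_inner_self_eq_norm_sq, b.norm_eq_one]; norm_num

lemma b_inner_ne {i j : Fin 3} (h : i ≠ j) : ⟪b i, b j⟫ = 0 :=
  b.orthonormal.2 h

lemma inner_pt_zero (p : E2) (t : ℝ) : ⟪b 0, pt b p t⟫ = p 0 := by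
  simp [pt, inner_add_right, inner_smul_right]

lemma inner_pt_one (p : E2) (t : ℝ) : ⟪b 1, pt b p t⟫ = p 1 := by
  simp [pt, inner_add_right, inner_smul_right]

lemma inner_pt_two (p : E2) (t : ℝ) : ⟪b 2, pt b p t⟫ = t := by
  simp [pt, inner_add_right, inner_smul_right]

lemma pt_continuous (t : ℝ) : Continuous fun p : E2 => pt b p t := by
  unfold pt
  fun_prop

lemma pt_comb (p q : E2) (s t a c : ℝ) :
    pt b (a • p + c • q) (a * s + c * t) = a • pt b p s + c • pt b q t := by
  simp only [pt, PiLp.add_apply, PiLp.smul_apply, smul_eq_mul, add_smul, mul_smul, smul_add]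
  abel

lemma pt_neg (p : E2) (t : ℝ) : pt b (-p) (-t) = - pt b p t := by
  simp only [pt, PiLp.neg_apply, neg_smul, neg_add]

lemma norm_sq_pt (p : E2) (t : ℝ) : ‖pt b p t‖ ^ 2 = ‖p‖ ^ 2 + t ^ 2 := by
  rw [← real_inner_self_eq_norm_sq, ← real_inner_self_eq_norm_sq]
  have h : ⟪p, p⟫ = p 0 ^ 2 + p 1 ^ 2 := by
    rw [PiLp.inner_apply, Fin.sum_univ_two]
    simp
  rw [h]
  simp only [pt, inner_add_left, inner_add_right, inner_smul_left, inner_smul_right, b_inner_self,
    b_inner_ne b (show (0 : Fin 3) ≠ 1 by decide), b_inner_ne b (show (0 : Fin 3) ≠ 2 by decide),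
    b_inner_ne b (show (1 : Fin 3) ≠ 0 by decide), b_inner_ne b (show (1 : Fin 3) ≠ 2 by decide),
    b_inner_ne b (show (2 : Fin 3) ≠ 0 by decide), b_inner_ne b (show (2 : Fin 3) ≠ 1 by decide)]
  simp
  ring

variable {K : Set E3}

lemma sec_compact (hK : IsCompact K) (t : ℝ) : IsCompact (sec b K t) := by
  apply Metric.isCompact_of_isClosed_isBounded
  · exact hK.isClosed.preimage (pt_continuous b t)
  · obtain ⟨R, hR⟩ := hK.isBounded.exists_norm_le
    rw [isBounded_iff_forall_norm_le]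
    refine ⟨R, fun p hp => ?_⟩
    have h1 : ‖pt b p t‖ ≤ R := hR _ hp
    have h2 := norm_sq_pt b p t
    have h3 : ‖p‖ ^ 2 ≤ ‖pt b p t‖ ^ 2 := by nlinarith [sq_nonneg t]
    exact ((pow_le_pow_iff_left₀ (norm_nonneg _) (norm_nonneg _) two_ne_zero).mp h3).trans h1

lemma sec_comb (hK : Convex ℝ K) {s t a c : ℝ} (ha : 0 ≤ a) (hc : 0 ≤ c) (hac : a + c = 1)
    {p q : E2} (hp : p ∈ sec b K s) (hq : q ∈ sec b K t) :
    a • p + c • q ∈ sec b K (a * s + c * t) := by
  show pt b (a • p + c • q) (a * s + c * t) ∈ K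
  rw [pt_comb]
  exact hK hp hq ha hc hac

lemma sec_convex (hK : Convex ℝ K) (t : ℝ) : Convex ℝ (sec b K t) := by
  intro p hp q hq a c ha hc hac
  have h := sec_comb b hK ha hc hac hp hq
  have e : a * t + c * t = t := by rw [← add_mul, hac, one_mul]
  rwa [e] at h

lemma sec_neg (hsym : ∀ x ∈ K, -x ∈ K) {t : ℝ} {p : E2} (hp : p ∈ sec b K t) :
    -p ∈ sec b K (-t) := by
  show pt b (-p) (-t) ∈ K
  rw [pt_neg]
  exact hsym _ hp

lemma sec_neg_eq (hsym : ∀ x ∈ K, -x ∈ K) (t : ℝ) : sec b K (-t) = -sec b K t := by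
  ext p
  constructor
  · intro hp
    have := sec_neg b hsym hp
    rw [neg_neg] at this
    simpa using this
  · intro hp
    have h : -p ∈ sec b K t := by simpa using hp
    have := sec_neg b hsym h
    rwa [neg_neg] at this

lemma rootArea_neg (X : Set E2) : rootArea (-X) = rootArea X := by
  unfold rootArea
  rw [Measure.measure_neg]

lemma rr_neg (hsym : ∀ x ∈ K, -x ∈ K) (t : ℝ) : rr b K (-t) = rr b K t := by
  unfold rr
  rw [sec_neg_eq b hsym, rootArea_neg]

lemma sec_nonempty (hB : Metric.closedBall (0 : E3) 1 ⊆ K) {t : ℝ} (ht : |t| ≤ 1) :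
    (sec b K t).Nonempty := by
  refine ⟨0, hB ?_⟩
  have h := norm_sq_pt b (0 : E2) t
  rw [mem_closedBall_zero_iff]
  have h2 : ‖pt b (0 : E2) t‖ ^ 2 ≤ 1 := by
    rw [h]
    simp only [norm_zero]
    have := sq_abs t
    nlinarith [abs_nonneg t]
  exact (pow_le_one_iff_of_nonneg (norm_nonneg _) two_ne_zero).mp h2

/-- Brunn-Minkowski for sections: convex combinations. -/
lemma rr_comb (hK : IsCompact K) (hKc : Convex ℝ K) {s t a c : ℝ} (ha : 0 ≤ a) (hc : 0 ≤ c)
    (hac : a + c = 1) (hs : (sec b K s).Nonempty) (ht : (sec b K t).Nonempty) :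
    a * rr b K s + c * rr b K t ≤ rr b K (a * s + c * t) := by
  have hE : a = 1 - c := by linarith
  have := bm_plane (sec_compact b hK s) (sec_compact b hK t) (sec_compact b hK (a * s + c * t))
    hs ht hc (by linarith : c ≤ 1) (fun x hx y hy => by
      rw [← hE]
      exact sec_comb b hKc ha hc hac hx hy)
  rw [← hE] at this
  exact this

/-- Antitonicity of the section profile on `[0, ∞)` for symmetric convex bodies. -/
lemma rr_anti_aux (hK : IsCompact K) (hKc : Convex ℝ K) (hsym : ∀ x ∈ K, -x ∈ K) {s t : ℝ}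
    (hs : 0 ≤ s) (hst : s ≤ t) : rr b K t ≤ rr b K s := by
  by_cases hne : (sec b K t).Nonempty
  · rcases (hs.trans hst).eq_or_lt with h0 | h0
    · have h1 : s = t := le_antisymm hst (by linarith)
      rw [h1]
    · have hne' : (sec b K (-t)).Nonempty := by
        obtain ⟨p, hp⟩ := hne
        exact ⟨-p, sec_neg b hsym hp⟩
      have hl0 : 0 ≤ (t - s) / (2 * t) := by
        apply div_nonneg <;> linarith
      have hl1 : 0 ≤ 1 - (t - s) / (2 * t) := by
        rw [sub_nonneg, div_le_one (by linarith)]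
        linarith
      have := rr_comb b hK hKc hl1 hl0 (by ring) hne hne'
      have e : (1 - (t - s) / (2 * t)) * t + (t - s) / (2 * t) * -t = s := by
        field_simp
        ring
      rw [e, rr_neg b hsym] at this
      have e2 : (1 - (t - s) / (2 * t)) * rr b K t + (t - s) / (2 * t) * rr b K t = rr b K t := by
        ring
      linarith
  · have : sec b K t = ∅ := not_nonempty_iff_eq_empty.mp hne
    have h0 : rr b K t = 0 := by
      unfold rr rootArea
      rw [this]
      simp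
    rw [h0]
    exact rootArea_nonneg _

lemma rr_anti (hK : IsCompact K) (hKc : Convex ℝ K) (hsym : ∀ x ∈ K, -x ∈ K) :
    AntitoneOn (rr b K) (Icc 0 1) := by
  intro s hs t ht hst
  exact rr_anti_aux b hK hKc hsym hs.1 hst

/-- Concavity of the section profile on `[-1, 1]` when the unit ball lies in `K`. -/
lemma rr_concave (hK : IsCompact K) (hKc : Convex ℝ K)
    (hB : Metric.closedBall (0 : E3) 1 ⊆ K) : ConcaveOn ℝ (Icc (-1) 1) (rr b K) := by
  refine ⟨convex_Icc _ _, ?_⟩
  intro s hs t ht a c ha hc hac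
  have hs' : |s| ≤ 1 := abs_le.mpr hs
  have ht' : |t| ≤ 1 := abs_le.mpr ht
  have := rr_comb b hK hKc ha hc hac (sec_nonempty b hB hs') (sec_nonempty b hB ht')
  simpa [smul_eq_mul] using this

lemma rr_continuousOn (hK : IsCompact K) (hKc : Convex ℝ K)
    (hB : Metric.closedBall (0 : E3) 1 ⊆ K) : ContinuousOn (rr b K) (Ioo (-1) 1) := by
  have h := (rr_concave b hK hKc hB).continuousOn_interior
  rwa [interior_Icc] at h

end

end Vale.Agent.Lib.P237.Petty
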