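import Vale.Agent.Lib.P227.Plane3

open MeasureTheory Set
open scoped ENNReal Pointwise

namespace Vale.Agent.Lib.P237

open Vale.Agent.Lib.P227

/-- The Euclidean plane. -/
abbrev E2 := EuclideanSpace ℝ (Fin 2)

/-- The square root of the area. -/
noncomputable def rootArea (A : Set E2) : ℝ := Real.sqrt (volume A).toReal

lemma rootArea_nonneg (A : Set E2) : 0 ≤ rootArea A := Real.sqrt_nonneg _

lemma rootArea_sq (A : Set E2) : rootArea A ^ 2 = (volume A).toReal :=
  Real.sq_sqrt ENNReal.toReal_nonneg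

lemma volume_eq_rootArea {A : Set E2} (hA : IsCompact A) :
    volume A = ENNReal.ofReal (rootArea A ^ 2) := by
  rw [rootArea_sq, ENNReal.ofReal_toReal hA.measure_lt_top.ne]

/-- A scaled translate inside `C` bounds the area of `C` from below. -/
lemma scaled_le {B C : Set E2} (hB : IsCompact B) (hC : IsCompact C) {c : ℝ} (hc : 0 ≤ c) (x₀ : E2)
    (H : ∀ y ∈ B, c • y + x₀ ∈ C) : c * rootArea B ≤ rootArea C := by
  have hsub : (fun z => z + x₀) '' (c • B) ⊆ C := by
    rintro _ ⟨_, ⟨y, hy, rfl⟩, rfl⟩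
    exact H y hy
  have h1 : volume ((fun z => z + x₀) '' (c • B)) = volume (c • B) := by
    rw [Set.image_add_right, measure_preimage_add_right]
  have h2 := measure_mono (μ := volume) hsub
  rw [h1, volume_smul_plane, volume_eq_rootArea hB, volume_eq_rootArea hC,
    ← ENNReal.ofReal_mul (sq_nonneg c), ENNReal.ofReal_le_ofReal_iff (sq_nonneg _)] at h2
  have h3 : (c * rootArea B) ^ 2 ≤ rootArea C ^ 2 := by
    rw [mul_pow]
    exact h2
  exact (pow_le_pow_iff_left₀ (mul_nonneg hc (rootArea_nonneg B)) (rootArea_nonneg C)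
    (by norm_num)).mp h3

/-- **Brunn-Minkowski in the plane**, additive form. -/
theorem bm_plane {A B C : Set E2} (hA : IsCompact A) (hB : IsCompact B) (hC : IsCompact C)
    (hA' : A.Nonempty) (hB' : B.Nonempty) {l : ℝ} (l0 : 0 ≤ l) (l1 : l ≤ 1)
    (H : ∀ x ∈ A, ∀ y ∈ B, (1 - l) • x + l • y ∈ C) :
    (1 - l) * rootArea A + l * rootArea B ≤ rootArea C := by
  obtain ⟨x₁, hx₁⟩ := hA'
  obtain ⟨y₁, hy₁⟩ := hB'
  have hBle : l * rootArea B ≤ rootArea C :=
    scaled_le hB hC l0 ((1 - l) • x₁) (fun y hy => by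
      rw [add_comm]
      exact H x₁ hx₁ y hy)
  have hAle : (1 - l) * rootArea A ≤ rootArea C :=
    scaled_le hA hC (by linarith) (l • y₁) (fun x hx => H x hx y₁ hy₁)
  rcases (rootArea_nonneg A).eq_or_lt with hα | hα
  · rw [← hα, mul_zero, zero_add]
    exact hBle
  rcases (rootArea_nonneg B).eq_or_lt with hβ | hβ
  · rw [← hβ, mul_zero, add_zero]
    exact hAle
  rcases l0.eq_or_lt with hl | hl
  · rw [← hl] at hAle ⊢
    linarith
  rcases l1.eq_or_lt with hl' | hl'
  · rw [hl'] at hBle ⊢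
    linarith
  set α := rootArea A with hαd
  set β := rootArea B with hβd
  set γ := rootArea C with hγd
  have hml : 0 < 1 - l := by linarith
  set s := (1 - l) * α + l * β with hs
  have hs0 : 0 < s := by positivity
  set t := l * β / s with ht
  have ht0 : 0 < t := by positivity
  have ht1 : t < 1 := by
    rw [ht, div_lt_one hs0, hs]
    have : 0 < (1 - l) * α := by positivity
    linarith
  have h1t : 1 - t = (1 - l) * α / s := by
    rw [ht, hs]
    field_simp
    ring
  have hPL := pl_sets (t := t) (A := α⁻¹ • A) (B := β⁻¹ • B) (C := s⁻¹ • C)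
    (hA.smul _).measurableSet (hB.smul _).measurableSet (hC.smul _).measurableSet ht0 ht1 (by
      rintro _ ⟨x, hx, rfl⟩ _ ⟨y, hy, rfl⟩
      refine ⟨(1 - l) • x + l • y, H x hx y hy, ?_⟩
      simp only [smul_add, smul_smul]
      have e1 : s⁻¹ * (1 - l) = (1 - t) * α⁻¹ := by
        rw [h1t]
        field_simp
      have e2 : s⁻¹ * l = t * β⁻¹ := by
        rw [ht]
        field_simp
      rw [e1, e2])
  have hvA : volume (α⁻¹ • A) = 1 := by
    rw [volume_smul_plane, volume_eq_rootArea hA, ← hαd, ← ENNReal.ofReal_mul (sq_nonneg _)]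
    rw [show (α⁻¹) ^ 2 * α ^ 2 = 1 by field_simp]
    simp
  have hvB : volume (β⁻¹ • B) = 1 := by
    rw [volume_smul_plane, volume_eq_rootArea hB, ← hβd, ← ENNReal.ofReal_mul (sq_nonneg _)]
    rw [show (β⁻¹) ^ 2 * β ^ 2 = 1 by field_simp]
    simp
  rw [hvA, hvB, volume_smul_plane, volume_eq_rootArea hC, ← hγd,
    ← ENNReal.ofReal_mul (sq_nonneg _)] at hPL
  simp only [ENNReal.one_rpow, one_mul] at hPL
  rw [show (1 : ℝ≥0∞) = ENNReal.ofReal 1 by simp,
    ENNReal.ofReal_le_ofReal_iff (by positivity)] at hPL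
  have h2 : s ^ 2 ≤ γ ^ 2 := by
    have : (s⁻¹) ^ 2 * γ ^ 2 * s ^ 2 = γ ^ 2 := by
      field_simp
    calc s ^ 2 = 1 * s ^ 2 := by ring
      _ ≤ (s⁻¹) ^ 2 * γ ^ 2 * s ^ 2 := by
          apply mul_le_mul_of_nonneg_right hPL (by positivity)
      _ = γ ^ 2 := this
  exact (pow_le_pow_iff_left₀ hs0.le (rootArea_nonneg C) (by norm_num)).mp h2

end Vale.Agent.Lib.P237
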