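import Mathlib

open MeasureTheory Set intervalIntegral

namespace Vale.Agent.Lib.P237

/-- An explicit integral of a quadratic. -/
lemma integral_line_sq (α β m : ℝ) :
    ∫ t in (0 : ℝ)..m, (α - β * t) ^ 2 = α ^ 2 * m - α * β * m ^ 2 + β ^ 2 * m ^ 3 / 3 := by
  have : ∀ t ∈ uIcc (0 : ℝ) m, HasDerivAt
      (fun t => α ^ 2 * t - α * β * t ^ 2 + β ^ 2 * t ^ 3 / 3) ((α - β * t) ^ 2) t := by
    intro t _
    have h1 : HasDerivAt (fun t : ℝ => α ^ 2 * t) (α ^ 2) t := by
      simpa using (hasDerivAt_id t).const_mul (α ^ 2)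
    have h2 : HasDerivAt (fun t : ℝ => α * β * t ^ 2) (α * β * (2 * t)) t := by
      have := (hasDerivAt_pow 2 t).const_mul (α * β)
      simpa using this
    have h3 : HasDerivAt (fun t : ℝ => β ^ 2 * t ^ 3 / 3) (β ^ 2 * (3 * t ^ 2) / 3) t := by
      have := ((hasDerivAt_pow 3 t).const_mul (β ^ 2)).div_const 3
      simpa using this
    exact ((h1.fun_sub h2).fun_add h3).congr_deriv (by ring)
  rw [integral_eq_sub_of_hasDerivAt this]
  · ring
  · apply Continuous.intervalIntegrable
    fun_prop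

/-- An explicit integral of an affine function. -/
lemma integral_line (α β m : ℝ) :
    ∫ t in (0 : ℝ)..m, (α - β * t) = α * m - β * m ^ 2 / 2 := by
  have : ∀ t ∈ uIcc (0 : ℝ) m, HasDerivAt
      (fun t => α * t - β * t ^ 2 / 2) (α - β * t) t := by
    intro t _
    have h1 : HasDerivAt (fun t : ℝ => α * t) α t := by
      simpa using (hasDerivAt_id t).const_mul α
    have h2 : HasDerivAt (fun t : ℝ => β * t ^ 2 / 2) (β * (2 * t) / 2) t := by
      have := ((hasDerivAt_pow 2 t).const_mul β).div_const 2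
      simpa using this
    exact (h1.fun_sub h2).congr_deriv (by ring)
  rw [integral_eq_sub_of_hasDerivAt this]
  · ring
  · apply Continuous.intervalIntegrable
    fun_prop

/-- **Berwald's inequality** for a nonincreasing concave function on `[0, m]`. -/
theorem berwald {f : ℝ → ℝ} {m : ℝ} (hm : 0 < m) (hc : ConcaveOn ℝ (Icc 0 m) f)
    (ha : AntitoneOn f (Icc 0 m)) (h0 : ∀ t ∈ Icc 0 m, 0 ≤ f t) :
    (3 / 4) * m * ∫ t in (0 : ℝ)..m, (f t) ^ 2 ≤ (∫ t in (0 : ℝ)..m, f t) ^ 2 := by
  have huIcc : uIcc (0 : ℝ) m = Icc 0 m := uIcc_of_le hm.le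
  have hf : IntervalIntegrable f volume 0 m := by
    apply AntitoneOn.intervalIntegrable
    rwa [huIcc]
  have hf2 : IntervalIntegrable (fun t => (f t) ^ 2) volume 0 m := by
    apply AntitoneOn.intervalIntegrable
    rw [huIcc]
    intro x hx y hy hxy
    exact pow_le_pow_left₀ (h0 y hy) (ha hx hy hxy) 2
  set A := ∫ t in (0 : ℝ)..m, f t with hA
  have hA0 : 0 ≤ A := by
    apply intervalIntegral.integral_nonneg hm.le
    exact h0
  set α := 2 * A / m with hα
  set β := 2 * A / m ^ 2 with hβ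
  have hα0 : 0 ≤ α := by positivity
  have hβ0 : 0 ≤ β := by positivity
  set l : ℝ → ℝ := fun t => α - β * t with hl
  have hlm : l m = 0 := by
    simp only [hl, hα, hβ]
    field_simp
    ring
  have hlint : ∫ t in (0 : ℝ)..m, l t = A := by
    rw [hl, integral_line, hα, hβ]
    field_simp
    ring
  have hl2int : ∫ t in (0 : ℝ)..m, (l t) ^ 2 = 4 * A ^ 2 / (3 * m) := by
    rw [hl, integral_line_sq, hα, hβ]
    field_simp
    ring
  have hlanti : ∀ s t : ℝ, s ≤ t → l t ≤ l s := by
    intro s t hst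
    simp only [hl]
    have := mul_le_mul_of_nonneg_left hst hβ0
    linarith
  have hlaff : ∀ a b s t : ℝ, a + b = 1 → l (a * s + b * t) = a * l s + b * l t := by
    intro a b s t hab
    simp only [hl]
    have : b = 1 - a := by linarith
    subst this
    ring
  -- the crossing point
  set S : Set ℝ := {t | t ∈ Icc 0 m ∧ 0 ≤ f t - l t} with hS
  have hmS : m ∈ S := by
    refine ⟨⟨hm.le, le_refl _⟩, ?_⟩
    rw [hlm, sub_zero]
    exact h0 m ⟨hm.le, le_refl _⟩
  have hbdd : BddBelow S := ⟨0, fun t ht => ht.1.1⟩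
  set t₀ := sInf S with ht₀
  have ht₀0 : 0 ≤ t₀ := le_csInf ⟨m, hmS⟩ fun t ht => ht.1.1
  have ht₀m : t₀ ≤ m := csInf_le hbdd hmS
  have ht₀I : t₀ ∈ Icc 0 m := ⟨ht₀0, ht₀m⟩
  have hbelow : ∀ t ∈ Icc 0 m, t < t₀ → f t - l t < 0 := by
    intro t ht htt
    by_contra hcon
    have : t ∈ S := ⟨ht, not_lt.mp hcon⟩
    exact absurd (csInf_le hbdd this) (not_le.mpr htt)
  have habove : ∀ t ∈ Icc 0 m, t₀ < t → 0 ≤ f t - l t := by
    intro t ht htt
    obtain ⟨s, hs, hst⟩ := exists_lt_of_csInf_lt ⟨m, hmS⟩ htt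
    have hms : 0 < m - s := by linarith [ht.2]
    set a := (m - t) / (m - s) with ha'
    set b := (t - s) / (m - s) with hb'
    have ha0 : 0 ≤ a := div_nonneg (by linarith [ht.2]) hms.le
    have hb0 : 0 ≤ b := div_nonneg (by linarith) hms.le
    have hab : a + b = 1 := by
      rw [ha', hb']
      field_simp
      ring
    have hcomb : a * s + b * m = t := by
      rw [ha', hb']
      field_simp
      ring
    have h1 := hc.2 hs.1 (show m ∈ Icc 0 m from ⟨hm.le, le_refl _⟩) ha0 hb0 hab
    simp only [smul_eq_mul] at h1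
    rw [hcomb] at h1
    have h2 := hlaff a b s m hab
    rw [hcomb, hlm, mul_zero, add_zero] at h2
    have h3 := hs.2
    have h4 := h0 m ⟨hm.le, le_refl _⟩
    have h5 : 0 ≤ a * (f s - l s) := mul_nonneg ha0 h3
    have h6 : 0 ≤ b * f m := mul_nonneg hb0 h4
    rw [h2]
    nlinarith
  set c := f t₀ + l t₀ with hc'
  have hsign : ∀ t ∈ Icc 0 m, (f t - l t) * (f t + l t - c) ≤ 0 := by
    intro t ht
    rcases lt_trichotomy t t₀ with hlt | heq | hgt
    · have h1 := hbelow t ht hlt
      have h2 := ha ht ht₀I hlt.le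
      have h3 := hlanti t t₀ hlt.le
      have h4 : 0 ≤ f t + l t - c := by
        rw [hc']
        linarith
      exact mul_nonpos_of_nonpos_of_nonneg h1.le h4
    · rw [heq, hc']
      simp
    · have h1 := habove t ht hgt
      have h2 := ha ht₀I ht hgt.le
      have h3 := hlanti t₀ t hgt.le
      have h4 : f t + l t - c ≤ 0 := by
        rw [hc']
        linarith
      exact mul_nonpos_of_nonneg_of_nonpos h1 h4
  have hlc : Continuous l := by
    simp only [hl]
    fun_prop
  have hlI : IntervalIntegrable l volume 0 m := hlc.intervalIntegrable _ _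
  have hl2I : IntervalIntegrable (fun t => (l t) ^ 2) volume 0 m :=
    (hlc.pow 2).intervalIntegrable _ _
  have hprodI : IntervalIntegrable (fun t => (f t - l t) * (f t + l t - c)) volume 0 m := by
    have heq : (fun t => (f t - l t) * (f t + l t - c))
        = fun t => ((f t) ^ 2 - (l t) ^ 2) - c * (f t - l t) := by
      funext t
      ring
    rw [heq]
    exact (hf2.sub hl2I).sub ((hf.sub hlI).const_mul c)
  have hkey : ∫ t in (0 : ℝ)..m, (f t - l t) * (f t + l t - c) ≤ 0 := by
    have hneg := intervalIntegral.integral_nonneg (μ := volume) hm.le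
      (f := fun t => -((f t - l t) * (f t + l t - c))) (fun t ht => by linarith [hsign t ht])
    rw [intervalIntegral.integral_neg] at hneg
    linarith
  have hexpand : ∫ t in (0 : ℝ)..m, (f t - l t) * (f t + l t - c)
      = (∫ t in (0 : ℝ)..m, (f t) ^ 2) - ∫ t in (0 : ℝ)..m, (l t) ^ 2 := by
    have heq : (fun t => (f t - l t) * (f t + l t - c))
        = fun t => ((f t) ^ 2 - (l t) ^ 2) - c * (f t - l t) := by
      funext t
      ring
    rw [heq, intervalIntegral.integral_sub (hf2.sub hl2I) ((hf.sub hlI).const_mul c),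
      intervalIntegral.integral_sub hf2 hl2I, intervalIntegral.integral_const_mul,
      intervalIntegral.integral_sub hf hlI, hlint]
    simp only [hA, sub_self, mul_zero, sub_zero]
  have hfinal : ∫ t in (0 : ℝ)..m, (f t) ^ 2 ≤ 4 * A ^ 2 / (3 * m) := by
    rw [← hl2int]
    linarith
  calc (3 / 4) * m * ∫ t in (0 : ℝ)..m, (f t) ^ 2
      ≤ (3 / 4) * m * (4 * A ^ 2 / (3 * m)) := by
        apply mul_le_mul_of_nonneg_left hfinal
        positivity
    _ = A ^ 2 := by
        field_simp

end Vale.Agent.Lib.P237
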