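import Vale.Agent.Lib.P237.PettyOneD2

open MeasureTheory Set intervalIntegral Real Filter Topology

namespace Vale.Agent.Lib.P237.PettyOneD

noncomputable section

variable {ρ : ℝ → ℝ}

/-- `v = ρ² - (1 - t²)`. -/
def vv (ρ : ℝ → ℝ) (t : ℝ) : ℝ := ρ t ^ 2 - (1 - t ^ 2)

lemma rho_nonneg (hlow : ∀ t ∈ Icc (0 : ℝ) 1, rho0 t ≤ ρ t) {t : ℝ} (ht : t ∈ Icc (0 : ℝ) 1) :
    0 ≤ ρ t := (rho0_nonneg t).trans (hlow t ht)

lemma rho_pow_anti (hanti : AntitoneOn ρ (Icc 0 1)) (hlow : ∀ t ∈ Icc (0 : ℝ) 1, rho0 t ≤ ρ t)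
    (k : ℕ) : AntitoneOn (fun t => ρ t ^ k) (Icc 0 1) := by
  intro a ha b hb hab
  exact pow_le_pow_left₀ (rho_nonneg hlow hb) (hanti ha hb hab) k

lemma rho_pow_int (hanti : AntitoneOn ρ (Icc 0 1)) (hlow : ∀ t ∈ Icc (0 : ℝ) 1, rho0 t ≤ ρ t)
    (k : ℕ) : IntervalIntegrable (fun t => ρ t ^ k) volume 0 1 := by
  apply AntitoneOn.intervalIntegrable
  rw [uIcc_of_le zero_le_one]
  exact rho_pow_anti hanti hlow k

lemma vv_int (hanti : AntitoneOn ρ (Icc 0 1)) (hlow : ∀ t ∈ Icc (0 : ℝ) 1, rho0 t ≤ ρ t) :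
    IntervalIntegrable (vv ρ) volume 0 1 := by
  have h2 := rho_pow_int hanti hlow 2
  exact h2.sub ((by fun_prop : Continuous fun t : ℝ => 1 - t ^ 2).intervalIntegrable 0 1)

lemma vv_sq_int (hanti : AntitoneOn ρ (Icc 0 1)) (hlow : ∀ t ∈ Icc (0 : ℝ) 1, rho0 t ≤ ρ t) :
    IntervalIntegrable (fun t => vv ρ t ^ 2) volume 0 1 := by
  have h2 := rho_pow_int hanti hlow 2
  have h4 := rho_pow_int hanti hlow 4
  have c1 : ContinuousOn (fun t : ℝ => 2 * (1 - t ^ 2)) (uIcc 0 1) :=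
    (by fun_prop : Continuous fun t : ℝ => 2 * (1 - t ^ 2)).continuousOn
  have h := (h4.sub (h2.mul_continuousOn c1)).add
    ((by fun_prop : Continuous fun t : ℝ => (1 - t ^ 2) ^ 2).intervalIntegrable 0 1)
  refine h.congr ?_
  intro t _
  simp only [vv]
  ring

/-- The weight of the second moment. -/
def psi (t : ℝ) : ℝ := c0 - 2 / 5 + 6 / 5 * t ^ 2

lemma psi_cont : Continuous psi := by
  unfold psi
  fun_prop

lemma vv_psi_int (hanti : AntitoneOn ρ (Icc 0 1)) (hlow : ∀ t ∈ Icc (0 : ℝ) 1, rho0 t ≤ ρ t) :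
    IntervalIntegrable (fun t => vv ρ t * psi t) volume 0 1 :=
  (vv_int hanti hlow).mul_continuousOn psi_cont.continuousOn

/-- The integral identity `∫ ε C = C(1)² / 2`. -/
lemma eps_mul_CC (hanti : AntitoneOn ρ (Icc 0 1)) (hcont : ContinuousOn ρ (Ioo 0 1)) :
    ∫ t in (0 : ℝ)..1, eps ρ t * CC ρ t = CC ρ 1 ^ 2 / 2 := by
  have hint01 : IntervalIntegrable (eps ρ) volume 0 1 := eps_int hanti le_rfl zero_le_one le_rfl
  have hCcont : ContinuousOn (CC ρ) (Icc 0 1) := by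
    have h := intervalIntegral.continuousOn_primitive_interval (μ := volume) (f := eps ρ) (a := 0) (b := 1)
      (by rw [uIcc_of_le zero_le_one]
          exact (intervalIntegrable_iff_integrableOn_Icc_of_le zero_le_one).mp hint01)
    rw [uIcc_of_le zero_le_one] at h
    exact h
  have hεcont : ContinuousOn (eps ρ) (Ioo 0 1) := hcont.sub rho0_cont.continuousOn
  have hder : ∀ t ∈ Ioo (0 : ℝ) 1, HasDerivAt (CC ρ) (eps ρ t) t := by
    intro t ht
    have hmeas : StronglyMeasurableAtFilter (eps ρ) (𝓝 t) :=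
      hεcont.stronglyMeasurableAtFilter isOpen_Ioo t ht
    have hca : ContinuousAt (eps ρ) t := hεcont.continuousAt (isOpen_Ioo.mem_nhds ht)
    exact intervalIntegral.integral_hasDerivAt_right
      (eps_int hanti le_rfl ht.1.le ht.2.le) hmeas hca
  have hF : ∫ t in (0 : ℝ)..1, eps ρ t * CC ρ t
      = (fun t => CC ρ t ^ 2 / 2) 1 - (fun t => CC ρ t ^ 2 / 2) 0 := by
    refine intervalIntegral.integral_eq_sub_of_hasDerivAt_of_le
      (f := fun t => CC ρ t ^ 2 / 2) (f' := fun t => eps ρ t * CC ρ t) zero_le_one ?_ ?_ ?_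
    · exact (hCcont.pow 2).div_const 2
    · intro t ht
      have := ((hder t ht).pow 2).div_const 2
      refine this.congr_deriv ?_
      ring
    · have hc : ContinuousOn (CC ρ) (uIcc 0 1) := by rw [uIcc_of_le zero_le_one]; exact hCcont
      exact hint01.mul_continuousOn hc
  rw [hF]
  simp [CC_zero]

/-- **The one-dimensional inequality.** -/
theorem oneD (hanti : AntitoneOn ρ (Icc 0 1)) (hlow : ∀ t ∈ Icc (0 : ℝ) 1, rho0 t ≤ ρ t)
    (hcont : ContinuousOn ρ (Ioo 0 1)) :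
    (∫ t in (0 : ℝ)..1, vv ρ t * psi t) - 1 / 5 * (∫ t in (0 : ℝ)..1, vv ρ t ^ 2)
      ≤ 2 * ((∫ t in (0 : ℝ)..1, ρ t) ^ 2 - (π / 4) ^ 2) := by
  have hint01 : IntervalIntegrable (eps ρ) volume 0 1 := eps_int hanti le_rfl zero_le_one le_rfl
  have hCcont : ContinuousOn (CC ρ) (uIcc 0 1) := by
    have h := intervalIntegral.continuousOn_primitive_interval (μ := volume) (f := eps ρ) (a := 0) (b := 1)
      (by rw [uIcc_of_le zero_le_one]
          exact (intervalIntegrable_iff_integrableOn_Icc_of_le zero_le_one).mp hint01)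
    exact h
  have hR : IntervalIntegrable (fun t => eps ρ t * CC ρ t) volume 0 1 :=
    hint01.mul_continuousOn hCcont
  have hR2 : IntervalIntegrable (fun t => π * eps ρ t + 4 * (eps ρ t * CC ρ t)) volume 0 1 :=
    (hint01.const_mul π).add (hR.const_mul 4)
  have hL1 := vv_psi_int hanti hlow
  have hL2 := (vv_sq_int hanti hlow).const_mul (1 / 5 : ℝ)
  have hL : IntervalIntegrable (fun t => vv ρ t * psi t - 1 / 5 * vv ρ t ^ 2) volume 0 1 :=
    hL1.sub hL2
  have hmono : ∫ t in (0 : ℝ)..1, (vv ρ t * psi t - 1 / 5 * vv ρ t ^ 2)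
      ≤ ∫ t in (0 : ℝ)..1, (π * eps ρ t + 4 * (eps ρ t * CC ρ t)) := by
    apply intervalIntegral.integral_mono_on zero_le_one hL hR2
    intro t ht
    have hp := pointwise hanti hlow ht
    have hε := eps_nonneg hlow ht
    have hsq := rho0_sq ht
    have e : vv ρ t * psi t - 1 / 5 * vv ρ t ^ 2
        = eps ρ t * ((ρ t + rho0 t) * (c0 - 1 / 5 + t ^ 2 - ρ t ^ 2 / 5)) := by
      have hv : vv ρ t = (ρ t - rho0 t) * (ρ t + rho0 t) := by
        unfold vv
        rw [← hsq]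
        ring
      have hX : psi t - 1 / 5 * vv ρ t = c0 - 1 / 5 + t ^ 2 - ρ t ^ 2 / 5 := by
        unfold vv psi
        ring
      calc vv ρ t * psi t - 1 / 5 * vv ρ t ^ 2 = vv ρ t * (psi t - 1 / 5 * vv ρ t) := by ring
        _ = _ := by rw [hX, hv]; unfold eps; ring
    rw [e]
    have := mul_le_mul_of_nonneg_left hp hε
    nlinarith [this]
  have e1 : ∫ t in (0 : ℝ)..1, (vv ρ t * psi t - 1 / 5 * vv ρ t ^ 2)
      = (∫ t in (0 : ℝ)..1, vv ρ t * psi t) - 1 / 5 * (∫ t in (0 : ℝ)..1, vv ρ t ^ 2) := by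
    rw [intervalIntegral.integral_sub hL1 hL2, intervalIntegral.integral_const_mul]
  have e2 : ∫ t in (0 : ℝ)..1, (π * eps ρ t + 4 * (eps ρ t * CC ρ t))
      = π * CC ρ 1 + 4 * (CC ρ 1 ^ 2 / 2) := by
    rw [intervalIntegral.integral_add (hint01.const_mul π) (hR.const_mul 4),
      intervalIntegral.integral_const_mul, intervalIntegral.integral_const_mul,
      eps_mul_CC hanti hcont]
    rfl
  have e3 : CC ρ 1 = (∫ t in (0 : ℝ)..1, ρ t) - π / 4 := by
    unfold CC eps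
    rw [intervalIntegral.integral_sub (rho_int hanti le_rfl zero_le_one le_rfl)
      (rho0_cont.intervalIntegrable 0 1), integral_rho0]
  rw [e1, e2, e3] at hmono
  nlinarith [hmono]

end

end Vale.Agent.Lib.P237.PettyOneD
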