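import Vale.Agent.Lib.P237.PettyBath
import Vale.Agent.Lib.P237.PettyOneD3

/-!
# Fubini in orthonormal frames, and the moment computations of the Petty argument
-/

open MeasureTheory Set Module
open scoped RealInnerProductSpace Real

namespace Vale.Agent.Lib.P237.Petty

open Vale.Agent.Lib.P237

noncomputable section

variable (b : OrthonormalBasis (Fin 3) ℝ E3)

/-- The coordinates of a point in the frame `b`. -/
def tauB (x : E3) : E2 × ℝ := (cmap (b 0) (b 1) x, ⟪b 2, x⟫)

lemma tauB_pt (q : E2 × ℝ) : tauB b (pt b q.1 q.2) = q := by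
  ext1
  · apply ext_E2
    · simp only [tauB, cmap_zero]; exact inner_pt_zero b _ _
    · simp only [tauB, cmap_one]; exact inner_pt_one b _ _
  · exact inner_pt_two b _ _

lemma pt_tauB (x : E3) : pt b (tauB b x).1 (tauB b x).2 = x := by
  have h := b.sum_repr' x
  rw [Fin.sum_univ_three] at h
  simpa [pt, tauB] using h

lemma tauB_continuous : Continuous (tauB b) := by
  unfold tauB
  exact (cmap_continuous _ _).prodMk (continuous_const.inner continuous_id)

lemma ptPair_continuous : Continuous (fun q : E2 × ℝ => pt b q.1 q.2) := by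
  unfold pt
  fun_prop

/-- The homeomorphism given by the frame. -/
def frameHomeo : E3 ≃ₜ E2 × ℝ where
  toFun := tauB b
  invFun := fun q => pt b q.1 q.2
  left_inv := pt_tauB b
  right_inv := tauB_pt b
  continuous_toFun := tauB_continuous b
  continuous_invFun := ptPair_continuous b

lemma mp_std : MeasurePreserving (fun x : E3 => ((!₂[x 0, x 1] : E2), x 2)) volume volume := by
  have m1 : MeasurePreserving (WithLp.ofLp : E3 → Fin 3 → ℝ) volume volume :=
    PiLp.volume_preserving_ofLp (Fin 3)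
  have m2 := volume_preserving_piFinSuccAbove (fun _ : Fin 3 => ℝ) (Fin.last 2)
  have m3 : MeasurePreserving (Prod.swap : ℝ × (Fin 2 → ℝ) → (Fin 2 → ℝ) × ℝ) volume volume :=
    Measure.measurePreserving_swap
  have m4 : MeasurePreserving (Prod.map (WithLp.toLp 2 : (Fin 2 → ℝ) → E2) (id : ℝ → ℝ))
      volume volume := (PiLp.volume_preserving_toLp (Fin 2)).prod (MeasurePreserving.id _)
  have := m4.comp (m3.comp (m2.comp m1))
  convert this using 1
  funext x
  ext1
  · apply ext_E2
    · simp [MeasurableEquiv.piFinSuccAbove]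
      rfl
    · simp [MeasurableEquiv.piFinSuccAbove]
      rfl
  · simp [MeasurableEquiv.piFinSuccAbove]

lemma mp_tauB : MeasurePreserving (tauB b) volume volume := by
  have := mp_std.comp b.measurePreserving_repr
  convert this using 1
  funext x
  ext1
  · apply ext_E2
    · simp [tauB, OrthonormalBasis.repr_apply_apply]
    · simp [tauB, OrthonormalBasis.repr_apply_apply]
  · simp [tauB, OrthonormalBasis.repr_apply_apply]

lemma mp_pt : MeasurePreserving (fun q : E2 × ℝ => pt b q.1 q.2) volume volume :=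
  (show MeasurePreserving (frameHomeo b).toMeasurableEquiv volume volume from mp_tauB b).symm

lemma me_pt : MeasurableEmbedding (fun q : E2 × ℝ => pt b q.1 q.2) :=
  (frameHomeo b).symm.measurableEmbedding

lemma sec_measurable {X : Set E3} (hX : MeasurableSet X) (t : ℝ) : MeasurableSet (sec b X t) :=
  (pt_continuous b t).measurable hX

/-- **Fubini** in the frame `b`. -/
theorem fubini_sec {X : Set E3} (hX : MeasurableSet X) {f : E3 → ℝ} (hf : IntegrableOn f X) :
    ∫ x in X, f x = ∫ t, ∫ p in sec b X t, f (pt b p t) := by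
  set Φ : E2 × ℝ → E3 := fun q => pt b q.1 q.2 with hΦ
  have hmeas : MeasurableSet (Φ ⁻¹' X) := (ptPair_continuous b).measurable hX
  have h1 : ∫ x in X, f x = ∫ q in Φ ⁻¹' X, f (Φ q) :=
    ((mp_pt b).setIntegral_preimage_emb (me_pt b) f X).symm
  have hint : IntegrableOn (f ∘ Φ) (Φ ⁻¹' X) :=
    ((mp_pt b).integrableOn_comp_preimage (me_pt b)).mpr hf
  have hG : Integrable ((Φ ⁻¹' X).indicator (f ∘ Φ)) (volume.prod volume) := by
    rw [← Measure.volume_eq_prod]
    exact hint.integrable_indicator hmeas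
  rw [h1, ← integral_indicator hmeas, Measure.volume_eq_prod]
  change ∫ q, (Φ ⁻¹' X).indicator (f ∘ Φ) q ∂(volume.prod volume) = _
  rw [integral_prod_symm _ hG]
  congr 1
  funext t
  rw [← integral_indicator (sec_measurable b hX t)]
  congr 1

/-- Integrability of the outer integrand in `fubini_sec`. -/
theorem integrable_sec {X : Set E3} (hX : MeasurableSet X) {f : E3 → ℝ} (hf : IntegrableOn f X) :
    Integrable fun t => ∫ p in sec b X t, f (pt b p t) := by
  set Φ : E2 × ℝ → E3 := fun q => pt b q.1 q.2 with hΦ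
  have hmeas : MeasurableSet (Φ ⁻¹' X) := (ptPair_continuous b).measurable hX
  have hint : IntegrableOn (f ∘ Φ) (Φ ⁻¹' X) :=
    ((mp_pt b).integrableOn_comp_preimage (me_pt b)).mpr hf
  have hG : Integrable ((Φ ⁻¹' X).indicator (f ∘ Φ)) (volume.prod volume) := by
    rw [← Measure.volume_eq_prod]
    exact hint.integrable_indicator hmeas
  have := hG.integral_prod_right
  refine this.congr (Filter.Eventually.of_forall fun t => ?_)
  simp only
  rw [← integral_indicator (sec_measurable b hX t)]
  congr 1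

/-- Even functions supported in `[-1,1]`. -/
lemma integral_even {g : ℝ → ℝ} (heven : ∀ t, g (-t) = g t) (hsupp : ∀ t, 1 < |t| → g t = 0)
    (hint : IntervalIntegrable g volume 0 1) : ∫ t, g t = 2 * ∫ t in (0 : ℝ)..1, g t := by
  have h1 : ∫ t in Icc (-1 : ℝ) 1, g t = ∫ t, g t := by
    apply setIntegral_eq_integral_of_forall_compl_eq_zero
    intro t ht
    apply hsupp
    by_contra hc
    exact ht (abs_le.mp (not_lt.mp hc))
  have hneg : IntervalIntegrable g volume (-1) 0 := by
    have h := hint.comp_sub_left 0 (by simp)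
    simp only [zero_sub, sub_zero] at h
    have e : (fun t => g (-t)) = g := funext heven
    rw [e] at h
    exact h.symm
  rw [← h1, integral_Icc_eq_integral_Ioc, ← intervalIntegral.integral_of_le (by norm_num),
    ← intervalIntegral.integral_add_adjacent_intervals hneg hint]
  have h2 : ∫ t in (-1 : ℝ)..0, g t = ∫ t in (0 : ℝ)..1, g t := by
    have h3 := intervalIntegral.integral_comp_neg (a := (0 : ℝ)) (b := 1) g
    simp only [neg_zero] at h3
    have e : (fun t => g (-t)) = g := funext heven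
    rw [e] at h3
    exact h3.symm
  rw [h2]
  ring

section Body

variable {K : Set E3}

/-- The part of `K` outside the unit ball. -/
def outer (K : Set E3) : Set E3 := K \ Metric.closedBall 0 1

lemma outer_measurable (hK : IsCompact K) : MeasurableSet (outer K) :=
  hK.measurableSet.diff Metric.isClosed_closedBall.measurableSet

lemma outer_bounded (hK : IsCompact K) : Bornology.IsBounded (outer K) :=
  hK.isBounded.subset sdiff_subset

lemma outer_finite (hK : IsCompact K) : volume (outer K) ≠ ⊤ :=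
  (outer_bounded hK).measure_lt_top.ne

lemma integrableOn_outer (hK : IsCompact K) {f : E3 → ℝ} (hf : Continuous f) :
    IntegrableOn f (outer K) :=
  (hf.continuousOn.integrableOn_compact hK).mono_set sdiff_subset

lemma mem_sec_outer {p : E2} {t : ℝ} (ht : |t| ≤ 1) :
    p ∈ sec b (outer K) t ↔ p ∈ sec b K t ∧ p ∉ Metric.closedBall (0 : E2) √(1 - t ^ 2) := by
  have h1 : 0 ≤ 1 - t ^ 2 := by
    have := sq_abs t
    nlinarith [abs_nonneg t]
  have key : pt b p t ∈ Metric.closedBall (0 : E3) 1 ↔ p ∈ Metric.closedBall (0 : E2) √(1 - t ^ 2) := by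
    rw [mem_closedBall_zero_iff, mem_closedBall_zero_iff, Real.le_sqrt (norm_nonneg _) h1]
    have h2 := norm_sq_pt b p t
    constructor
    · intro h
      have := (pow_le_one_iff_of_nonneg (norm_nonneg _) two_ne_zero).mpr h
      linarith
    · intro h
      apply (pow_le_one_iff_of_nonneg (norm_nonneg _) two_ne_zero).mp
      linarith
  constructor
  · rintro ⟨h3, h4⟩
    exact ⟨h3, fun h => h4 (key.mpr h)⟩
  · rintro ⟨h3, h4⟩
    exact ⟨h3, fun h => h4 (key.mp h)⟩

lemma disc_subset_sec (hB : Metric.closedBall (0 : E3) 1 ⊆ K) {t : ℝ} (ht : |t| ≤ 1) :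
    Metric.closedBall (0 : E2) √(1 - t ^ 2) ⊆ sec b K t := by
  intro p hp
  apply hB
  have h1 : 0 ≤ 1 - t ^ 2 := by
    have := sq_abs t
    nlinarith [abs_nonneg t]
  rw [mem_closedBall_zero_iff, Real.le_sqrt (norm_nonneg _) h1] at hp
  rw [mem_closedBall_zero_iff]
  apply (pow_le_one_iff_of_nonneg (norm_nonneg _) two_ne_zero).mp
  have h2 := norm_sq_pt b p t
  linarith

lemma volume_disc {t : ℝ} (ht : |t| ≤ 1) :
    (volume (Metric.closedBall (0 : E2) √(1 - t ^ 2))).toReal = π * (1 - t ^ 2) := by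
  have h1 : 0 ≤ 1 - t ^ 2 := by
    have := sq_abs t
    nlinarith [abs_nonneg t]
  rw [EuclideanSpace.volume_closedBall_fin_two]
  rw [ENNReal.toReal_mul, ENNReal.toReal_pow, ENNReal.toReal_ofReal (Real.sqrt_nonneg _),
    Real.sq_sqrt h1, ENNReal.toReal_ofReal Real.pi_pos.le]
  ring

/-- Area of the sections of the outer part. -/
lemma area_outer (hK : IsCompact K) (hB : Metric.closedBall (0 : E3) 1 ⊆ K) {t : ℝ} (ht : |t| ≤ 1) :
    (volume (sec b (outer K) t)).toReal = rr b K t ^ 2 - π * (1 - t ^ 2) := by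
  have e : sec b (outer K) t = sec b K t \ Metric.closedBall (0 : E2) √(1 - t ^ 2) := by
    ext p
    rw [mem_sec_outer b ht]
    rfl
  have hbfin : volume (Metric.closedBall (0 : E2) √(1 - t ^ 2)) ≠ ⊤ :=
    (isCompact_closedBall _ _).measure_lt_top.ne
  rw [e, measure_sdiff (disc_subset_sec b hB ht) Metric.isClosed_closedBall.measurableSet.nullMeasurableSet
    hbfin, ENNReal.toReal_sub_of_le (measure_mono (disc_subset_sec b hB ht))
    (sec_compact b hK t).measure_lt_top.ne, volume_disc ht]
  unfold rr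
  rw [rootArea_sq]

lemma sec_empty (hsym : ∀ x ∈ K, -x ∈ K) (hw : ∀ x ∈ K, ⟪x, b 2⟫ ≤ 1) {t : ℝ} (ht : 1 < |t|) :
    sec b K t = ∅ := by
  rw [eq_empty_iff_forall_notMem]
  intro p hp
  have h1 : ⟪pt b p t, b 2⟫ = t := by rw [real_inner_comm]; exact inner_pt_two b p t
  have h2 := hw _ hp
  have h3 := hw _ (hsym _ hp)
  rw [inner_neg_left, h1] at h3
  rw [h1] at h2
  have : |t| ≤ 1 := abs_le.mpr ⟨by linarith, h2⟩
  linarith

lemma sec_outer_empty (hsym : ∀ x ∈ K, -x ∈ K) (hw : ∀ x ∈ K, ⟪x, b 2⟫ ≤ 1) {t : ℝ} (ht : 1 < |t|) :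
    sec b (outer K) t = ∅ := by
  have h := sec_empty b hsym hw ht
  rw [eq_empty_iff_forall_notMem] at h ⊢
  exact fun p hp => h p hp.1

/-- The profile `ρ` normalized against the unit disc. -/
def rhoB (b : OrthonormalBasis (Fin 3) ℝ E3) (K : Set E3) (t : ℝ) : ℝ := rr b K t / √π

lemma sqrt_pi_pos : 0 < √π := Real.sqrt_pos.mpr Real.pi_pos

lemma rhoB_anti (hK : IsCompact K) (hKc : Convex ℝ K) (hsym : ∀ x ∈ K, -x ∈ K) :
    AntitoneOn (rhoB b K) (Icc 0 1) := by
  intro s hs t ht hst
  exact div_le_div_of_nonneg_right (rr_anti b hK hKc hsym hs ht hst) sqrt_pi_pos.le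

lemma rhoB_cont (hK : IsCompact K) (hKc : Convex ℝ K) (hB : Metric.closedBall (0 : E3) 1 ⊆ K) :
    ContinuousOn (rhoB b K) (Ioo 0 1) := by
  have h := (rr_continuousOn b hK hKc hB).mono (show Ioo (0 : ℝ) 1 ⊆ Ioo (-1) 1 from
    Ioo_subset_Ioo_left (by norm_num))
  exact h.div_const _

/-- `vv` in terms of section area. -/
lemma pi_vv (t : ℝ) :
    π * PettyOneD.vv (rhoB b K) t = rr b K t ^ 2 - π * (1 - t ^ 2) := by
  have hπ : 0 < π := Real.pi_pos
  unfold PettyOneD.vv rhoB
  rw [div_pow, Real.sq_sqrt hπ.le]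
  field_simp

/-- **(P2)** the section contains the disc. -/
lemma rhoB_low (hK : IsCompact K) (hB : Metric.closedBall (0 : E3) 1 ⊆ K) :
    ∀ t ∈ Icc (0 : ℝ) 1, PettyOneD.rho0 t ≤ rhoB b K t := by
  intro t ht
  have ht' : |t| ≤ 1 := abs_le.mpr ⟨by linarith [ht.1], ht.2⟩
  have h1 := area_outer b hK hB ht'
  have h2 : 0 ≤ (volume (sec b (outer K) t)).toReal := ENNReal.toReal_nonneg
  have hπ : 0 < π := Real.pi_pos
  have h3 : 0 ≤ π * PettyOneD.vv (rhoB b K) t := by
    rw [pi_vv, ← h1]
    exact h2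
  have h4 : 0 ≤ PettyOneD.vv (rhoB b K) t := nonneg_of_mul_nonneg_right h3 hπ
  unfold PettyOneD.vv at h4
  unfold PettyOneD.rho0
  apply Real.sqrt_le_iff.mpr
  refine ⟨div_nonneg (rootArea_nonneg _) sqrt_pi_pos.le, by linarith⟩

lemma outer_symm (hsym : ∀ x ∈ K, -x ∈ K) : ∀ x ∈ outer K, -x ∈ outer K := by
  rintro x ⟨h1, h2⟩
  refine ⟨hsym x h1, fun h => h2 ?_⟩
  simpa [mem_closedBall_zero_iff] using h

/-- Evenness of the outer area. -/
lemma area_even (hsym : ∀ x ∈ K, -x ∈ K) (t : ℝ) :
    (volume (sec b (outer K) (-t))).toReal = (volume (sec b (outer K) t)).toReal := by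
  rw [sec_neg_eq b (outer_symm hsym) t, Measure.measure_neg]

lemma area_supp (hsym : ∀ x ∈ K, -x ∈ K) (hw : ∀ x ∈ K, ⟪x, b 2⟫ ≤ 1) {t : ℝ} (ht : 1 < |t|) :
    (volume (sec b (outer K) t)).toReal = 0 := by
  rw [sec_outer_empty b hsym hw ht]
  simp

/-- **(P4)** the weighted volume of the outer part. -/
theorem outer_psi (hK : IsCompact K) (hKc : Convex ℝ K) (hsym : ∀ x ∈ K, -x ∈ K)
    (hB : Metric.closedBall (0 : E3) 1 ⊆ K) (hw : ∀ x ∈ K, ⟪x, b 2⟫ ≤ 1) :
    ∫ x in outer K, (PettyOneD.c0 - 2 / 5 + 6 / 5 * ⟪b 2, x⟫ ^ 2)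
      = 2 * π * ∫ t in (0 : ℝ)..1, PettyOneD.vv (rhoB b K) t * PettyOneD.psi t := by
  have hcont : Continuous fun x : E3 => PettyOneD.c0 - 2 / 5 + 6 / 5 * ⟪b 2, x⟫ ^ 2 := by
    have : Continuous fun x : E3 => ⟪b 2, x⟫ := continuous_const.inner continuous_id
    fun_prop
  rw [fubini_sec b (outer_measurable hK) (integrableOn_outer hK hcont)]
  have hconst : ∀ t, ∫ p in sec b (outer K) t, (PettyOneD.c0 - 2 / 5 + 6 / 5 * ⟪b 2, pt b p t⟫ ^ 2)
      = (volume (sec b (outer K) t)).toReal * PettyOneD.psi t := by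
    intro t
    simp only [inner_pt_two, setIntegral_const, smul_eq_mul, Measure.real, PettyOneD.psi]
  simp only [hconst]
  have hint : IntervalIntegrable
      (fun t => (volume (sec b (outer K) t)).toReal * PettyOneD.psi t) volume 0 1 := by
    have h := (PettyOneD.vv_psi_int (rhoB_anti b hK hKc hsym) (rhoB_low b hK hB)).const_mul π
    refine h.congr ?_
    intro t ht
    rw [uIoc_of_le zero_le_one] at ht
    have ht' : |t| ≤ 1 := abs_le.mpr ⟨by linarith [ht.1], ht.2⟩
    simp only
    rw [area_outer b hK hB ht', ← pi_vv]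
    ring
  rw [integral_even (fun t => by rw [area_even b hsym t]; simp [PettyOneD.psi])
    (fun t ht => by rw [area_supp b hsym hw ht, zero_mul]) hint]
  have : ∫ t in (0 : ℝ)..1, (volume (sec b (outer K) t)).toReal * PettyOneD.psi t
      = ∫ t in (0 : ℝ)..1, π * (PettyOneD.vv (rhoB b K) t * PettyOneD.psi t) := by
    apply intervalIntegral.integral_congr_ae
    refine Filter.Eventually.of_forall fun t ht => ?_
    rw [uIoc_of_le zero_le_one] at ht
    have ht' : |t| ≤ 1 := abs_le.mpr ⟨by linarith [ht.1], ht.2⟩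
    rw [area_outer b hK hB ht', ← pi_vv]
    ring
  rw [this, intervalIntegral.integral_const_mul]
  ring

/-- **(P5)** the moment of the outer part controls the square of the excess area. -/
theorem outer_moment (hK : IsCompact K) (hKc : Convex ℝ K) (hsym : ∀ x ∈ K, -x ∈ K)
    (hB : Metric.closedBall (0 : E3) 1 ⊆ K) (hw : ∀ x ∈ K, ⟪x, b 2⟫ ≤ 1) :
    π * ∫ t in (0 : ℝ)..1, PettyOneD.vv (rhoB b K) t ^ 2 ≤ ∫ x in outer K, (‖x‖ ^ 2 - 1) := by
  have hπ : 0 < π := Real.pi_pos
  have hcont : Continuous fun x : E3 => ‖x‖ ^ 2 - 1 := by fun_prop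
  have hint := integrableOn_outer hK hcont
  rw [fubini_sec b (outer_measurable hK) hint]
  have hI := integrable_sec b (outer_measurable hK) hint
  set A : ℝ → ℝ := fun t => (volume (sec b (outer K) t)).toReal with hA
  have hmono : ∫ t, A t ^ 2 / (2 * π)
      ≤ ∫ t, ∫ p in sec b (outer K) t, (‖pt b p t‖ ^ 2 - 1) := by
    apply integral_mono_of_nonneg
    · exact Filter.Eventually.of_forall fun t => by positivity
    · exact hI
    · refine Filter.Eventually.of_forall fun t => ?_
      by_cases ht : |t| ≤ 1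
      · have h1 : 0 ≤ 1 - t ^ 2 := by
          have := sq_abs t
          nlinarith [abs_nonneg t]
        have hout : ∀ p ∈ sec b (outer K) t, 1 - t ^ 2 ≤ ‖p‖ ^ 2 := by
          intro p hp
          have h2 := ((mem_sec_outer b ht).mp hp).2
          rw [mem_closedBall_zero_iff, not_le] at h2
          have h3 := Real.lt_sq_of_sqrt_lt h2
          exact h3.le
        have hbd : Bornology.IsBounded (sec b (outer K) t) :=
          (sec_compact b hK t).isBounded.subset fun p hp => hp.1
        have h4 := bathtub (sec_measurable b (outer_measurable hK) t) hbd h1 hout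
        have h5 : ∫ p in sec b (outer K) t, (‖pt b p t‖ ^ 2 - 1)
            = ∫ p in sec b (outer K) t, (‖p‖ ^ 2 - (1 - t ^ 2)) := by
          apply setIntegral_congr_fun (sec_measurable b (outer_measurable hK) t)
          intro p _
          simp only
          rw [norm_sq_pt]
          ring
        simp only [hA]
        rw [h5]
        exact h4
      · push Not at ht
        simp only [hA]
        rw [sec_outer_empty b hsym hw ht]
        simp
  have hint2 : IntervalIntegrable (fun t => A t ^ 2 / (2 * π)) volume 0 1 := by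
    have h := (PettyOneD.vv_sq_int (rhoB_anti b hK hKc hsym) (rhoB_low b hK hB)).const_mul (π / 2)
    refine h.congr ?_
    intro t ht
    rw [uIoc_of_le zero_le_one] at ht
    have ht' : |t| ≤ 1 := abs_le.mpr ⟨by linarith [ht.1], ht.2⟩
    rw [hA]
    simp only
    rw [area_outer b hK hB ht', ← pi_vv]
    field_simp
  rw [integral_even (fun t => by simp only [hA]; rw [area_even b hsym t])
    (fun t ht => by simp only [hA]; rw [area_supp b hsym hw ht]; simp) hint2] at hmono
  have h6 : ∫ t in (0 : ℝ)..1, A t ^ 2 / (2 * π)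
      = ∫ t in (0 : ℝ)..1, (π / 2) * PettyOneD.vv (rhoB b K) t ^ 2 := by
    apply intervalIntegral.integral_congr_ae
    refine Filter.Eventually.of_forall fun t ht => ?_
    rw [uIoc_of_le zero_le_one] at ht
    have ht' : |t| ≤ 1 := abs_le.mpr ⟨by linarith [ht.1], ht.2⟩
    simp only [hA]
    rw [area_outer b hK hB ht', ← pi_vv]
    field_simp
  rw [h6, intervalIntegral.integral_const_mul] at hmono
  linarith

end Body

end

end Vale.Agent.Lib.P237.Petty
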