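import Vale.Agent.Lib.P237.PettySec
import Vale.Agent.Lib.P237.PettyEq1

open MeasureTheory Set Filter Topology Module
open scoped RealInnerProductSpace Pointwise ENNReal Interval

namespace Vale.Agent.Lib.P237.Petty

open Vale.Agent.Lib.P237

noncomputable section

/-- The standard coordinates `x ↦ ((x 0, x 1), x 2)` preserve volume. -/
lemma mp_tau₀ : MeasurePreserving (fun x : E3 => ((!₂[x 0, x 1] : E2), x 2)) volume volume := by
  have m1 : MeasurePreserving (WithLp.ofLp : E3 → Fin 3 → ℝ) volume volume :=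
    PiLp.volume_preserving_ofLp (Fin 3)
  have m2 := volume_preserving_piFinSuccAbove (fun _ : Fin 3 => ℝ) (Fin.last 2)
  have m3 : MeasurePreserving (Prod.swap : ℝ × (Fin 2 → ℝ) → (Fin 2 → ℝ) × ℝ) volume volume :=
    Measure.measurePreserving_swap
  have m4 : MeasurePreserving (Prod.map (WithLp.toLp 2 : (Fin 2 → ℝ) → E2) (id : ℝ → ℝ))
      volume volume := (PiLp.volume_preserving_toLp (Fin 2)).prod (MeasurePreserving.id _)
  have := m4.comp (m3.comp (m2.comp m1))
  convert this using 1
  funext x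
  ext1
  · apply ext_E2
    · simp [MeasurableEquiv.piFinSuccAbove]
      rfl
    · simp [MeasurableEquiv.piFinSuccAbove]
      rfl
  · simp [MeasurableEquiv.piFinSuccAbove]

variable (b : OrthonormalBasis (Fin 3) ℝ E3)

/-- The coordinates of a point in the orthonormal basis `b`. -/
def coord (x : E3) : E2 × ℝ := ((!₂[⟪b 0, x⟫, ⟪b 1, x⟫] : E2), ⟪b 2, x⟫)

lemma mp_coord : MeasurePreserving (coord b) volume volume := by
  have h := mp_tau₀.comp b.measurePreserving_repr
  convert h using 1
  funext x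
  simp [coord, OrthonormalBasis.repr_apply_apply]

lemma pt_coord (x : E3) : pt b (coord b x).1 (coord b x).2 = x := by
  have h := b.sum_repr x
  rw [Fin.sum_univ_three] at h
  simp only [OrthonormalBasis.repr_apply_apply] at h
  simpa [pt, coord] using h

lemma pt_cont : Continuous fun z : E2 × ℝ => pt b z.1 z.2 := by
  unfold pt
  fun_prop

/-- The Fubini formula for the sections in direction `b 2`. -/
lemma volume_eq_lintegral_sec {X : Set E3} (hX : MeasurableSet X) :
    volume X = ∫⁻ t, volume (sec b X t) := by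
  set A : Set (E2 × ℝ) := {z | pt b z.1 z.2 ∈ X} with hA
  have hAm : MeasurableSet A := (pt_cont b).measurable hX
  have hpre : coord b ⁻¹' A = X := by
    ext x
    show pt b (coord b x).1 (coord b x).2 ∈ X ↔ x ∈ X
    rw [pt_coord]
  have h1 := (mp_coord b).measure_preimage hAm.nullMeasurableSet
  rw [hpre] at h1
  rw [h1, Measure.volume_eq_prod, Measure.prod_apply_symm hAm]
  rfl

lemma measurable_volume_sec {X : Set E3} (hX : MeasurableSet X) :
    Measurable fun t => volume (sec b X t) := by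
  set A : Set (E2 × ℝ) := {z | pt b z.1 z.2 ∈ X} with hA
  have hAm : MeasurableSet A := (pt_cont b).measurable hX
  exact measurable_measure_prodMk_right hAm

/-- The area of the section at height `t`. -/
def aa (X : Set E3) (t : ℝ) : ℝ := (volume (sec b X t)).toReal

lemma aa_eq (X : Set E3) (t : ℝ) : aa b X t = rr b X t ^ 2 := (rootArea_sq _).symm

lemma sqrt_aa (X : Set E3) (t : ℝ) : Real.sqrt (aa b X t) = rr b X t := rfl

lemma aa_nonneg (X : Set E3) (t : ℝ) : 0 ≤ aa b X t := ENNReal.toReal_nonneg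

lemma aa_integrable {X : Set E3} (hX : IsCompact X) : Integrable (aa b X) := by
  have hm := measurable_volume_sec b hX.measurableSet
  apply integrable_toReal_of_lintegral_ne_top hm.aemeasurable
  rw [← volume_eq_lintegral_sec b hX.measurableSet]
  exact hX.measure_lt_top.ne

lemma integral_aa {X : Set E3} (hX : IsCompact X) : ∫ t, aa b X t = (volume X).toReal := by
  have hm := measurable_volume_sec b hX.measurableSet
  have h2 : ∀ᵐ t, volume (sec b X t) < ∞ :=
    ae_of_all _ fun t => (sec_compact b hX t).measure_lt_top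
  rw [volume_eq_lintegral_sec b hX.measurableSet, ← integral_toReal hm.aemeasurable h2]
  rfl

/-! ### Symmetric convex bodies -/

/-- A compact convex centrally symmetric set containing a ball around the origin. -/
structure SymBody (X : Set E3) (ε : ℝ) : Prop where
  pos : 0 < ε
  compact : IsCompact X
  convex : Convex ℝ X
  sym : ∀ x ∈ X, -x ∈ X
  ball : Metric.closedBall (0 : E3) ε ⊆ X

namespace SymBody

variable {X : Set E3} {ε : ℝ}

lemma nonempty (hX : SymBody X ε) : X.Nonempty :=
  ⟨0, hX.ball (Metric.mem_closedBall_self hX.pos.le)⟩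

lemma bddAbove (hX : SymBody X ε) (y : E3) : BddAbove ((fun x : E3 => ⟪x, y⟫) '' X) :=
  (hX.compact.image (continuous_id.inner continuous_const)).bddAbove

lemma le_supp (hX : SymBody X ε) {x : E3} (hx : x ∈ X) (y : E3) : ⟪x, y⟫ ≤ supp X y :=
  le_csSup (hX.bddAbove y) ⟨x, hx, rfl⟩

lemma attained (hX : SymBody X ε) (y : E3) : ∃ x ∈ X, ⟪x, y⟫ = supp X y := by
  have hc : IsCompact ((fun x : E3 => ⟪x, y⟫) '' X) :=
    hX.compact.image (continuous_id.inner continuous_const)
  have hm := hc.sSup_mem (hX.nonempty.image _)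
  obtain ⟨x, hx, he⟩ := hm
  exact ⟨x, hx, he⟩

lemma supp_pos (hX : SymBody X ε) {y : E3} (hy : ‖y‖ = 1) : 0 < supp X y := by
  have hm : ε • y ∈ X := hX.ball (by
    rw [mem_closedBall_zero_iff, norm_smul, hy, mul_one, Real.norm_of_nonneg hX.pos.le])
  have := hX.le_supp hm y
  rw [inner_smul_left, real_inner_self_eq_norm_sq, hy] at this
  simp only [conj_trivial, one_pow, mul_one] at this
  exact hX.pos.trans_le this

lemma sec_nonempty' (hX : SymBody X ε) {t : ℝ} (ht : |t| ≤ supp X (b 2)) :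
    (sec b X t).Nonempty := by
  obtain ⟨x, hx, he⟩ := hX.attained (b 2)
  have hh : 0 < supp X (b 2) := hX.supp_pos (b.norm_eq_one 2)
  set h := supp X (b 2) with hh'
  set r := t / h with hr
  have hr1 : |r| ≤ 1 := by
    rw [hr, abs_div, abs_of_pos hh]
    exact (div_le_one hh).mpr ht
  -- the point r • x lies in X
  have hz : r • x ∈ X := by
    have h0 : (0 : E3) ∈ X := hX.ball (Metric.mem_closedBall_self hX.pos.le)
    rcases le_total 0 r with hr0 | hr0
    · have := hX.convex.smul_mem_of_zero_mem h0 hx ⟨hr0, (abs_le.mp hr1).2⟩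
      exact this
    · have hnx := hX.sym x hx
      have := hX.convex.smul_mem_of_zero_mem h0 hnx
        (show -r ∈ Icc (0 : ℝ) 1 from ⟨by linarith, by have := (abs_le.mp hr1).1; linarith⟩)
      simpa using this
  refine ⟨(coord b (r • x)).1, ?_⟩
  show pt b _ t ∈ X
  have e : t = (coord b (r • x)).2 := by
    simp only [coord, inner_smul_right]
    rw [real_inner_comm, he, hr]
    field_simp
  rw [e, pt_coord]
  exact hz

lemma sec_empty (hX : SymBody X ε) {t : ℝ} (ht : supp X (b 2) < |t|) : sec b X t = ∅ := by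
  ext p
  simp only [mem_empty_iff_false, iff_false]
  intro hp
  have h1 : pt b p t ∈ X := hp
  have h2 := hX.le_supp h1 (b 2)
  have h3 := hX.le_supp (hX.sym _ h1) (b 2)
  rw [real_inner_comm, inner_pt_two] at h2
  rw [inner_neg_left, real_inner_comm, inner_pt_two] at h3
  have := abs_le.mpr ⟨by linarith, h2⟩
  linarith

lemma aa_zero (hX : SymBody X ε) {t : ℝ} (ht : supp X (b 2) < |t|) : aa b X t = 0 := by
  unfold aa
  rw [hX.sec_empty b ht]
  simp

lemma rr_concave' (hX : SymBody X ε) :
    ConcaveOn ℝ (Icc (-supp X (b 2)) (supp X (b 2))) (rr b X) := by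
  refine ⟨convex_Icc _ _, ?_⟩
  intro s hs t ht a c ha hc hac
  have hs' : |s| ≤ supp X (b 2) := abs_le.mpr hs
  have ht' : |t| ≤ supp X (b 2) := abs_le.mpr ht
  have := rr_comb b hX.compact hX.convex ha hc hac (hX.sec_nonempty' b hs')
    (hX.sec_nonempty' b ht')
  simpa [smul_eq_mul] using this

lemma rr_cont (hX : SymBody X ε) :
    ContinuousOn (rr b X) (Ioo (-supp X (b 2)) (supp X (b 2))) := by
  have h := (hX.rr_concave' b).continuousOn_interior
  rwa [interior_Icc] at h

lemma aa_cont (hX : SymBody X ε) :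
    ContinuousOn (aa b X) (Ioo (-supp X (b 2)) (supp X (b 2))) := by
  have h := (hX.rr_cont b).pow 2
  exact h.congr fun t _ => aa_eq b X t

lemma rr_zero_pos (hX : SymBody X ε) : 0 < rr b X 0 := by
  have hsub : Metric.closedBall (0 : E2) ε ⊆ sec b X 0 := by
    intro p hp
    apply hX.ball
    rw [mem_closedBall_zero_iff] at hp ⊢
    have h := norm_sq_pt b p 0
    have h2 : ‖pt b p 0‖ ^ 2 ≤ ε ^ 2 := by
      rw [h]
      have := pow_le_pow_left₀ (norm_nonneg p) hp 2
      nlinarith
    exact (pow_le_pow_iff_left₀ (norm_nonneg _) hX.pos.le two_ne_zero).mp h2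
  have hpos : 0 < volume (Metric.closedBall (0 : E2) ε) :=
    Metric.measure_closedBall_pos _ _ hX.pos
  have hv : 0 < volume (sec b X 0) := hpos.trans_le (measure_mono hsub)
  unfold rr rootArea
  apply Real.sqrt_pos.mpr
  exact ENNReal.toReal_pos hv.ne' (sec_compact b hX.compact 0).measure_lt_top.ne

lemma rr_pos (hX : SymBody X ε) {t : ℝ} (h0 : 0 ≤ t) (ht : t < supp X (b 2)) :
    0 < rr b X t := by
  have hh : 0 < supp X (b 2) := lt_of_le_of_lt h0 ht
  set h := supp X (b 2) with hh'
  have hl0 : 0 ≤ t / h := div_nonneg h0 hh.le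
  have hl1 : 0 < 1 - t / h := by
    rw [sub_pos, div_lt_one hh]
    exact ht
  have hs0 : (sec b X 0).Nonempty := hX.sec_nonempty' b (by rw [abs_zero]; exact hh.le)
  have hsh : (sec b X h).Nonempty := hX.sec_nonempty' b (by rw [abs_of_pos hh])
  have := rr_comb b hX.compact hX.convex hl1.le hl0 (by ring) hs0 hsh
  have e : (1 - t / h) * 0 + t / h * h = t := by
    field_simp
    ring
  rw [e] at this
  have h1 : 0 ≤ t / h * rr b X h := mul_nonneg hl0 (rootArea_nonneg _)
  have h2 : 0 < (1 - t / h) * rr b X 0 := mul_pos hl1 (hX.rr_zero_pos b)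
  linarith

lemma aa_pos (hX : SymBody X ε) {t : ℝ} (h0 : 0 ≤ t) (ht : t < supp X (b 2)) :
    0 < aa b X t := by
  rw [aa_eq]
  exact pow_pos (hX.rr_pos b h0 ht) 2

lemma aa_neg (hX : SymBody X ε) (t : ℝ) : aa b X (-t) = aa b X t := by
  rw [aa_eq, aa_eq, rr_neg b hX.sym]

lemma aa_abs (hX : SymBody X ε) (t : ℝ) : aa b X |t| = aa b X t := by
  rcases abs_choice t with h | h <;> rw [h]
  exact hX.aa_neg b t

/-- Half of the volume lies above the central section. -/
lemma integral_half (hX : SymBody X ε) :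
    ∫ t in (0 : ℝ)..(supp X (b 2)), aa b X t = (volume X).toReal / 2 := by
  have hh : 0 < supp X (b 2) := hX.supp_pos (b.norm_eq_one 2)
  have h1 := integral_comp_abs (f := aa b X)
  have h2 : ∫ x, aa b X |x| = (volume X).toReal := by
    rw [← integral_aa b hX.compact]
    exact integral_congr_ae (ae_of_all _ fun t => hX.aa_abs b t)
  have h3 : ∫ x in Ioi (0 : ℝ), aa b X x = ∫ x in Ioc 0 (supp X (b 2)), aa b X x := by
    apply setIntegral_eq_of_subset_of_forall_sdiff_eq_zero measurableSet_Ioi Ioc_subset_Ioi_self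
    intro x hx
    apply hX.aa_zero b
    have h4 : 0 < x := hx.1
    have h5 : supp X (b 2) < x := by
      by_contra hcon
      exact hx.2 ⟨h4, not_lt.mp hcon⟩
    rwa [abs_of_pos h4]
  rw [intervalIntegral.integral_of_le hh.le, ← h3]
  linarith

lemma aa_intervalIntegrable (hX : IsCompact X) (u v : ℝ) :
    IntervalIntegrable (aa b X) volume u v :=
  (aa_integrable b hX).intervalIntegrable

end SymBody

/-- The Minkowski combination `(1 - l) K + l M`. -/
def midSet (l : ℝ) (K M : Set E3) : Set E3 := {z | ∃ x ∈ K, ∃ y ∈ M, z = (1 - l) • x + l • y}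

variable {K M : Set E3} {ε ε' l : ℝ}

lemma midSet_eq_image (l : ℝ) (K M : Set E3) :
    midSet l K M = (fun z : E3 × E3 => (1 - l) • z.1 + l • z.2) '' (K ×ˢ M) := by
  ext z
  constructor
  · rintro ⟨x, hx, y, hy, rfl⟩
    exact ⟨(x, y), ⟨hx, hy⟩, rfl⟩
  · rintro ⟨⟨x, y⟩, ⟨hx, hy⟩, rfl⟩
    exact ⟨x, hx, y, hy, rfl⟩

lemma midSet_compact (hK : IsCompact K) (hM : IsCompact M) : IsCompact (midSet l K M) := by
  rw [midSet_eq_image]
  apply (hK.prod hM).image
  fun_prop

lemma midSet_convex (hK : Convex ℝ K) (hM : Convex ℝ M) :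
    Convex ℝ (midSet l K M) := by
  rintro _ ⟨x, hx, y, hy, rfl⟩ _ ⟨x', hx', y', hy', rfl⟩ a c ha hc hac
  refine ⟨a • x + c • x', hK hx hx' ha hc hac, a • y + c • y', hM hy hy' ha hc hac, ?_⟩
  simp only [smul_add, smul_smul]
  rw [mul_comm a, mul_comm c, mul_comm a l, mul_comm c l]
  abel

lemma SymBody.midSet (l : ℝ) (hK : SymBody K ε) (hM : SymBody M ε') :
    SymBody (midSet l K M) (min ε ε') := by
  refine ⟨lt_min hK.pos hM.pos, midSet_compact hK.compact hM.compact,
    midSet_convex hK.convex hM.convex, ?_, ?_⟩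
  · rintro _ ⟨x, hx, y, hy, rfl⟩
    exact ⟨-x, hK.sym x hx, -y, hM.sym y hy, by simp [smul_neg]; abel⟩
  · intro z hz
    rw [mem_closedBall_zero_iff] at hz
    refine ⟨z, hK.ball ?_, z, hM.ball ?_, ?_⟩
    · rw [mem_closedBall_zero_iff]
      exact hz.trans (min_le_left _ _)
    · rw [mem_closedBall_zero_iff]
      exact hz.trans (min_le_right _ _)
    · rw [← add_smul]
      simp

lemma supp_midSet (hK : SymBody K ε) (hM : SymBody M ε') (h0 : 0 ≤ l) (h1 : l ≤ 1) (y : E3) :
    supp (midSet l K M) y = (1 - l) * supp K y + l * supp M y := by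
  have hC := SymBody.midSet l hK hM
  apply le_antisymm
  · obtain ⟨z, ⟨u, hu, v, hv, rfl⟩, he⟩ := hC.attained y
    rw [← he, inner_add_left, inner_smul_left, inner_smul_left]
    simp only [conj_trivial]
    have := mul_le_mul_of_nonneg_left (hK.le_supp hu y) (by linarith : 0 ≤ 1 - l)
    have := mul_le_mul_of_nonneg_left (hM.le_supp hv y) h0
    linarith
  · obtain ⟨u, hu, hue⟩ := hK.attained y
    obtain ⟨v, hv, hve⟩ := hM.attained y
    have := hC.le_supp (⟨u, hu, v, hv, rfl⟩ : (1 - l) • u + l • v ∈ Vale.Agent.Lib.P237.Petty.midSet l K M) y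
    rw [inner_add_left, inner_smul_left, inner_smul_left, hue, hve] at this
    simpa using this

/-- Equal volumes and no gain in the Minkowski combination force equal widths in each direction. -/
theorem supp_eq_of_volume_midSet_le (hK : SymBody K ε) (hM : SymBody M ε') (h0 : 0 < l) (h1 : l < 1)
    (hV : volume K = volume M) (hC : volume (midSet l K M) ≤ volume K) {y : E3} (hy : ‖y‖ = 1) :
    supp K y = supp M y := by
  obtain ⟨b, rfl⟩ := exists_basis hy
  have hCb := SymBody.midSet l hK hM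
  have hp : 0 < 1 - l := by linarith
  have hhK : 0 < supp K (b 2) := hK.supp_pos hy
  have hhM : 0 < supp M (b 2) := hM.supp_pos hy
  have hsC := supp_midSet hK hM h0.le h1.le (b 2)
  have hsub : ∀ {X : Set E3} {δ : ℝ}, SymBody X δ → ContinuousOn (aa b X) (Ioo 0 (supp X (b 2))) := by
    intro X δ hX
    refine (hX.aa_cont b).mono fun t ht => ⟨?_, ht.2⟩
    have := ht.1
    have := hX.supp_pos hy
    linarith
  refine one_d_eq (a₁ := aa b K) (a₂ := aa b M) (c := aa b (midSet l K M))
    (I := (volume K).toReal / 2) (p := 1 - l) (q := l) hhK hhM hp h0 (by ring)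
    (hsub hK) (hsub hM)
    (fun s hs => hK.aa_pos b hs.1.le hs.2) (fun s hs => hM.aa_pos b hs.1.le hs.2)
    (SymBody.aa_intervalIntegrable b hK.compact _ _) (SymBody.aa_intervalIntegrable b hM.compact _ _)
    (hK.integral_half b) (by rw [hV]; exact hM.integral_half b)
    (by rw [← hsC]; exact hsub hCb)
    (fun s _ => aa_nonneg b _ s)
    (SymBody.aa_intervalIntegrable b hCb.compact _ _)
    (by
      rw [← hsC, hCb.integral_half b]
      have := ENNReal.toReal_mono hK.compact.measure_lt_top.ne hC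
      linarith)
    ?_
  intro s hs t ht
  rw [sqrt_aa, sqrt_aa, aa_eq]
  have hA := hK.sec_nonempty' b (t := s) (by rw [abs_of_pos hs.1]; exact hs.2.le)
  have hB := hM.sec_nonempty' b (t := t) (by rw [abs_of_pos ht.1]; exact ht.2.le)
  have hbm := bm_plane (sec_compact b hK.compact s) (sec_compact b hM.compact t)
    (sec_compact b hCb.compact ((1 - l) * s + l * t)) hA hB h0.le h1.le (fun x hx y hy => by
      show pt b ((1 - l) • x + l • y) ((1 - l) * s + l * t) ∈ midSet l K M
      rw [pt_comb]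
      exact ⟨_, hx, _, hy, rfl⟩)
  have hnn : 0 ≤ (1 - l) * rr b K s + l * rr b M t :=
    add_nonneg (mul_nonneg hp.le (rootArea_nonneg _)) (mul_nonneg h0.le (rootArea_nonneg _))
  exact pow_le_pow_left₀ hnn hbm 2

/-- A compact convex set is determined by its support function in unit directions. -/
lemma subset_of_supp_le (hK : SymBody K ε) (hM : SymBody M ε')
    (h : ∀ y : E3, ‖y‖ = 1 → supp K y ≤ supp M y) : K ⊆ M := by
  intro x hx
  by_contra hxM
  obtain ⟨f, u, hf, hu⟩ := geometric_hahn_banach_closed_point hM.convex hM.compact.isClosed hxM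
  set w : E3 := (InnerProductSpace.toDual ℝ E3).symm f with hw
  have hfw : ∀ z, f z = ⟪w, z⟫ := fun z => (InnerProductSpace.toDual_symm_apply (𝕜 := ℝ)).symm
  obtain ⟨a, ha⟩ := hM.nonempty
  have hwne : w ≠ 0 := by
    intro h0
    have h1 := hf a ha
    rw [hfw, h0, inner_zero_left] at h1 hu
    linarith
  have hn : 0 < ‖w‖ := norm_pos_iff.mpr hwne
  set y : E3 := ‖w‖⁻¹ • w with hy
  have hyn : ‖y‖ = 1 := norm_smul_inv_norm hwne
  have hin : ∀ z, ⟪z, y⟫ = ‖w‖⁻¹ * f z := by
    intro z
    rw [hfw, hy, inner_smul_right, real_inner_comm]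
  obtain ⟨m, hm, hme⟩ := hM.attained y
  have h1 := hK.le_supp hx y
  have h2 := h y hyn
  rw [← hme, hin] at h2
  rw [hin] at h1
  have h3 := hf m hm
  have h4 : ‖w‖⁻¹ * f x ≤ ‖w‖⁻¹ * f m := h1.trans h2
  have h5 := le_of_mul_le_mul_left h4 (inv_pos.mpr hn)
  linarith

/-- The Brunn-Minkowski equality case for symmetric convex bodies of the same volume. -/
theorem eq_of_volume_midSet_le (hK : SymBody K ε) (hM : SymBody M ε') (h0 : 0 < l) (h1 : l < 1)
    (hV : volume K = volume M) (hC : volume (midSet l K M) ≤ volume K) : K = M := by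
  apply Subset.antisymm
  · exact subset_of_supp_le hK hM fun y hy => (supp_eq_of_volume_midSet_le hK hM h0 h1 hV hC hy).le
  · exact subset_of_supp_le hM hK fun y hy => (supp_eq_of_volume_midSet_le hK hM h0 h1 hV hC hy).ge

/-- A compact convex symmetric set with interior points contains a ball around the origin. -/
lemma exists_symBody {X : Set E3} (hX : IsCompact X) (hXc : Convex ℝ X) (hXs : ∀ x ∈ X, -x ∈ X)
    (hne : (interior X).Nonempty) : ∃ δ, SymBody X δ := by
  obtain ⟨x, hx⟩ := hne
  obtain ⟨r, hr, hrs⟩ := Metric.isOpen_iff.mp isOpen_interior x hx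
  refine ⟨r / 2, half_pos hr, hX, hXc, hXs, ?_⟩
  intro z hz
  rw [mem_closedBall_zero_iff] at hz
  have h1 : x + z ∈ X := interior_subset (hrs (by
    rw [Metric.mem_ball, dist_eq_norm]
    simp only [add_sub_cancel_left]
    linarith))
  have h2 : x - z ∈ X := interior_subset (hrs (by
    rw [Metric.mem_ball, dist_eq_norm]
    simp only [sub_sub_cancel_left, norm_neg]
    linarith))
  have h3 := hXs _ h2
  have := hXc h1 h3 (by norm_num : (0 : ℝ) ≤ 1 / 2) (by norm_num : (0 : ℝ) ≤ 1 / 2) (by norm_num)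
  have e : (1 / 2 : ℝ) • (x + z) + (1 / 2 : ℝ) • (-(x - z)) = z := by
    rw [neg_sub, ← smul_add, show x + z + (z - x) = (2 : ℝ) • z by rw [two_smul]; abel, smul_smul]
    norm_num
  rwa [e] at this

lemma SymBody.smul {X : Set E3} {δ c : ℝ} (hX : SymBody X δ) (hc : 0 < c) :
    SymBody (c • X) (c * δ) := by
  refine ⟨mul_pos hc hX.pos, hX.compact.smul c, hX.convex.smul c, ?_, ?_⟩
  · rintro _ ⟨x, hx, rfl⟩
    exact ⟨-x, hX.sym x hx, by simp⟩
  · intro z hz
    rw [mem_closedBall_zero_iff, ] at hz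
    refine ⟨c⁻¹ • z, hX.ball ?_, ?_⟩
    · rw [mem_closedBall_zero_iff, norm_smul, Real.norm_of_nonneg (inv_pos.mpr hc).le]
      calc c⁻¹ * ‖z‖ ≤ c⁻¹ * (c * δ) := mul_le_mul_of_nonneg_left hz (inv_pos.mpr hc).le
        _ = δ := by field_simp
    · show c • c⁻¹ • z = z
      rw [smul_smul, mul_inv_cancel₀ hc.ne', one_smul]

lemma volume_smul_E3 (c : ℝ) (hc : 0 < c) (X : Set E3) :
    volume (c • X) = ENNReal.ofReal (c ^ 3) * volume X := by
  rw [Measure.addHaar_smul, finrank_euclideanSpace_fin, abs_of_pos (by positivity)]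

/-- The scaling form of the Brunn-Minkowski equality case: if `|M| = c³ |K|` and
`|K + e M| ≤ (1 + e c)³ |K|`, then `M = c K`. -/
theorem eq_smul_of_volume_add_le (hK : SymBody K ε) (hM : SymBody M ε') {c e : ℝ} (hc : 0 < c)
    (he : 0 < e) (hV : volume M = ENNReal.ofReal (c ^ 3) * volume K)
    (hadd : volume (K + e • M) ≤ ENNReal.ofReal ((1 + e * c) ^ 3) * volume K) :
    M = c • K := by
  have hcne : c ≠ 0 := hc.ne'
  have hd : 0 < 1 + e * c := by positivity
  set M' : Set E3 := c⁻¹ • M with hM'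
  have hMb : SymBody M' (c⁻¹ * ε') := hM.smul (inv_pos.mpr hc)
  set l : ℝ := e * c / (1 + e * c) with hl
  have hl0 : 0 < l := by positivity
  have hl1 : l < 1 := by
    rw [hl, div_lt_one hd]
    linarith
  have hVM : volume K = volume M' := by
    rw [hM', volume_smul_E3 _ (inv_pos.mpr hc), hV, ← mul_assoc, ← ENNReal.ofReal_mul (by positivity)]
    have : c⁻¹ ^ 3 * c ^ 3 = 1 := by
      field_simp
    rw [this]
    simp
  have hmid : midSet l K M' = (1 + e * c)⁻¹ • (K + e • M) := by
    ext z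
    constructor
    · rintro ⟨x, hx, _, ⟨y, hy, rfl⟩, rfl⟩
      refine ⟨x + e • y, ⟨x, hx, e • y, ⟨y, hy, rfl⟩, rfl⟩, ?_⟩
      show (1 + e * c)⁻¹ • (x + e • y) = _
      simp only [smul_add, smul_smul, hl]
      congr 2
      · field_simp
        ring
      · field_simp
    · rintro ⟨_, ⟨x, hx, _, ⟨y, hy, rfl⟩, rfl⟩, rfl⟩
      refine ⟨x, hx, c⁻¹ • y, ⟨y, hy, rfl⟩, ?_⟩
      show (1 + e * c)⁻¹ • (x + e • y) = _
      simp only [smul_add, smul_smul, hl]
      congr 2
      · field_simp
        ring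
      · field_simp
  have hC : volume (midSet l K M') ≤ volume K := by
    rw [hmid, volume_smul_E3 _ (inv_pos.mpr hd)]
    calc ENNReal.ofReal ((1 + e * c)⁻¹ ^ 3) * volume (K + e • M)
        ≤ ENNReal.ofReal ((1 + e * c)⁻¹ ^ 3) * (ENNReal.ofReal ((1 + e * c) ^ 3) * volume K) := by
          gcongr
      _ = volume K := by
          rw [← mul_assoc, ← ENNReal.ofReal_mul (by positivity)]
          have : (1 + e * c)⁻¹ ^ 3 * (1 + e * c) ^ 3 = 1 := by
            field_simp
          rw [this]
          simp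
  have hEq : K = M' := eq_of_volume_midSet_le hK hMb hl0 hl1 hVM hC
  rw [hEq, hM', smul_smul, mul_inv_cancel₀ hcne, one_smul]

end

end Vale.Agent.Lib.P237.Petty
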