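import Vale.Agent.Lib.P237.PettyLimit

open MeasureTheory Set Module Filter Topology Metric
open scoped RealInnerProductSpace Pointwise ENNReal

namespace Vale.Agent.Lib.P237.Petty

open Vale.Agent.Lib.P237 Vale.Agent.Lib.P227

noncomputable section

/-- The area of a disk. -/
def disk (r : ℝ) : ℝ := (volume (closedBall (0 : E2) r)).toReal

lemma disk_pos {r : ℝ} (hr : 0 < r) : 0 < disk r :=
  ENNReal.toReal_pos (measure_closedBall_pos volume 0 hr).ne' (isCompact_closedBall 0 r).measure_lt_top.ne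

lemma cmap_norm_le (b : OrthonormalBasis (Fin 3) ℝ E3) (x : E3) : ‖cmap (b 0) (b 1) x‖ ≤ ‖x‖ := by
  have h1 : ‖cmap (b 0) (b 1) x‖ ^ 2 = ⟪b 0, x⟫ ^ 2 + ⟪b 1, x⟫ ^ 2 := by
    rw [← real_inner_self_eq_norm_sq, inner_two]
    simp
    ring
  have h2 : ‖x‖ ^ 2 = ⟪b 0, x⟫ ^ 2 + ⟪b 1, x⟫ ^ 2 + ⟪b 2, x⟫ ^ 2 := by
    rw [← b.sum_sq_norm_inner_right x, Fin.sum_univ_three]
    simp
  have h3 : ‖cmap (b 0) (b 1) x‖ ^ 2 ≤ ‖x‖ ^ 2 := by
    rw [h1, h2]
    nlinarith [sq_nonneg ⟪b 2, x⟫]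
  exact (pow_le_pow_iff_left₀ (norm_nonneg _) (norm_nonneg _) two_ne_zero).mp h3

lemma cmap_pt_eq (b : OrthonormalBasis (Fin 3) ℝ E3) (p : E2) :
    cmap (b 0) (b 1) (p 0 • b 0 + p 1 • b 1) = p := by
  have hn : ∀ i j, i ≠ j → ⟪b i, b j⟫ = 0 := fun i j hij => b.orthonormal.2 hij
  apply ext_E2
  · simp [inner_add_right, inner_smul_right, hn 0 1 (by decide)]
  · simp [inner_add_right, inner_smul_right, hn 1 0 (by decide)]

lemma norm_comb_le (b : OrthonormalBasis (Fin 3) ℝ E3) (p : E2) :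
    ‖p 0 • b 0 + p 1 • b 1‖ ≤ ‖p‖ := by
  have hs : ∀ i, ⟪b i, b i⟫ = 1 := fun i => by
    rw [real_inner_self_eq_norm_sq, b.norm_eq_one]; norm_num
  have hn : ∀ i j, i ≠ j → ⟪b i, b j⟫ = 0 := fun i j hij => b.orthonormal.2 hij
  have h1 : ‖p 0 • b 0 + p 1 • b 1‖ ^ 2 = p 0 ^ 2 + p 1 ^ 2 := by
    rw [← real_inner_self_eq_norm_sq]
    simp only [inner_add_left, inner_add_right, real_inner_smul_left, real_inner_smul_right, hs,
      hn 0 1 (by decide), hn 1 0 (by decide)]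
    ring
  have h2 : ‖p‖ ^ 2 = p 0 ^ 2 + p 1 ^ 2 := by
    rw [← real_inner_self_eq_norm_sq, inner_two]
    ring
  have h3 : ‖p 0 • b 0 + p 1 • b 1‖ ^ 2 ≤ ‖p‖ ^ 2 := by rw [h1, h2]
  exact (pow_le_pow_iff_left₀ (norm_nonneg _) (norm_nonneg _) two_ne_zero).mp h3

lemma projArea_lower {A : Set E3} (hA : IsCompact A) {r : ℝ} (hb : closedBall (0 : E3) r ⊆ A)
    {u : E3} (hu : ‖u‖ = 1) : disk r ≤ projArea A u := by
  obtain ⟨b, rfl⟩ := exists_basis hu
  have hn : ∀ i j, i ≠ j → ⟪b i, b j⟫ = 0 := fun i j hij => b.orthonormal.2 hij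
  rw [projArea_eq hA (b.norm_eq_one 0) (b.norm_eq_one 1) (b.norm_eq_one 2)
    (hn 0 1 (by decide)) (hn 0 2 (by decide)) (hn 1 2 (by decide))]
  apply ENNReal.toReal_mono (cmap_image_compact hA _ _).measure_lt_top.ne
  apply measure_mono
  intro p hp
  refine ⟨p 0 • b 0 + p 1 • b 1, hb ?_, cmap_pt_eq b p⟩
  rw [mem_closedBall_zero_iff]
  exact (norm_comb_le b p).trans (by simpa using hp)

lemma projArea_upper {A : Set E3} (hA : IsCompact A) {R : ℝ} (hb : A ⊆ closedBall (0 : E3) R)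
    {u : E3} (hu : ‖u‖ = 1) : projArea A u ≤ disk R := by
  obtain ⟨b, rfl⟩ := exists_basis hu
  have hn : ∀ i j, i ≠ j → ⟪b i, b j⟫ = 0 := fun i j hij => b.orthonormal.2 hij
  rw [projArea_eq hA (b.norm_eq_one 0) (b.norm_eq_one 1) (b.norm_eq_one 2)
    (hn 0 1 (by decide)) (hn 0 2 (by decide)) (hn 1 2 (by decide))]
  apply ENNReal.toReal_mono (isCompact_closedBall 0 R).measure_lt_top.ne
  apply measure_mono
  rintro _ ⟨x, hx, rfl⟩
  rw [mem_closedBall_zero_iff]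
  exact (cmap_norm_le b x).trans (by simpa using hb hx)

/-- A point whose inner products are bounded by the support function is in the set. -/
lemma mem_of_supp {L : Set E3} (hc : IsCompact L) (hv : Convex ℝ L) (hne : L.Nonempty) {x : E3}
    (h : ∀ u : E3, ‖u‖ = 1 → ⟪x, u⟫ ≤ supp L u) : x ∈ L := by
  by_contra hx
  obtain ⟨f, u₀, hf1, hf2⟩ := geometric_hahn_banach_closed_point hv hc.isClosed hx
  set w : E3 := (InnerProductSpace.toDual ℝ E3).symm f with hw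
  have hfw : ∀ z, f z = ⟪z, w⟫ := by
    intro z
    rw [real_inner_comm, hw, InnerProductSpace.toDual_symm_apply]
  obtain ⟨ℓ, hℓ⟩ := hne
  have hw0 : w ≠ 0 := by
    intro h0
    have h1 := hf1 _ hℓ
    rw [hfw, h0, inner_zero_right] at h1
    rw [hfw, h0, inner_zero_right] at hf2
    linarith
  have hwn : 0 < ‖w‖ := norm_pos_iff.mpr hw0
  set n : E3 := ‖w‖⁻¹ • w with hn
  have hn1 : ‖n‖ = 1 := by
    rw [hn, norm_smul, norm_inv, norm_norm, inv_mul_cancel₀ hwn.ne']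
  have h1 := h n hn1
  obtain ⟨ℓ₀, hℓ₀, hmax⟩ := hc.exists_isMaxOn ⟨ℓ, hℓ⟩ (f := fun z : E3 => ⟪z, n⟫) (by fun_prop)
  have hsup : supp L n = ⟪ℓ₀, n⟫ := by
    unfold supp
    apply IsGreatest.csSup_eq
    refine ⟨⟨ℓ₀, hℓ₀, rfl⟩, ?_⟩
    rintro _ ⟨y, hy, rfl⟩
    exact hmax hy
  rw [hsup, hn, real_inner_smul_right, real_inner_smul_right] at h1
  have h2 := le_of_mul_le_mul_left h1 (inv_pos.mpr hwn)
  have h3 := hf1 _ hℓ₀
  rw [hfw] at h3 hf2
  linarith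

/-- The projection body contains and is contained in balls. -/
lemma proj_ball_lower {A L : Set E3} (hA : IsCompact A) (hL : IsProjBody A L) {r : ℝ}
    (hb : closedBall (0 : E3) r ⊆ A) : closedBall (0 : E3) (disk r) ⊆ L := by
  intro x hx
  apply mem_of_supp hL.compact hL.convex hL.nonempty
  intro u hu
  rw [hL.support u hu]
  refine le_trans ?_ (projArea_lower hA hb hu)
  have := real_inner_le_norm x u
  rw [hu, mul_one] at this
  exact this.trans (by simpa using hx)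

lemma proj_ball_upper {A L : Set E3} (hA : IsCompact A) (hL : IsProjBody A L) {R : ℝ}
    (hb : A ⊆ closedBall (0 : E3) R) : L ⊆ closedBall (0 : E3) (disk R) := by
  intro x hx
  rw [mem_closedBall_zero_iff]
  rcases eq_or_ne x 0 with rfl | hx0
  · rw [norm_zero]
    exact ENNReal.toReal_nonneg
  have hn : 0 < ‖x‖ := norm_pos_iff.mpr hx0
  have hu : ‖‖x‖⁻¹ • x‖ = 1 := by
    rw [norm_smul, norm_inv, norm_norm, inv_mul_cancel₀ hn.ne']
  have h1 := projArea_upper hA hb hu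
  rw [← hL.support _ hu] at h1
  have h2 : ⟪x, ‖x‖⁻¹ • x⟫ ≤ supp L (‖x‖⁻¹ • x) := by
    unfold supp
    exact le_csSup ((hL.compact.image (f := fun z : E3 => ⟪z, ‖x‖⁻¹ • x⟫) (by fun_prop)).bddAbove)
      ⟨x, hx, rfl⟩
  have h3 : ⟪x, ‖x‖⁻¹ • x⟫ = ‖x‖ := by
    rw [real_inner_smul_right, real_inner_self_eq_norm_sq]
    field_simp
  rw [h3] at h2
  exact h2.trans h1

/-- A body containing the origin in its interior from positive volume. -/
lemma exists_ball_of_volume_pos {K : Set E3} (hK : IsCompact K) (hv : Convex ℝ K)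
    (hs : ∀ x ∈ K, -x ∈ K) (hpos : 0 < (volume K).toReal) :
    ∃ r > 0, closedBall (0 : E3) r ⊆ K := by
  have hint : (interior K).Nonempty := by
    by_contra hne
    rw [not_nonempty_iff_eq_empty] at hne
    have hfr : volume (frontier K) = 0 := hv.addHaar_frontier volume
    have hsub : K ⊆ frontier K := by
      rw [frontier, hK.isClosed.closure_eq, hne]
      simp
    have : volume K = 0 := measure_mono_null hsub hfr
    rw [this] at hpos
    simp at hpos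
  obtain ⟨x, hx⟩ := hint
  obtain ⟨δ, hδ, hball⟩ := Metric.isOpen_iff.mp isOpen_interior x hx
  refine ⟨δ / 2, by positivity, ?_⟩
  intro z hz
  have hz' : ‖z‖ ≤ δ / 2 := by simpa using hz
  have h1 : x + z ∈ K := interior_subset (hball (by
    rw [mem_ball, dist_eq_norm]
    simp only [add_sub_cancel_left]
    linarith))
  have h2 : x - z ∈ K := interior_subset (hball (by
    rw [mem_ball, dist_eq_norm]
    simp only [sub_sub_cancel_left, norm_neg]
    linarith))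
  have h3 := hv h1 (hs _ h2) (by norm_num : (0 : ℝ) ≤ 1 / 2) (by norm_num : (0 : ℝ) ≤ 1 / 2) (by norm_num)
  have e : (1 / 2 : ℝ) • (x + z) + (1 / 2 : ℝ) • -(x - z) = z := by
    module
  rwa [e] at h3

/-- The outer John bound from the dual contact property. -/
lemma outer_of_dual {K : Set E3} (hs : ∀ x ∈ K, -x ∈ K)
    (hdual : ∀ Q : M3, ∃ y : E3, ‖y‖ = 1 ∧ (∀ x ∈ K, ⟪x, y⟫ ≤ 1) ∧ Q.trace / 3 ≤ ⟪act Q y, y⟫) :
    K ⊆ closedBall (0 : E3) 2 := by
  intro x hx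
  rw [mem_closedBall_zero_iff]
  let Q : M3 := fun i j => x i * x j
  obtain ⟨y, hy, hc, hq⟩ := hdual Q
  have h1 : ⟪x, y⟫ ≤ 1 := hc x hx
  have h2 : - ⟪x, y⟫ ≤ 1 := by
    have := hc _ (hs x hx)
    rwa [inner_neg_left] at this
  have ht : Q.trace = ‖x‖ ^ 2 := by
    rw [Matrix.trace_fin_three, ← real_inner_self_eq_norm_sq, inner_E3]
  have hact : ⟪act Q y, y⟫ = ⟪x, y⟫ ^ 2 := by
    rw [inner_E3, inner_E3, act_coord, act_coord, act_coord]
    simp only [Q]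
    ring
  rw [ht, hact] at hq
  have h3 : ⟪x, y⟫ ^ 2 ≤ 1 := by nlinarith
  have h4 : ‖x‖ ^ 2 ≤ 2 ^ 2 := by linarith
  exact (pow_le_pow_iff_left₀ (norm_nonneg _) (by norm_num) two_ne_zero).mp h4

/-- The triples passing to the limit. -/
structure GoodT (A L M : Set E3) (ρ : ℝ) : Prop where
  Ac : IsCompact A
  Av : Convex ℝ A
  As : ∀ x ∈ A, -x ∈ A
  ball : closedBall (0 : E3) 1 ⊆ A
  outer : A ⊆ closedBall (0 : E3) 2
  proj1 : IsProjBody A L
  Ls : ∀ x ∈ L, -x ∈ L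
  proj2 : IsProjBody L M
  Ms : ∀ x ∈ M, -x ∈ M
  dual : ∀ Q : M3, ∃ y : E3, ‖y‖ = 1 ∧ (∀ x ∈ A, ⟪x, y⟫ ≤ 1) ∧ Q.trace / 3 ≤ ⟪act Q y, y⟫
  tangent : ∀ ε : ℝ, 0 ≤ ε → ∀ g₀ : ℝ, 0 < g₀ → g₀ ^ 3 = (volume A).toReal →
    (volume (msum A ε M)).toReal ≤ (g₀ + ε * ((volume L).toReal / g₀ ^ 2)) ^ 3
  mink : (volume M).toReal * (volume A).toReal ^ 2 ≤ (volume L).toReal ^ 3
  lowerR : ρ * (volume L).toReal ^ 2 ≤ (volume M).toReal

end

end Vale.Agent.Lib.P237.Petty
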