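import Vale.Agent.Lib.P237.Sections

open MeasureTheory Set
open scoped ENNReal Pointwise

namespace Vale.Agent.Lib.P237

open Vale.Agent.Lib.P227

noncomputable section

set_option linter.unusedSectionVars false

variable {ι : Type*} [Fintype ι] [DecidableEq ι]

/-- An even function on the line has twice the integral over the half line. -/
lemma lintegral_even {F : ℝ → ℝ≥0∞} (hF : ∀ τ, F (-τ) = F τ) :
    ∫⁻ τ, F τ = 2 * ∫⁻ τ in Ioi (0 : ℝ), F τ := by
  have h1 := lintegral_add_compl (μ := volume) F (measurableSet_Ioi (a := (0 : ℝ)))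
  have h2 : (Ioi (0 : ℝ))ᶜ = Iic 0 := compl_Ioi
  rw [h2, ← restrict_Iio_eq_restrict_Iic] at h1
  have h3 : ∫⁻ τ in Iio (0 : ℝ), F τ = ∫⁻ τ in Ioi (0 : ℝ), F τ := by
    have hmp := Measure.measurePreserving_neg (volume : Measure ℝ)
    have hemb : MeasurableEmbedding (Neg.neg : ℝ → ℝ) := (MeasurableEquiv.neg ℝ).measurableEmbedding
    have := hmp.setLIntegral_comp_emb hemb F (Ioi 0)
    rw [image_neg_Ioi, neg_zero] at this
    rw [← this]
    exact lintegral_congr fun τ => hF τ
  rw [← h1, h3, two_mul]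

/-- The planar generators recording a functional of `b i` and the height `h i`. -/
def heightGen (b : ι → E2) (h : ι → ℝ) (u : E2) (i : ι) : E2 := !₂[inner ℝ (b i) u, h i]

/-- The generators `h c • b d - h d • b c`. -/
def vgen (b : ι → E2) (h : ι → ℝ) (p : ι × ι) : E2 := h p.1 • b p.2 - h p.2 • b p.1

lemma coord_sum {κ : Type*} (s : Finset κ) (f : κ → E2) (k : Fin 2) :
    (∑ i ∈ s, f i) k = ∑ i ∈ s, f i k := by
  have := map_sum (EuclideanSpace.proj k : E2 →L[ℝ] ℝ) f s
  simp

lemma mem_zon_of_mem_Sec (b : ι → E2) (h : ι → ℝ) (u : E2) {t : ℝ} {y : E2}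
    (hy : y ∈ Sec b h t) :
    (!₂[inner ℝ y u, t] : E2) ∈ sumZ {0} (heightGen b h u) Finset.univ := by
  obtain ⟨r, ⟨hr1, hr2⟩, rfl⟩ := hy
  refine ⟨0, rfl, r, hr1, ?_⟩
  rw [zero_add]
  apply ext_two
  · rw [coord_sum]
    simp only [heightGen, PiLp.smul_apply, smul_eq_mul]
    simp [combo, sum_inner, real_inner_smul_left]
  · rw [coord_sum]
    simp only [heightGen, PiLp.smul_apply, smul_eq_mul]
    simp [hr2]

lemma zon_good (b : ι → E2) (h : ι → ℝ) (u : E2) :
    GoodSet (sumZ {0} (heightGen b h u) Finset.univ) :=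
  goodSet_zero.sumZ _ _

/-- The fibre of the zonogon is at least twice the support function of `Lb`. -/
lemma support_fiber (b : ι → E2) (h : ι → ℝ) (u : E2) {t : ℝ} (hg : GoodSet (Lb b h t)) :
    ENNReal.ofReal (2 * supportFn (Lb b h t) u)
      ≤ volume {s : ℝ | (!₂[s, t] : E2) ∈ sumZ {0} (heightGen b h u) Finset.univ} := by
  obtain ⟨x, hx, hmax⟩ := exists_max hg.compact hg.nonempty u
  rw [supportFn_eq_of_max hx hmax]
  obtain ⟨y, hy, z, hz, rfl⟩ := hx
  have hconv := fiber_convex (zon_good b h u).convex t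
  have h1 := mem_zon_of_mem_Sec b h u hy
  have h2 := mem_zon_of_mem_Sec b h u hz
  have hsub : Icc (inner ℝ z u) (inner ℝ y u)
      ⊆ {s : ℝ | (!₂[s, t] : E2) ∈ sumZ {0} (heightGen b h u) Finset.univ} :=
    hconv.ordConnected.out h2 h1
  calc ENNReal.ofReal (2 * inner ℝ ((1 / 2 : ℝ) • (y - z)) u)
      = volume (Icc (inner ℝ z u) (inner ℝ y u)) := by
        rw [Real.volume_Icc, real_inner_smul_left, inner_sub_left]
        congr 1
        ring
    _ ≤ _ := measure_mono hsub

lemma fiber_even (b : ι → E2) (h : ι → ℝ) (u : E2) (τ : ℝ) :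
    volume {s : ℝ | (!₂[s, -τ] : E2) ∈ sumZ {0} (heightGen b h u) Finset.univ}
      = volume {s : ℝ | (!₂[s, τ] : E2) ∈ sumZ {0} (heightGen b h u) Finset.univ} := by
  have hsym := (zon_good b h u).symm
  have : {s : ℝ | (!₂[s, -τ] : E2) ∈ sumZ {0} (heightGen b h u) Finset.univ}
      = Neg.neg ⁻¹' {s : ℝ | (!₂[s, τ] : E2) ∈ sumZ {0} (heightGen b h u) Finset.univ} := by
    ext s
    constructor
    · intro hs
      have := hsym _ hs
      have e : -(!₂[s, -τ] : E2) = !₂[-s, τ] := by
        apply ext_two <;> simp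
      rw [e] at this
      exact this
    · intro hs
      have := hsym _ hs
      have e : -(!₂[-s, τ] : E2) = !₂[s, -τ] := by
        apply ext_two <;> simp
      rw [e] at this
      exact this
  rw [this, Measure.measure_preimage_neg]

lemma pairSum_heightGen (b : ι → E2) (h : ι → ℝ) (u : E2) :
    pairSum (heightGen b h u) Finset.univ = ∑ p, |inner ℝ (vgen b h p) u| := by
  unfold pairSum
  rw [← Finset.univ_product_univ, Finset.sum_product]
  apply Finset.sum_congr rfl
  intro i _
  apply Finset.sum_congr rfl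
  intro k _
  congr 1
  rw [inner_two]
  simp only [rot_zero_coord, rot_one_coord, heightGen, vgen, inner_sub_left, real_inner_smul_left]
  simp
  ring

/-- The support function of `Lb` is nonincreasing in the height. -/
lemma support_anti (b : ι → E2) {h : ι → ℝ} (hh : Hgood h) (u : E2) :
    AntitoneOn (fun t => supportFn (Lb b h t) u) (Icc 0 (height h)) := by
  intro s hs t ht hst
  have gs := Lb_good b hh (abs_le_height_of_mem hs)
  have gt := Lb_good b hh (abs_le_height_of_mem ht)
  obtain ⟨x, hx, hmax⟩ := exists_max gt.compact gt.nonempty u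
  obtain ⟨y, hy, hmay⟩ := exists_max gs.compact gs.nonempty u
  simp only
  rw [supportFn_eq_of_max hx hmax, supportFn_eq_of_max hy hmay]
  exact hmay x (Lb_anti b h hs.1 hst hx)

lemma support_integrable (b : ι → E2) {h : ι → ℝ} (hh : Hgood h) (u : E2) :
    IntervalIntegrable (fun t => supportFn (Lb b h t) u) volume 0 (height h) := by
  apply AntitoneOn.intervalIntegrable
  rw [uIcc_of_le (hh.pos).le]
  exact support_anti b hh u

/-- The integral of the support functions of `Lb` is controlled by the generators `vgen`. -/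
theorem integral_support_le (b : ι → E2) {h : ι → ℝ} (hh : Hgood h) (u : E2) :
    2 * ∫ t in (0 : ℝ)..height h, supportFn (Lb b h t) u ≤ ∑ p, |inner ℝ (vgen b h p) u| := by
  have hm := hh.pos
  set G : ℝ → ℝ := fun t => supportFn (Lb b h t) u with hG
  have hGI : IntegrableOn G (Ioc 0 (height h)) := by
    have := support_integrable b hh u
    rwa [intervalIntegrable_iff_integrableOn_Ioc_of_le hm.le] at this
  have hvol := volume_zon (heightGen b h u) Finset.univ
  rw [vol_plane (zon_good b h u).compact.measurableSet, lintegral_even (fiber_even b h u),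
    pairSum_heightGen] at hvol
  have hle : ∫⁻ t in Ioc 0 (height h), ENNReal.ofReal (2 * G t)
      ≤ ∫⁻ τ in Ioi (0 : ℝ), volume
        {s : ℝ | (!₂[s, τ] : E2) ∈ sumZ {0} (heightGen b h u) Finset.univ} := by
    calc ∫⁻ t in Ioc 0 (height h), ENNReal.ofReal (2 * G t)
        ≤ ∫⁻ τ in Ioc 0 (height h), volume
          {s : ℝ | (!₂[s, τ] : E2) ∈ sumZ {0} (heightGen b h u) Finset.univ} := by
          apply setLIntegral_mono' measurableSet_Ioc
          intro t ht
          exact support_fiber b h u (Lb_good b hh (abs_le_height_of_mem ⟨ht.1.le, ht.2⟩))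
      _ ≤ _ := lintegral_mono_set Ioc_subset_Ioi_self
  have hnn : 0 ≤ᵐ[volume.restrict (Ioc 0 (height h))] fun t => 2 * G t := by
    filter_upwards [ae_restrict_mem measurableSet_Ioc] with t ht
    have := (Lb_good b hh (abs_le_height_of_mem ⟨ht.1.le, ht.2⟩)).support_nonneg u
    simp only [Pi.zero_apply]
    simp only [hG]
    positivity
  rw [← ofReal_integral_eq_lintegral_ofReal (hGI.const_mul 2) hnn, integral_const_mul,
    ← intervalIntegral.integral_of_le hm.le] at hle
  set J := ∫ t in (0 : ℝ)..height h, G t with hJ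
  set Q := ∑ p, |inner ℝ (vgen b h p) u| with hQ
  have hQ0 : 0 ≤ Q := Finset.sum_nonneg fun _ _ => abs_nonneg _
  have h2 : 2 * ENNReal.ofReal (2 * J) ≤ 2 * ∫⁻ τ in Ioi (0 : ℝ), volume
      {s : ℝ | (!₂[s, τ] : E2) ∈ sumZ {0} (heightGen b h u) Finset.univ} := by
    gcongr
  rw [hvol] at h2
  have e : (2 : ℝ≥0∞) * ENNReal.ofReal (2 * J) = ENNReal.ofReal (2 * (2 * J)) := by
    rw [ENNReal.ofReal_mul (by norm_num : (0 : ℝ) ≤ 2)]
    simp
  rw [e, ENNReal.ofReal_le_ofReal_iff (by positivity)] at h2
  linarith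

/-- The generator sum is the `pairSum` of `vgen`. -/
def vSum (b : ι → E2) (h : ι → ℝ) : ℝ := pairSum (vgen b h) Finset.univ

lemma vSum_nonneg (b : ι → E2) (h : ι → ℝ) : 0 ≤ vSum b h := pairSum_nonneg _ _

lemma vSum_comm (b : ι → E2) (h : ι → ℝ) :
    ∑ p, ∑ q, |inner ℝ (vgen b h q) (rot (vgen b h p))| = vSum b h := by
  unfold vSum pairSum
  rw [Finset.sum_comm]

/-- Minkowski's inequality at height `t`. -/
lemma profile_mink (b : ι → E2) {h : ι → ℝ} (hh : Hgood h) {t : ℝ}
    (ht : t ∈ Icc 0 (height h)) :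
    profile b h t * Real.sqrt (2 * vSum b h)
      ≤ 2 * ∑ p, supportFn (Lb b h t) (rot (vgen b h p)) := by
  have hg := Lb_good b hh (abs_le_height_of_mem ht)
  have hmk := minkowski_plane hg (vgen b h) Finset.univ
  have hS0 : 0 ≤ 2 * ∑ p, supportFn (Lb b h t) (rot (vgen b h p)) := by
    have := Finset.sum_nonneg (s := (Finset.univ : Finset (ι × ι)))
      fun p _ => hg.support_nonneg (rot (vgen b h p))
    positivity
  have hv0 := vSum_nonneg b h
  have hsq : (profile b h t * Real.sqrt (2 * vSum b h)) ^ 2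
      ≤ (2 * ∑ p, supportFn (Lb b h t) (rot (vgen b h p))) ^ 2 := by
    rw [mul_pow, Real.sq_sqrt (by positivity), profile, rootArea_sq]
    exact hmk
  exact (pow_le_pow_iff_left₀ (mul_nonneg (profile_nonneg _ _ _) (Real.sqrt_nonneg _)) hS0
    (by norm_num)).mp hsq

lemma profile_integrable (b : ι → E2) {h : ι → ℝ} (hh : Hgood h) :
    IntervalIntegrable (profile b h) volume 0 (height h) := by
  apply AntitoneOn.intervalIntegrable
  rw [uIcc_of_le (hh.pos).le]
  exact profile_anti b h

/-- The integrated Minkowski inequality: the Minkowski integral of the `Lb` lies in the zonogon. -/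
theorem integral_profile_le (b : ι → E2) {h : ι → ℝ} (hh : Hgood h) :
    Real.sqrt (2 * vSum b h) * ∫ t in (0 : ℝ)..height h, profile b h t ≤ vSum b h := by
  have hm := hh.pos
  have h1 : ∫ t in (0 : ℝ)..height h, profile b h t * Real.sqrt (2 * vSum b h)
      ≤ ∫ t in (0 : ℝ)..height h, 2 * ∑ p, supportFn (Lb b h t) (rot (vgen b h p)) := by
    apply intervalIntegral.integral_mono_on hm.le
    · exact (profile_integrable b hh).mul_const _
    · apply IntervalIntegrable.const_mul
      have heq : (fun x => ∑ p, supportFn (Lb b h x) (rot (vgen b h p)))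
          = ∑ p, fun t => supportFn (Lb b h t) (rot (vgen b h p)) := by
        funext x
        simp
      rw [heq]
      exact IntervalIntegrable.sum _ fun p _ => support_integrable b hh _
    · intro t ht
      exact profile_mink b hh ht
  rw [intervalIntegral.integral_mul_const, intervalIntegral.integral_const_mul,
    intervalIntegral.integral_finsetSum fun p _ => support_integrable b hh _] at h1
  have h2 : 2 * ∑ p, ∫ t in (0 : ℝ)..height h, supportFn (Lb b h t) (rot (vgen b h p))
      ≤ ∑ p, ∑ q, |inner ℝ (vgen b h q) (rot (vgen b h p))| := by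
    rw [Finset.mul_sum]
    apply Finset.sum_le_sum
    intro p _
    exact integral_support_le b hh _
  rw [vSum_comm] at h2
  rw [mul_comm]
  linarith

end

end Vale.Agent.Lib.P237
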