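import Vale.Agent.Lib.P237.Vol3b

open MeasureTheory Set Filter Topology
open scoped ENNReal Pointwise

namespace Vale.Agent.Lib.P237

open Vale.Agent.Lib.P227

noncomputable section

set_option linter.unusedSectionVars false

variable {ι : Type*} [Fintype ι] [DecidableEq ι]

/-- The quartic sum of the slice inequality. -/
def NN (b : ι → E2) (h : ι → ℝ) : ℝ :=
  ∑ c, ∑ d, ∑ e, ∑ f, |h c * tri b h d e f - h d * tri b h c e f|

lemma vSum_eq (b : ι → E2) (h : ι → ℝ) : vSum b h = NN b h := by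
  unfold vSum pairSum NN
  simp only [Fintype.sum_prod_type]
  apply Finset.sum_congr rfl
  intro c _
  apply Finset.sum_congr rfl
  intro d _
  apply Finset.sum_congr rfl
  intro e _
  apply Finset.sum_congr rfl
  intro f _
  rw [inner_rot_eq, abs_neg, wd_vgen, abs_neg]

/-- The slice inequality for nonnegative heights. -/
theorem slice_nonneg (b : ι → E2) {h : ι → ℝ} (hh : ∀ i, 0 ≤ h i) :
    (∑ i, h i) * DD b h Finset.univ ≤ NN b h := by
  rcases isEmpty_or_nonempty ι with he | hne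
  · simp [DD, NN]
  set F : ℝ → ℝ := fun ε => (∑ i, (h i + ε)) * DD b (fun i => h i + ε) Finset.univ with hF
  set G : ℝ → ℝ := fun ε => NN b fun i => h i + ε with hG
  have hFc : Continuous F := by
    simp only [hF, DD, tri]
    fun_prop
  have hGc : Continuous G := by
    simp only [hG, NN, tri]
    fun_prop
  have hF0 : F 0 = (∑ i, h i) * DD b h Finset.univ := by
    simp [hF]
  have hG0 : G 0 = NN b h := by
    simp [hG]
  rw [← hF0, ← hG0]
  apply le_of_tendsto_of_tendsto (hFc.continuousWithinAt (s := Ioi 0) (x := 0)).tendsto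
    (hGc.continuousWithinAt (s := Ioi 0) (x := 0)).tendsto
  filter_upwards [self_mem_nhdsWithin] with ε hε
  have hε' : 0 < ε := hε
  have := slice_pos b (h := fun i => h i + ε) (Hgood.of_pos fun i => by linarith [hh i])
  rw [vSum_eq] at this
  exact this

/-- The sign of a real number as a real number, with `1` at `0`. -/
def sgn1 (x : ℝ) : ℝ := if 0 ≤ x then 1 else -1

lemma sgn1_mul_self (x : ℝ) : sgn1 x * x = |x| := by
  unfold sgn1
  split_ifs with h
  · rw [one_mul, abs_of_nonneg h]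
  · rw [abs_of_neg (not_le.mp h)]
    ring

lemma abs_sgn1 (x : ℝ) : |sgn1 x| = 1 := by
  unfold sgn1
  split_ifs <;> simp

lemma tri_flip (b : ι → E2) (h : ι → ℝ) (i k l : ι) :
    tri (fun i => sgn1 (h i) • b i) (fun i => sgn1 (h i) * h i) i k l
      = sgn1 (h i) * sgn1 (h k) * sgn1 (h l) * tri b h i k l := by
  simp only [tri, wd, PiLp.smul_apply, smul_eq_mul]
  ring

lemma DD_flip (b : ι → E2) (h : ι → ℝ) :
    DD (fun i => sgn1 (h i) • b i) (fun i => sgn1 (h i) * h i) Finset.univ = DD b h Finset.univ := by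
  unfold DD
  apply Finset.sum_congr rfl
  intro i _
  apply Finset.sum_congr rfl
  intro k _
  apply Finset.sum_congr rfl
  intro l _
  rw [tri_flip, abs_mul, abs_mul, abs_mul, abs_sgn1, abs_sgn1, abs_sgn1]
  ring

lemma NN_flip (b : ι → E2) (h : ι → ℝ) :
    NN (fun i => sgn1 (h i) • b i) (fun i => sgn1 (h i) * h i) = NN b h := by
  unfold NN
  apply Finset.sum_congr rfl
  intro c _
  apply Finset.sum_congr rfl
  intro d _
  apply Finset.sum_congr rfl
  intro e _
  apply Finset.sum_congr rfl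
  intro f _
  have : sgn1 (h c) * h c * tri (fun i => sgn1 (h i) • b i) (fun i => sgn1 (h i) * h i) d e f
        - sgn1 (h d) * h d * tri (fun i => sgn1 (h i) • b i) (fun i => sgn1 (h i) * h i) c e f
      = sgn1 (h c) * sgn1 (h d) * sgn1 (h e) * sgn1 (h f)
        * (h c * tri b h d e f - h d * tri b h c e f) := by
    rw [tri_flip, tri_flip]
    ring
  rw [this, abs_mul, abs_mul, abs_mul, abs_mul, abs_sgn1, abs_sgn1, abs_sgn1, abs_sgn1]
  ring

/-- The slice inequality for arbitrary heights. -/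
theorem slice_all (b : ι → E2) (h : ι → ℝ) :
    (∑ i, |h i|) * DD b h Finset.univ ≤ NN b h := by
  have hh0 : ∀ i, 0 ≤ sgn1 (h i) * h i := fun i => by
    rw [sgn1_mul_self]
    exact abs_nonneg _
  have := slice_nonneg (fun i => sgn1 (h i) • b i) hh0
  rw [DD_flip, NN_flip] at this
  have e : ∑ i, sgn1 (h i) * h i = ∑ i, |h i| := by
    apply Finset.sum_congr rfl
    intro i _
    rw [sgn1_mul_self]
  rwa [e] at this

/-- Three dimensional Euclidean space. -/
abbrev E3 := EuclideanSpace ℝ (Fin 3)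

/-- The determinant of three vectors. -/
def det3 (x y z : E3) : ℝ :=
  x 0 * (y 1 * z 2 - y 2 * z 1) - x 1 * (y 0 * z 2 - y 2 * z 0) + x 2 * (y 0 * z 1 - y 1 * z 0)

/-- The cross product. -/
def cross (x y : E3) : E3 :=
  !₂[x 1 * y 2 - x 2 * y 1, x 2 * y 0 - x 0 * y 2, x 0 * y 1 - x 1 * y 0]

@[simp] lemma cross_0 (x y : E3) : cross x y 0 = x 1 * y 2 - x 2 * y 1 := by simp [cross]
@[simp] lemma cross_1 (x y : E3) : cross x y 1 = x 2 * y 0 - x 0 * y 2 := by simp [cross]
@[simp] lemma cross_2 (x y : E3) : cross x y 2 = x 0 * y 1 - x 1 * y 0 := by simp [cross]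

/-- The sum of absolute triple determinants of a family of vectors. -/
def D3 (a : ι → E3) : ℝ := ∑ i, ∑ k, ∑ l, |det3 (a i) (a k) (a l)|

lemma D3_nonneg (a : ι → E3) : 0 ≤ D3 a :=
  Finset.sum_nonneg fun _ _ => Finset.sum_nonneg fun _ _ => Finset.sum_nonneg fun _ _ => abs_nonneg _

/-- The linear functional with coefficients `w0, w1, w2`. -/
def lin3 (w0 w1 w2 : ℝ) (x : E3) : ℝ := w0 * x 0 + w1 * x 1 + w2 * x 2

/-- The plane part of a vector. -/
def pl (x : E3) : E2 := !₂[x 0, x 1]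

@[simp] lemma pl_0 (x : E3) : pl x 0 = x 0 := by simp [pl]
@[simp] lemma pl_1 (x : E3) : pl x 1 = x 1 := by simp [pl]

lemma tri_lin3 (a : ι → E3) (w0 w1 w2 : ℝ) (i k l : ι) :
    tri (fun i => pl (a i)) (fun i => lin3 w0 w1 w2 (a i)) i k l
      = w2 * det3 (a i) (a k) (a l) := by
  simp only [tri, wd, lin3, det3, pl_0, pl_1]
  ring

lemma DD_lin3 (a : ι → E3) (w0 w1 w2 : ℝ) :
    DD (fun i => pl (a i)) (fun i => lin3 w0 w1 w2 (a i)) Finset.univ = |w2| * D3 a := by
  unfold DD D3
  rw [Finset.mul_sum]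
  apply Finset.sum_congr rfl
  intro i _
  rw [Finset.mul_sum]
  apply Finset.sum_congr rfl
  intro k _
  rw [Finset.mul_sum]
  apply Finset.sum_congr rfl
  intro l _
  rw [tri_lin3, abs_mul]

lemma NN_lin3 (a : ι → E3) (w0 w1 w2 : ℝ) :
    NN (fun i => pl (a i)) (fun i => lin3 w0 w1 w2 (a i))
      = |w2| * ∑ c, ∑ d, ∑ e, ∑ f, |lin3 w0 w1 w2 (a c) * det3 (a d) (a e) (a f)
          - lin3 w0 w1 w2 (a d) * det3 (a c) (a e) (a f)| := by
  unfold NN
  simp only [Finset.mul_sum]
  apply Finset.sum_congr rfl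
  intro c _
  apply Finset.sum_congr rfl
  intro d _
  apply Finset.sum_congr rfl
  intro e _
  apply Finset.sum_congr rfl
  intro f _
  rw [tri_lin3, tri_lin3, ← abs_mul]
  congr 1
  ring

/-- The slice inequality for a functional whose last coefficient does not vanish. -/
lemma slice_lin3_of_ne (a : ι → E3) (w0 w1 : ℝ) {w2 : ℝ} (hw : w2 ≠ 0) :
    (∑ c, |lin3 w0 w1 w2 (a c)|) * D3 a
      ≤ ∑ c, ∑ d, ∑ e, ∑ f, |lin3 w0 w1 w2 (a c) * det3 (a d) (a e) (a f)
          - lin3 w0 w1 w2 (a d) * det3 (a c) (a e) (a f)| := by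
  have h := slice_all (fun i => pl (a i)) (fun i => lin3 w0 w1 w2 (a i))
  rw [DD_lin3, NN_lin3] at h
  have hw' : 0 < |w2| := abs_pos.mpr hw
  have h2 : |w2| * ((∑ c, |lin3 w0 w1 w2 (a c)|) * D3 a)
      ≤ |w2| * ∑ c, ∑ d, ∑ e, ∑ f, |lin3 w0 w1 w2 (a c) * det3 (a d) (a e) (a f)
          - lin3 w0 w1 w2 (a d) * det3 (a c) (a e) (a f)| := by
    calc _ = (∑ c, |lin3 w0 w1 w2 (a c)|) * (|w2| * D3 a) := by ring
      _ ≤ _ := h
  exact le_of_mul_le_mul_left h2 hw'

/-- The slice inequality for an arbitrary linear functional. -/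
theorem slice_lin3 (a : ι → E3) (w0 w1 w2 : ℝ) :
    (∑ c, |lin3 w0 w1 w2 (a c)|) * D3 a
      ≤ ∑ c, ∑ d, ∑ e, ∑ f, |lin3 w0 w1 w2 (a c) * det3 (a d) (a e) (a f)
          - lin3 w0 w1 w2 (a d) * det3 (a c) (a e) (a f)| := by
  by_cases hw : w2 ≠ 0
  · exact slice_lin3_of_ne a w0 w1 hw
  have hw0 : w2 = 0 := not_not.mp hw
  subst hw0
  set F : ℝ → ℝ := fun t => (∑ c, |lin3 w0 w1 t (a c)|) * D3 a with hF
  set G : ℝ → ℝ := fun t => ∑ c, ∑ d, ∑ e, ∑ f, |lin3 w0 w1 t (a c) * det3 (a d) (a e) (a f)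
          - lin3 w0 w1 t (a d) * det3 (a c) (a e) (a f)| with hG
  have hFc : Continuous F := by
    simp only [hF, lin3]
    fun_prop
  have hGc : Continuous G := by
    simp only [hG, lin3]
    fun_prop
  apply le_of_tendsto_of_tendsto (hFc.continuousWithinAt (s := Ioi 0) (x := 0)).tendsto
    (hGc.continuousWithinAt (s := Ioi 0) (x := 0)).tendsto
  filter_upwards [self_mem_nhdsWithin] with ε hε
  have hε' : 0 < ε := hε
  exact slice_lin3_of_ne a w0 w1 hε'.ne'

lemma lin3_cross (x y z : E3) :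
    lin3 (cross x y 0) (cross x y 1) (cross x y 2) z = det3 x y z := by
  simp only [lin3, det3, cross_0, cross_1, cross_2]
  ring

lemma det3_cross (a b c d e f : E3) :
    det3 (cross a b) (cross c d) (cross e f)
      = det3 a b d * det3 c e f - det3 a b c * det3 d e f := by
  simp only [det3, cross_0, cross_1, cross_2]
  ring

/-- The sextic sum of absolute determinants of cross products. -/
def L3 (a : ι → E3) : ℝ :=
  ∑ i, ∑ j, ∑ c, ∑ d, ∑ e, ∑ f, |det3 (cross (a i) (a j)) (cross (a c) (a d)) (cross (a e) (a f))|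

/-- **The main algebraic inequality**. -/
theorem D3_sq_le_L3 (a : ι → E3) : D3 a ^ 2 ≤ L3 a := by
  have hstep : ∀ i j, (∑ c, |det3 (a i) (a j) (a c)|) * D3 a
      ≤ ∑ c, ∑ d, ∑ e, ∑ f,
        |det3 (cross (a i) (a j)) (cross (a c) (a d)) (cross (a e) (a f))| := by
    intro i j
    have := slice_lin3 a (cross (a i) (a j) 0) (cross (a i) (a j) 1) (cross (a i) (a j) 2)
    simp only [lin3_cross] at this
    refine this.trans (le_of_eq ?_)
    apply Finset.sum_congr rfl
    intro c _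
    apply Finset.sum_congr rfl
    intro d _
    apply Finset.sum_congr rfl
    intro e _
    apply Finset.sum_congr rfl
    intro f _
    rw [det3_cross, ← abs_neg]
    congr 1
    ring
  calc D3 a ^ 2 = ∑ i, ∑ j, (∑ c, |det3 (a i) (a j) (a c)|) * D3 a := by
        rw [sq]
        simp only [← Finset.sum_mul]
        rfl
    _ ≤ L3 a := by
        unfold L3
        apply Finset.sum_le_sum
        intro i _
        apply Finset.sum_le_sum
        intro j _
        exact hstep i j

end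

end Vale.Agent.Lib.P237
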