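import Vale.Agent.Lib.P237.Berwald

open MeasureTheory Set intervalIntegral Filter Topology

namespace Vale.Agent.Lib.P237

/-- The integral of a linear ramp. -/
lemma integral_ramp (β b c : ℝ) : ∫ t in c..b, β * (b - t) = β * (b - c) ^ 2 / 2 := by
  have : ∀ t ∈ uIcc c b, HasDerivAt (fun t => -(β * (b - t) ^ 2 / 2)) (β * (b - t)) t := by
    intro t _
    have h1 : HasDerivAt (fun t : ℝ => b - t) (-1) t := by
      simpa using (hasDerivAt_id t).const_sub b
    have h2 := (((h1.pow 2).const_mul β).div_const 2).neg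
    exact h2.congr_deriv (by simp; ring)
  rw [integral_eq_sub_of_hasDerivAt this (Continuous.intervalIntegrable (by fun_prop) _ _)]
  ring

/-- The integral of the square of a linear ramp. -/
lemma integral_ramp_sq (β b c : ℝ) :
    ∫ t in c..b, (β * (b - t)) ^ 2 = β ^ 2 * (b - c) ^ 3 / 3 := by
  have : ∀ t ∈ uIcc c b, HasDerivAt (fun t => -(β ^ 2 * (b - t) ^ 3 / 3)) ((β * (b - t)) ^ 2) t := by
    intro t _
    have h1 : HasDerivAt (fun t : ℝ => b - t) (-1) t := by
      simpa using (hasDerivAt_id t).const_sub b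
    have h2 := (((h1.pow 3).const_mul (β ^ 2)).div_const 3).neg
    exact h2.congr_deriv (by simp; ring)
  rw [integral_eq_sub_of_hasDerivAt this (Continuous.intervalIntegrable (by fun_prop) _ _)]
  ring

/-- **Comparison with a trapezoid.**  For a nonnegative nonincreasing concave function on `[a, b]`
one has `∫ f² ≤ (4/3) f(a) ∫ f - (1/3) (b - a) f(a)²`, with equality on every trapezoid. -/
theorem trapezoid_bound {f : ℝ → ℝ} {a b : ℝ} (hab : a < b) (hc : ConcaveOn ℝ (Icc a b) f)
    (ha : AntitoneOn f (Icc a b)) (h0 : ∀ t ∈ Icc a b, 0 ≤ f t) :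
    ∫ t in a..b, (f t) ^ 2 ≤ (4 / 3) * f a * (∫ t in a..b, f t) - (1 / 3) * (b - a) * (f a) ^ 2 := by
  have huIcc : uIcc a b = Icc a b := uIcc_of_le hab.le
  have hf : IntervalIntegrable f volume a b := by
    apply AntitoneOn.intervalIntegrable
    rwa [huIcc]
  have hf2 : IntervalIntegrable (fun t => (f t) ^ 2) volume a b := by
    apply AntitoneOn.intervalIntegrable
    rw [huIcc]
    intro x hx y hy hxy
    exact pow_le_pow_left₀ (h0 y hy) (ha hx hy hxy) 2
  have haI : a ∈ Icc a b := ⟨le_refl _, hab.le⟩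
  have hbI : b ∈ Icc a b := ⟨hab.le, le_refl _⟩
  have hL : 0 < b - a := by linarith
  set y := f a with hy
  set I := ∫ t in a..b, f t with hI
  have hfy : ∀ t ∈ Icc a b, f t ≤ y := fun t ht => ha haI ht ht.1
  have hy0 : 0 ≤ y := h0 a haI
  have hIle : I ≤ y * (b - a) := by
    have := intervalIntegral.integral_mono_on hab.le hf (continuous_const.intervalIntegrable a b) hfy
    rw [intervalIntegral.integral_const, smul_eq_mul] at this
    linarith
  have hIge : y * (b - a) / 2 ≤ I := by
    have hchord : ∀ t ∈ Icc a b, (y / (b - a)) * (b - t) ≤ f t := by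
      intro t ht
      set α := (b - t) / (b - a) with hα
      set γ := (t - a) / (b - a) with hγ
      have hα0 : 0 ≤ α := div_nonneg (by linarith [ht.2]) hL.le
      have hγ0 : 0 ≤ γ := div_nonneg (by linarith [ht.1]) hL.le
      have hsum : α + γ = 1 := by
        rw [hα, hγ]
        field_simp
        ring
      have hcomb : α * a + γ * b = t := by
        rw [hα, hγ]
        field_simp
        ring
      have h1 := hc.2 haI hbI hα0 hγ0 hsum
      simp only [smul_eq_mul] at h1
      rw [hcomb] at h1
      have h2 : 0 ≤ γ * f b := mul_nonneg hγ0 (h0 b hbI)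
      have h3 : (y / (b - a)) * (b - t) = α * y := by
        rw [hα]
        ring
      rw [h3]
      linarith
    have := intervalIntegral.integral_mono_on hab.le
      (Continuous.intervalIntegrable (by fun_prop) a b) hf hchord
    rw [integral_ramp] at this
    have e : y / (b - a) * (b - a) ^ 2 / 2 = y * (b - a) / 2 := by
      field_simp
    rw [e] at this
    exact this
  rcases hy0.eq_or_lt with hy' | hypos
  · -- the function vanishes
    have hz : ∀ t ∈ uIcc a b, (f t) ^ 2 = (fun _ => (0 : ℝ)) t := by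
      intro t ht
      rw [huIcc] at ht
      have h1 := hfy t ht
      have h2 := h0 t ht
      have : f t = 0 := by linarith
      simp [this]
    rw [intervalIntegral.integral_congr hz, ← hy']
    simp
  set c := 2 * I / y + 2 * a - b with hc'
  have hIc : I = y * (c - 2 * a + b) / 2 := by
    rw [hc']
    field_simp
    ring
  have hca : a ≤ c := by
    have : (b - a) ≤ 2 * I / y := by
      rw [le_div_iff₀ hypos]
      linarith
    rw [hc']
    linarith
  have hcb : c ≤ b := by
    have : 2 * I / y ≤ 2 * (b - a) := by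
      rw [div_le_iff₀ hypos]
      linarith
    rw [hc']
    linarith
  rcases hcb.eq_or_lt with hcb' | hcb'
  · -- the constant case
    have hIval : I = y * (b - a) := by
      rw [hIc, hcb']
      ring
    have hle : ∫ t in a..b, (f t) ^ 2 ≤ ∫ t in a..b, y * f t := by
      apply intervalIntegral.integral_mono_on hab.le hf2 (hf.const_mul y)
      intro t ht
      have := mul_le_mul_of_nonneg_right (hfy t ht) (h0 t ht)
      nlinarith
    rw [intervalIntegral.integral_const_mul] at hle
    have : (4 / 3) * y * I - (1 / 3) * (b - a) * y ^ 2 = y * I := by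
      rw [hIval]
      ring
    rw [this]
    exact hle
  -- the trapezoid
  have hbc : 0 < b - c := by linarith
  set β := y / (b - c) with hβ
  have hβ0 : 0 < β := by positivity
  have hβc : β * (b - c) = y := by
    rw [hβ]
    field_simp
  set l : ℝ → ℝ := fun t => β * (b - t) with hl
  set T : ℝ → ℝ := fun t => min y (l t) with hT
  have hlc : Continuous l := by
    simp only [hl]
    fun_prop
  have hTc : Continuous T := continuous_const.min hlc
  have hTI : IntervalIntegrable T volume a b := hTc.intervalIntegrable _ _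
  have hT2I : IntervalIntegrable (fun t => (T t) ^ 2) volume a b :=
    (hTc.pow 2).intervalIntegrable _ _
  have hT_left : ∀ t, t ≤ c → T t = y := by
    intro t ht
    apply min_eq_left
    have : β * (b - c) ≤ β * (b - t) := mul_le_mul_of_nonneg_left (by linarith) hβ0.le
    simp only [hl]
    linarith
  have hT_right : ∀ t, c ≤ t → T t = l t := by
    intro t ht
    apply min_eq_right
    have : β * (b - t) ≤ β * (b - c) := mul_le_mul_of_nonneg_left (by linarith) hβ0.le
    simp only [hl]
    linarith
  have hTint : ∫ t in a..b, T t = I := by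
    rw [← intervalIntegral.integral_add_adjacent_intervals (hTc.intervalIntegrable a c)
      (hTc.intervalIntegrable c b)]
    have e1 : ∫ t in a..c, T t = ∫ _ in a..c, y := by
      apply intervalIntegral.integral_congr
      intro t ht
      rw [uIcc_of_le hca] at ht
      exact hT_left t ht.2
    have e2 : ∫ t in c..b, T t = ∫ t in c..b, β * (b - t) := by
      apply intervalIntegral.integral_congr
      intro t ht
      rw [uIcc_of_le hcb] at ht
      exact hT_right t ht.1
    rw [e1, e2, integral_ramp, intervalIntegral.integral_const, smul_eq_mul, hIc]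
    have : β * (b - c) ^ 2 / 2 = y * (b - c) / 2 := by
      rw [← hβc]
      ring
    rw [this]
    ring
  have hT2int : ∫ t in a..b, (T t) ^ 2 = y ^ 2 * (c - a) + y ^ 2 * (b - c) / 3 := by
    have hT2c : Continuous (fun t => (T t) ^ 2) := hTc.pow 2
    rw [← intervalIntegral.integral_add_adjacent_intervals (hT2c.intervalIntegrable a c)
      (hT2c.intervalIntegrable c b)]
    have e1 : ∫ t in a..c, (T t) ^ 2 = ∫ _ in a..c, y ^ 2 := by
      apply intervalIntegral.integral_congr
      intro t ht
      rw [uIcc_of_le hca] at ht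
      simp only [hT_left t ht.2]
    have e2 : ∫ t in c..b, (T t) ^ 2 = ∫ t in c..b, (β * (b - t)) ^ 2 := by
      apply intervalIntegral.integral_congr
      intro t ht
      rw [uIcc_of_le hcb] at ht
      simp only [hT_right t ht.1, hl]
    rw [e1, e2, integral_ramp_sq, intervalIntegral.integral_const, smul_eq_mul]
    have : β ^ 2 * (b - c) ^ 3 / 3 = y ^ 2 * (b - c) / 3 := by
      rw [← hβc]
      ring
    rw [this]
    ring
  -- the crossing point
  set S : Set ℝ := {t | t ∈ Icc c b ∧ 0 ≤ f t - l t} with hS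
  have hbS : b ∈ S := by
    refine ⟨⟨hcb, le_refl _⟩, ?_⟩
    simp only [hl, sub_self, mul_zero, sub_zero]
    exact h0 b hbI
  have hbdd : BddBelow S := ⟨c, fun t ht => ht.1.1⟩
  set t₀ := sInf S with ht₀
  have ht₀c : c ≤ t₀ := le_csInf ⟨b, hbS⟩ fun t ht => ht.1.1
  have ht₀b : t₀ ≤ b := csInf_le hbdd hbS
  have ht₀I : t₀ ∈ Icc a b := ⟨hca.trans ht₀c, ht₀b⟩
  have hbelow : ∀ t ∈ Icc a b, t < t₀ → f t - T t ≤ 0 := by
    intro t ht htt
    by_cases htc : t ≤ c
    · rw [hT_left t htc]
      linarith [hfy t ht]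
    · have htc' : c ≤ t := (not_le.mp htc).le
      rw [hT_right t htc']
      by_contra hcon
      have hmem : t ∈ S := ⟨⟨htc', ht.2⟩, by linarith [not_le.mp hcon]⟩
      exact absurd (csInf_le hbdd hmem) (not_le.mpr htt)
  have habove : ∀ t ∈ Icc a b, t₀ < t → 0 ≤ f t - T t := by
    intro t ht htt
    obtain ⟨s, hs, hst⟩ := exists_lt_of_csInf_lt ⟨b, hbS⟩ htt
    have hbs : 0 < b - s := by linarith [ht.2]
    have hsI : s ∈ Icc a b := ⟨hca.trans hs.1.1, hs.1.2⟩
    set α := (b - t) / (b - s) with hα
    set γ := (t - s) / (b - s) with hγ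
    have hα0 : 0 ≤ α := div_nonneg (by linarith [ht.2]) hbs.le
    have hγ0 : 0 ≤ γ := div_nonneg (by linarith) hbs.le
    have hsum : α + γ = 1 := by
      rw [hα, hγ]
      field_simp
      ring
    have hcomb : α * s + γ * b = t := by
      rw [hα, hγ]
      field_simp
      ring
    have h1 := hc.2 hsI hbI hα0 hγ0 hsum
    simp only [smul_eq_mul] at h1
    rw [hcomb] at h1
    have hct : c ≤ t := (ht₀c.trans_lt htt).le
    rw [hT_right t hct]
    have h2 : l t = α * l s := by
      simp only [hl]
      rw [hα]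
      field_simp
    have h3 := hs.2
    have h5 : 0 ≤ α * (f s - l s) := mul_nonneg hα0 h3
    have h6 : 0 ≤ γ * f b := mul_nonneg hγ0 (h0 b hbI)
    rw [h2]
    nlinarith
  have hTanti : ∀ s t : ℝ, s ≤ t → T t ≤ T s := by
    intro s t hst
    apply min_le_min (le_refl _)
    simp only [hl]
    exact mul_le_mul_of_nonneg_left (by linarith) hβ0.le
  set κ := f t₀ + T t₀ with hκ
  have hsign : ∀ t ∈ Icc a b, (f t - T t) * (f t + T t - κ) ≤ 0 := by
    intro t ht
    rcases lt_trichotomy t t₀ with hlt | heq | hgt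
    · have h1 := hbelow t ht hlt
      have h2 := ha ht ht₀I hlt.le
      have h3 := hTanti t t₀ hlt.le
      have h4 : 0 ≤ f t + T t - κ := by
        rw [hκ]
        linarith
      exact mul_nonpos_of_nonpos_of_nonneg h1 h4
    · rw [heq, hκ]
      simp
    · have h1 := habove t ht hgt
      have h2 := ha ht₀I ht hgt.le
      have h3 := hTanti t₀ t hgt.le
      have h4 : f t + T t - κ ≤ 0 := by
        rw [hκ]
        linarith
      exact mul_nonpos_of_nonneg_of_nonpos h1 h4
  have heq : (fun t => (f t - T t) * (f t + T t - κ))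
      = fun t => ((f t) ^ 2 - (T t) ^ 2) - κ * (f t - T t) := by
    funext t
    ring
  have hprodI : IntervalIntegrable (fun t => (f t - T t) * (f t + T t - κ)) volume a b := by
    rw [heq]
    exact (hf2.sub hT2I).sub ((hf.sub hTI).const_mul κ)
  have hkey : ∫ t in a..b, (f t - T t) * (f t + T t - κ) ≤ 0 := by
    have hneg := intervalIntegral.integral_nonneg (μ := volume) hab.le
      (f := fun t => -((f t - T t) * (f t + T t - κ))) (fun t ht => by linarith [hsign t ht])
    rw [intervalIntegral.integral_neg] at hneg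
    linarith
  have hexpand : ∫ t in a..b, (f t - T t) * (f t + T t - κ)
      = (∫ t in a..b, (f t) ^ 2) - ∫ t in a..b, (T t) ^ 2 := by
    rw [heq, intervalIntegral.integral_sub (hf2.sub hT2I) ((hf.sub hTI).const_mul κ),
      intervalIntegral.integral_sub hf2 hT2I, intervalIntegral.integral_const_mul,
      intervalIntegral.integral_sub hf hTI, hTint]
    simp only [hI, sub_self, mul_zero, sub_zero]
  have hfinal : ∫ t in a..b, (f t) ^ 2 ≤ y ^ 2 * (c - a) + y ^ 2 * (b - c) / 3 := by
    rw [← hT2int]
    linarith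
  refine hfinal.trans (le_of_eq ?_)
  rw [hIc]
  ring

/-- **The moment bound**: for a nonnegative nonincreasing concave function on `[0, m]` one has
`∫ (m/2 + t) f(t)² dt ≤ (∫ f)²`, with equality on every trapezoid vanishing at `m`. -/
theorem moment_bound {f : ℝ → ℝ} {m : ℝ} (hm : 0 < m) (hc : ConcaveOn ℝ (Icc 0 m) f)
    (ha : AntitoneOn f (Icc 0 m)) (h0 : ∀ t ∈ Icc 0 m, 0 ≤ f t) :
    ∫ t in (0 : ℝ)..m, (m / 2 + t) * (f t) ^ 2 ≤ (∫ t in (0 : ℝ)..m, f t) ^ 2 := by
  have huIcc : uIcc (0 : ℝ) m = Icc 0 m := uIcc_of_le hm.le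
  have hf : IntervalIntegrable f volume 0 m := by
    apply AntitoneOn.intervalIntegrable
    rwa [huIcc]
  have hf2 : IntervalIntegrable (fun t => (f t) ^ 2) volume 0 m := by
    apply AntitoneOn.intervalIntegrable
    rw [huIcc]
    intro x hx y hy hxy
    exact pow_le_pow_left₀ (h0 y hy) (ha hx hy hxy) 2
  have hw : IntervalIntegrable (fun t => (m - t) * (f t) ^ 2) volume 0 m :=
    hf2.continuousOn_mul (Continuous.continuousOn (by fun_prop))
  have hcf : ContinuousOn f (Ioo 0 m) := by
    have := hc.continuousOn_interior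
    rwa [interior_Icc] at this
  have hder : ∀ (g : ℝ → ℝ), IntervalIntegrable g volume 0 m → ContinuousOn g (Ioo 0 m) →
      ∀ τ ∈ Ioo (0 : ℝ) m, HasDerivAt (fun u => ∫ t in u..m, g t) (-g τ) τ := by
    intro g hg hgc τ hτ
    apply intervalIntegral.integral_hasDerivAt_left
    · apply hg.mono_set
      rw [uIcc_of_le hτ.2.le, uIcc_of_le hm.le]
      exact Icc_subset_Icc_left hτ.1.le
    · exact hgc.stronglyMeasurableAtFilter isOpen_Ioo τ hτ
    · exact hgc.continuousAt (isOpen_Ioo.mem_nhds hτ)
  have hcont : ∀ (g : ℝ → ℝ), IntervalIntegrable g volume 0 m →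
      ContinuousOn (fun u => ∫ t in u..m, g t) (Icc 0 m) := by
    intro g hg
    have h1 := (intervalIntegrable_iff_integrableOn_Icc_of_le hm.le).mp hg
    have := intervalIntegral.continuousOn_primitive_interval_left (a := 0) (b := m)
      (by rwa [huIcc] : IntegrableOn g (uIcc 0 m) volume)
    rwa [huIcc] at this
  set E : ℝ → ℝ := fun τ => (∫ t in τ..m, f t) ^ 2 - (3 / 2) * (m - τ) * (∫ t in τ..m, (f t) ^ 2)
    + ∫ t in τ..m, (m - t) * (f t) ^ 2 with hE
  have hEc : ContinuousOn E (Icc 0 m) := by
    apply ContinuousOn.add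
    · apply ContinuousOn.sub
      · exact (hcont f hf).pow 2
      · apply ContinuousOn.mul
        · exact Continuous.continuousOn (by fun_prop)
        · exact hcont _ hf2
    · exact hcont _ hw
  have hcf2 : ContinuousOn (fun t => (f t) ^ 2) (Ioo 0 m) := hcf.pow 2
  have hcf3 : ContinuousOn (fun t => (m - t) * (f t) ^ 2) (Ioo 0 m) :=
    ContinuousOn.mul (Continuous.continuousOn (by fun_prop)) hcf2
  have hEd : ∀ τ ∈ Ioo (0 : ℝ) m, HasDerivAt E
      (-(2 * (∫ t in τ..m, f t) * f τ) + (3 / 2) * (∫ t in τ..m, (f t) ^ 2)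
        + (1 / 2) * (m - τ) * (f τ) ^ 2) τ := by
    intro τ hτ
    have h1 := hder f hf hcf τ hτ
    have h2 := hder _ hf2 hcf2 τ hτ
    have h3 := hder _ hw hcf3 τ hτ
    have h4 : HasDerivAt (fun u : ℝ => (3 / 2) * (m - u)) ((3 / 2) * (-1)) τ := by
      have : HasDerivAt (fun u : ℝ => m - u) (-1) τ := by
        simpa using (hasDerivAt_id τ).const_sub m
      exact this.const_mul (3 / 2)
    have h5 := ((h1.pow 2).fun_sub (h4.fun_mul h2)).fun_add h3
    refine h5.congr_deriv ?_
    simp
    ring
  have hanti : AntitoneOn E (Icc 0 m) := by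
    apply antitoneOn_of_deriv_nonpos (convex_Icc _ _) hEc
    · intro τ hτ
      rw [interior_Icc] at hτ
      exact (hEd τ hτ).differentiableAt.differentiableWithinAt
    · intro τ hτ
      rw [interior_Icc] at hτ
      rw [(hEd τ hτ).deriv]
      have hsub : Icc τ m ⊆ Icc 0 m := Icc_subset_Icc_left hτ.1.le
      have hb := trapezoid_bound hτ.2 (hc.subset hsub (convex_Icc _ _)) (ha.mono hsub)
        (fun t ht => h0 t (hsub ht))
      linarith
  have h00 : (0 : ℝ) ∈ Icc 0 m := ⟨le_refl _, hm.le⟩
  have hmm : m ∈ Icc 0 m := ⟨hm.le, le_refl _⟩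
  have hfin := hanti h00 hmm hm.le
  have hEm : E m = 0 := by
    simp [hE]
  rw [hEm] at hfin
  have hsplit : ∫ t in (0 : ℝ)..m, (m / 2 + t) * (f t) ^ 2
      = (3 / 2) * m * (∫ t in (0 : ℝ)..m, (f t) ^ 2) - ∫ t in (0 : ℝ)..m, (m - t) * (f t) ^ 2 := by
    rw [← intervalIntegral.integral_const_mul, ← intervalIntegral.integral_sub (hf2.const_mul _) hw]
    apply intervalIntegral.integral_congr
    intro t _
    simp only
    ring
  rw [hsplit]
  simp only [hE, sub_zero] at hfin
  linarith

end Vale.Agent.Lib.P237
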