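import Mathlib.Analysis.InnerProductSpace.PiL2
import Mathlib.MeasureTheory.Measure.Haar.InnerProductSpace
import Mathlib.MeasureTheory.Measure.Lebesgue.Basic

open MeasureTheory
open scoped RealInnerProductSpace

namespace Vale.Agent.Lib.P237.Stmt

/-- Three dimensional Euclidean space. -/
abbrev E3 := EuclideanSpace ℝ (Fin 3)

/-- The Euclidean plane. -/
abbrev E2 := EuclideanSpace ℝ (Fin 2)

noncomputable section

/-- The coordinates `(⟪e₁, x⟫, ⟪e₂, x⟫)`: for orthonormal `e₁, e₂` this is the orthogonal projection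
onto the plane spanned by `e₁, e₂`, written in the orthonormal basis `e₁, e₂` of that plane. -/
def planeCoord (e₁ e₂ x : E3) : E2 := !₂[⟪e₁, x⟫, ⟪e₂, x⟫]

/-- The area of the orthogonal projection of `K` onto the plane spanned by orthonormal `e₁, e₂`. -/
def shadowArea (K : Set E3) (e₁ e₂ : E3) : ℝ := (volume (planeCoord e₁ e₂ '' K)).toReal

/-- The support function of `L`. -/
def supportFn (L : Set E3) (u : E3) : ℝ := sSup ((fun x : E3 => ⟪x, u⟫) '' L)

/-- `L` is the projection body of `K`: a compact convex set whose support function at every unit `u`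
is the area of the orthogonal projection of `K` onto the plane `u^⊥`, for every orthonormal basis
`e₁, e₂` of that plane. -/
structure IsProjectionBody (K L : Set E3) : Prop where
  compact : IsCompact L
  convex : Convex ℝ L
  nonempty : L.Nonempty
  support : ∀ e₁ e₂ u : E3, ‖e₁‖ = 1 → ‖e₂‖ = 1 → ‖u‖ = 1 → ⟪e₁, e₂⟫ = 0 → ⟪e₁, u⟫ = 0 → ⟪e₂, u⟫ = 0 →
    supportFn L u = shadowArea K e₁ e₂

/-- `K` is a compact convex origin symmetric set in John position, with contact vectors `y i` and
weights `c i`: the closed unit ball lies in `K`, the `y i` are unit vectors, the weights are positive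
and decompose the identity, and `K` lies in each half space `⟪x, y i⟫ ≤ 1`. -/
structure InJohnPosition {ι : Type} [Fintype ι] (K : Set E3) (y : ι → E3) (c : ι → ℝ) : Prop where
  compact : IsCompact K
  convex : Convex ℝ K
  symm : ∀ x ∈ K, -x ∈ K
  ball : Metric.closedBall (0 : E3) 1 ⊆ K
  pos : ∀ i, 0 < c i
  unit : ∀ i, ‖y i‖ = 1
  decomp : ∀ x : E3, ∑ i, c i * ⟪x, y i⟫ ^ 2 = ‖x‖ ^ 2
  strip : ∀ i, ∀ x ∈ K, ⟪x, y i⟫ ≤ 1

end

end Vale.Agent.Lib.P237.Stmt
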