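import Vale.Agent.Lib.P237.PettyThmA
import Vale.Agent.Lib.P237.PettyStmt

open MeasureTheory Set Module
open scoped RealInnerProductSpace Real Pointwise

namespace Vale.Agent.Lib.P237.Petty

open Vale.Agent.Lib.P237

noncomputable section

lemma shadowArea_eq {K : Set E3} (hK : IsCompact K) {e₁ e₂ u : E3} (h11 : ‖e₁‖ = 1) (h22 : ‖e₂‖ = 1)
    (hu : ‖u‖ = 1) (h12 : ⟪e₁, e₂⟫ = 0) (h1u : ⟪e₁, u⟫ = 0) (h2u : ⟪e₂, u⟫ = 0) :
    Stmt.shadowArea K e₁ e₂ = projArea K u :=
  (projArea_eq hK h11 h22 hu h12 h1u h2u).symm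

/-- The explicit projection body is a projection body. -/
theorem toIsProjBody {K L : Set E3} (hK : IsCompact K) (h : Stmt.IsProjectionBody K L) :
    IsProjBody K L where
  compact := h.compact
  convex := h.convex
  nonempty := h.nonempty
  support := fun u hu => by
    obtain ⟨b, rfl⟩ := exists_basis hu
    have hn : ∀ i j, i ≠ j → ⟪b i, b j⟫ = 0 := fun i j hij => b.orthonormal.2 hij
    have := h.support (b 0) (b 1) (b 2) (b.norm_eq_one 0) (b.norm_eq_one 1) (b.norm_eq_one 2)
      (hn 0 1 (by decide)) (hn 0 2 (by decide)) (hn 1 2 (by decide))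
    rw [← shadowArea_eq hK (b.norm_eq_one 0) (b.norm_eq_one 1) (b.norm_eq_one 2)
      (hn 0 1 (by decide)) (hn 0 2 (by decide)) (hn 1 2 (by decide))]
    exact this

/-- A projection body is an explicit projection body. -/
theorem ofIsProjBody {K L : Set E3} (hK : IsCompact K) (h : IsProjBody K L) :
    Stmt.IsProjectionBody K L where
  compact := h.compact
  convex := h.convex
  nonempty := h.nonempty
  support := fun e₁ e₂ u h1 h2 hu h12 h1u h2u => by
    rw [shadowArea_eq hK h1 h2 hu h12 h1u h2u]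
    exact h.support u hu

end

end Vale.Agent.Lib.P237.Petty
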