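import Vale.Agent.Lib.P237.PettyMain2
import Vale.Agent.Lib.P237.AllK.Main
import Vale.Agent.Lib.P237.PettyStmtConv

open MeasureTheory Set Module
open scoped RealInnerProductSpace Real

namespace Vale.Agent.Lib.P237.Petty

open Vale.Agent.Lib.P237

noncomputable section

/-- Two projection bodies of the same set coincide. -/
lemma isProjBody_unique {K L L' : Set E3} (h : IsProjBody K L) (h' : IsProjBody K L') : L = L' := by
  have key : ∀ {A B : Set E3}, IsProjBody K A → IsProjBody K B → A ⊆ B := by
    intro A B hA hB x hx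
    apply mem_of_supp hB.compact hB.convex hB.nonempty
    intro u hu
    rw [hB.support u hu, ← hA.support u hu]
    unfold supp
    exact le_csSup ((hA.compact.image (f := fun z : E3 => ⟪z, u⟫) (by fun_prop)).bddAbove) ⟨x, hx, rfl⟩
  exact Set.Subset.antisymm (key h h') (key h' h)

/-- **Petty's projection inequality in three dimensions.** Every convex body `K` in `ℝ³` has a
unique projection body `L`, and `|L| ≥ (3 π² / 4) |K|²`. -/
theorem petty_three {K : Set E3} (hK : IsCompact K) (hKc : Convex ℝ K) (hi : (interior K).Nonempty) :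
    ∃ L, Stmt.IsProjectionBody K L ∧ (∀ L', Stmt.IsProjectionBody K L' → L' = L) ∧
      3 * π ^ 2 / 4 * (volume K).toReal ^ 2 ≤ (volume L).toReal := by
  obtain ⟨h1, h2⟩ := AllK.all_of_zonotope (c := 3 * π ^ 2 / 4) (fun a => zonotope_sharp a) hK hKc hi
  refine ⟨AllK.projBodyOf K, ofIsProjBody hK h1, fun L' hL' => ?_, h2⟩
  exact isProjBody_unique (toIsProjBody hK hL') h1

end

end Vale.Agent.Lib.P237.Petty
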