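import Vale.Agent.Lib.P237.PettyZon

open MeasureTheory Set Module Filter Topology
open scoped RealInnerProductSpace Pointwise ENNReal

namespace Vale.Agent.Lib.P237.Petty

open Vale.Agent.Lib.P237 Vale.Agent.Lib.P227

noncomputable section

lemma vol_smul3 {c : ℝ} (hc : 0 ≤ c) (X : Set E3) :
    volume (c • X) = ENNReal.ofReal (c ^ 3) * volume X := by
  rw [Measure.addHaar_smul, finrank_euclideanSpace_fin, abs_of_nonneg (by positivity)]

lemma vol_smul3_real {c : ℝ} (hc : 0 ≤ c) (X : Set E3) :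
    (volume (c • X)).toReal = c ^ 3 * (volume X).toReal := by
  rw [vol_smul3 hc, ENNReal.toReal_mul, ENNReal.toReal_ofReal (by positivity)]

/-- Brunn-Minkowski in three space, additive form. -/
theorem bm_cube {A C N : Set E3} (hA : IsCompact A) (hC : IsCompact C) (hN : IsCompact N)
    {α γ : ℝ} (hα : 0 < α) (hγ : 0 < γ) (hVA : (volume A).toReal = α ^ 3)
    (hVC : (volume C).toReal = γ ^ 3) {l : ℝ} (l0 : 0 < l) (l1 : l < 1)
    (H : ∀ x ∈ A, ∀ y ∈ C, (1 - l) • x + l • y ∈ N) :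
    ((1 - l) * α + l * γ) ^ 3 ≤ (volume N).toReal := by
  have hl' : 0 < 1 - l := by linarith
  set W := (1 - l) * α + l * γ with hW
  have hW0 : 0 < W := by positivity
  set μ := l * γ / W with hμ
  have hμ0 : 0 < μ := by positivity
  have hμ1 : μ < 1 := by
    rw [hμ, div_lt_one hW0, hW]
    have : 0 < (1 - l) * α := by positivity
    linarith
  have hμ' : 1 - μ = (1 - l) * α / W := by
    rw [hμ, hW]
    field_simp
    ring
  have hA' : IsCompact (α⁻¹ • A) := hA.smul _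
  have hC' : IsCompact (γ⁻¹ • C) := hC.smul _
  have hN' : IsCompact (W⁻¹ • N) := hN.smul _
  have hvolA : volume (α⁻¹ • A) = 1 := by
    rw [vol_smul3 (by positivity), ← ENNReal.ofReal_toReal hA.measure_lt_top.ne, hVA,
      ← ENNReal.ofReal_mul (by positivity)]
    have : (α⁻¹) ^ 3 * α ^ 3 = 1 := by field_simp
    rw [this, ENNReal.ofReal_one]
  have hvolC : volume (γ⁻¹ • C) = 1 := by
    rw [vol_smul3 (by positivity), ← ENNReal.ofReal_toReal hC.measure_lt_top.ne, hVC,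
      ← ENNReal.ofReal_mul (by positivity)]
    have : (γ⁻¹) ^ 3 * γ ^ 3 = 1 := by field_simp
    rw [this, ENNReal.ofReal_one]
  have hPL := pl_sets (t := μ) hA'.measurableSet hC'.measurableSet hN'.measurableSet hμ0 hμ1 (by
    rintro _ ⟨x, hx, rfl⟩ _ ⟨y, hy, rfl⟩
    refine ⟨(1 - l) • x + l • y, H x hx y hy, ?_⟩
    simp only [smul_add, smul_smul]
    congr 2
    · rw [hμ']
      field_simp
    · rw [hμ]
      field_simp)
  rw [hvolA, hvolC, ENNReal.one_rpow, ENNReal.one_rpow, one_mul, vol_smul3 (by positivity),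
    ← ENNReal.ofReal_toReal hN.measure_lt_top.ne, ← ENNReal.ofReal_mul (by positivity)] at hPL
  have h1 : (1 : ℝ) ≤ (W⁻¹) ^ 3 * (volume N).toReal := by
    rw [← ENNReal.ofReal_one] at hPL
    exact (ENNReal.ofReal_le_ofReal_iff (by positivity)).mp hPL
  have h2 : W ^ 3 * 1 ≤ W ^ 3 * ((W⁻¹) ^ 3 * (volume N).toReal) :=
    mul_le_mul_of_nonneg_left h1 (by positivity)
  have h3 : W ^ 3 * ((W⁻¹) ^ 3 * (volume N).toReal) = (volume N).toReal := by
    field_simp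
  rw [mul_one, h3] at h2
  exact h2

variable {ι κ : Type*} [Fintype ι] [Fintype κ]

lemma msum_compact {A M : Set E3} (hA : IsCompact A) (hM : IsCompact M) (c : ℝ) :
    IsCompact (msum A c M) := by
  have : msum A c M = (fun p : E3 × E3 => p.1 + c • p.2) '' (A ×ˢ M) := by
    ext x
    constructor
    · rintro ⟨y, hy, m, hm, rfl⟩
      exact ⟨(y, m), ⟨hy, hm⟩, rfl⟩
    · rintro ⟨⟨y, m⟩, ⟨hy, hm⟩, rfl⟩
      exact ⟨y, hy, m, hm, rfl⟩
  rw [this]
  exact (hA.prod hM).image (by fun_prop)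

/-- Tangent line for the cube root of the volume. -/
theorem zon_tangent (a : ι → E3) (d : κ → E3) {g₀ : ℝ} (hg₀ : 0 < g₀) (hv : 4 / 3 * D3 a = g₀ ^ 3)
    {ε : ℝ} (hε : 0 ≤ ε) :
    (volume (msum (zonotope a) ε (zonotope d))).toReal ≤ (g₀ + ε * (4 / 3 * EE a d / g₀ ^ 2)) ^ 3 := by
  classical
  have hE1 := EE_nonneg a d
  have hE2 := EE_nonneg d a
  have hD3 := D3_nonneg d
  rcases hε.eq_or_lt with rfl | hε0
  · rw [volume_msum a d le_rfl]
    have : 4 / 3 * (D3 a + 3 * 0 * EE a d + 3 * 0 ^ 2 * EE d a + 0 ^ 3 * D3 d) = g₀ ^ 3 := by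
      rw [← hv]; ring
    rw [this]
    simp
  set V : ℝ → ℝ := fun c => (volume (msum (zonotope a) c (zonotope d))).toReal with hV
  have hVf : ∀ c, 0 ≤ c → V c = g₀ ^ 3 + 4 * c * EE a d + 4 * c ^ 2 * EE d a + 4 / 3 * c ^ 3 * D3 d := by
    intro c hc
    simp only [hV]
    rw [volume_msum a d hc]
    rw [← hv]
    ring
  have hVε : 0 < V ε := by
    rw [hVf ε hε]
    have : 0 < g₀ ^ 3 := by positivity
    positivity
  set gε := (V ε) ^ ((1 : ℝ) / 3) with hgε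
  have hgεpos : 0 < gε := Real.rpow_pos_of_pos hVε _
  have hgε3 : gε ^ 3 = V ε := by
    rw [hgε, ← Real.rpow_natCast, ← Real.rpow_mul hVε.le]
    norm_num
  set F := 4 / 3 * EE a d / g₀ ^ 2 with hF
  have hF0 : 0 ≤ F := by positivity
  suffices hs : gε ≤ g₀ + ε * F by
    have := pow_le_pow_left₀ hgεpos.le hs 3
    rwa [hgε3] at this
  by_cases ht : gε ≤ g₀
  · have : 0 ≤ ε * F := by positivity
    linarith
  have ht' : 0 < gε - g₀ := by linarith [not_le.mp ht]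
  set t := gε - g₀ with htd
  -- the inequality for small `δ`
  have key : ∀ δ ∈ Ioo 0 ε, 3 * g₀ ^ 2 * t / ε ≤ 4 * EE a d + 4 * δ * EE d a + 4 / 3 * δ ^ 2 * D3 d := by
    intro δ hδ
    have hδ0 : 0 < δ := hδ.1
    have hl0 : 0 < δ / ε := by positivity
    have hl1 : δ / ε < 1 := by
      rw [div_lt_one hε0]
      exact hδ.2
    have hZ := zon_compact a
    have hZd := zon_compact d
    have hbm := bm_cube (A := zonotope a) (C := msum (zonotope a) ε (zonotope d))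
      (N := msum (zonotope a) δ (zonotope d)) hZ (msum_compact hZ hZd ε) (msum_compact hZ hZd δ)
      hg₀ hgεpos (by rw [toReal_volume_zonotope]; exact hv) hgε3.symm hl0 hl1 (by
        rintro x hx _ ⟨y, hy, m, hm, rfl⟩
        refine ⟨(1 - δ / ε) • x + (δ / ε) • y, zon_convex a hx hy (by linarith) hl0.le (by ring), m, hm, ?_⟩
        rw [smul_add, smul_smul, add_assoc]
        congr 3
        field_simp)
    have h1 : (1 - δ / ε) * g₀ + δ / ε * gε = g₀ + δ / ε * t := by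
      rw [htd]; ring
    rw [h1] at hbm
    have h2 : g₀ ^ 3 + 3 * g₀ ^ 2 * (δ / ε * t) ≤ (g₀ + δ / ε * t) ^ 3 := by
      have hs : 0 ≤ δ / ε * t := by positivity
      nlinarith [mul_nonneg hs hs, mul_nonneg hg₀.le (mul_nonneg hs hs), mul_nonneg hs (mul_nonneg hs hs)]
    have h3 := hVf δ hδ0.le
    have h4 : g₀ ^ 3 + 3 * g₀ ^ 2 * (δ / ε * t) ≤ g₀ ^ 3 + 4 * δ * EE a d + 4 * δ ^ 2 * EE d a + 4 / 3 * δ ^ 3 * D3 d := by
      rw [← h3]
      exact h2.trans hbm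
    have h5 : δ * (3 * g₀ ^ 2 * t / ε) ≤ δ * (4 * EE a d + 4 * δ * EE d a + 4 / 3 * δ ^ 2 * D3 d) := by
      have e1 : δ * (3 * g₀ ^ 2 * t / ε) = 3 * g₀ ^ 2 * (δ / ε * t) := by
        field_simp
      rw [e1]
      nlinarith
    exact le_of_mul_le_mul_left h5 hδ0
  have hlim : Tendsto (fun δ : ℝ => 4 * EE a d + 4 * δ * EE d a + 4 / 3 * δ ^ 2 * D3 d) (𝓝[>] 0)
      (𝓝 (4 * EE a d + 4 * 0 * EE d a + 4 / 3 * 0 ^ 2 * D3 d)) := by
    have hc : Continuous fun δ : ℝ => 4 * EE a d + 4 * δ * EE d a + 4 / 3 * δ ^ 2 * D3 d := by fun_prop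
    exact (hc.tendsto 0).mono_left nhdsWithin_le_nhds
  have hle := ge_of_tendsto hlim (by
    filter_upwards [Ioo_mem_nhdsGT hε0] with δ hδ
    exact key δ hδ)
  simp only [mul_zero, zero_mul, ne_eq, OfNat.ofNat_ne_zero, not_false_eq_true, zero_pow, add_zero] at hle
  rw [hF]
  have hg2 : 0 < g₀ ^ 2 := by positivity
  have h6 : t ≤ ε * (4 / 3 * EE a d / g₀ ^ 2) := by
    rw [div_le_iff₀ hε0] at hle
    have : t * g₀ ^ 2 ≤ ε * (4 / 3 * EE a d) := by nlinarith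
    calc t = t * g₀ ^ 2 / g₀ ^ 2 := by field_simp
      _ ≤ ε * (4 / 3 * EE a d) / g₀ ^ 2 := by gcongr
      _ = _ := by ring
  rw [htd] at h6
  linarith

/-- Minkowski's first inequality for zonotopes. -/
theorem zon_minkowski (a : ι → E3) (d : κ → E3) {g₀ : ℝ} (hg₀ : 0 < g₀) (hv : 4 / 3 * D3 a = g₀ ^ 3) :
    4 / 3 * D3 d ≤ (4 / 3 * EE a d / g₀ ^ 2) ^ 3 := by
  classical
  have hE1 := EE_nonneg a d
  have hE2 := EE_nonneg d a
  have hD3 := D3_nonneg d
  set F := 4 / 3 * EE a d / g₀ ^ 2 with hF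
  have hF0 : 0 ≤ F := by positivity
  have key : ∀ s : ℝ, 0 < s → 4 / 3 * D3 d ≤ (g₀ * s + F) ^ 3 := by
    intro s hs
    have hs' : 0 ≤ s⁻¹ := by positivity
    have h1 := zon_tangent a d hg₀ hv hs'
    rw [volume_msum a d hs'] at h1
    have h2 : 4 / 3 * ((s⁻¹) ^ 3 * D3 d) ≤
        4 / 3 * (D3 a + 3 * s⁻¹ * EE a d + 3 * (s⁻¹) ^ 2 * EE d a + (s⁻¹) ^ 3 * D3 d) := by
      have := D3_nonneg a
      gcongr
      have h3 : 0 ≤ 3 * s⁻¹ * EE a d := by positivity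
      have h4 : 0 ≤ 3 * (s⁻¹) ^ 2 * EE d a := by positivity
      linarith
    have h5 := h2.trans h1
    have h6 : (g₀ + s⁻¹ * F) ^ 3 = (s⁻¹) ^ 3 * (g₀ * s + F) ^ 3 := by
      field_simp
    rw [h6] at h5
    have h7 : (s⁻¹) ^ 3 * (4 / 3 * D3 d) ≤ (s⁻¹) ^ 3 * (g₀ * s + F) ^ 3 := by
      calc _ = 4 / 3 * ((s⁻¹) ^ 3 * D3 d) := by ring
        _ ≤ _ := h5
    exact le_of_mul_le_mul_left h7 (by positivity)
  have hlim : Tendsto (fun s : ℝ => (g₀ * s + F) ^ 3) (𝓝[>] 0) (𝓝 ((g₀ * 0 + F) ^ 3)) := by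
    have hc : Continuous fun s : ℝ => (g₀ * s + F) ^ 3 := by fun_prop
    exact (hc.tendsto 0).mono_left nhdsWithin_le_nhds
  have := ge_of_tendsto hlim (by
    filter_upwards [self_mem_nhdsWithin] with s hs
    exact key s hs)
  simpa using this

end

end Vale.Agent.Lib.P237.Petty
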