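import Vale.Agent.Lib.P237.PettySec

/-!
# The bathtub inequality in the plane
-/

open MeasureTheory Set Module
open scoped RealInnerProductSpace Real

namespace Vale.Agent.Lib.P237.Petty

open Vale.Agent.Lib.P237

noncomputable section

/-- The truncated radial function on the annulus `s ≤ r² ≤ s + l`. -/
def annF (s l r : ℝ) : ℝ := (Icc (√s) (√(s + l))).indicator (fun r => s + l - r ^ 2) r

lemma annF_nonneg {s l : ℝ} (hs : 0 ≤ s) (hl : 0 ≤ l) (r : ℝ) : 0 ≤ annF s l r := by
  unfold annF
  by_cases hr : r ∈ Icc (√s) (√(s + l))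
  · rw [indicator_of_mem hr]
    have h1 : r ^ 2 ≤ (√(s + l)) ^ 2 :=
      pow_le_pow_left₀ ((Real.sqrt_nonneg s).trans hr.1) hr.2 2
    rw [Real.sq_sqrt (by linarith)] at h1
    linarith
  · rw [indicator_of_notMem hr]

lemma annF_measurable (s l : ℝ) : Measurable (annF s l) := by
  unfold annF
  exact (by fun_prop : Measurable fun r : ℝ => s + l - r ^ 2).indicator measurableSet_Icc

lemma integral_annF {s l : ℝ} (hs : 0 ≤ s) (hl : 0 ≤ l) :
    ∫ p : E2, annF s l ‖p‖ = π * l ^ 2 / 2 := by
  have hrad := integral_fun_norm_addHaar (E := E2) (μ := (volume : Measure E2)) (annF s l)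
  rw [hrad]
  have hdim : finrank ℝ E2 = 2 := by simp
  have hvol : (volume : Measure E2).real (Metric.ball 0 1) = π := by
    rw [Measure.real, EuclideanSpace.volume_ball_fin_two]
    simp [Real.pi_pos.le]
  rw [hdim, hvol]
  set a := √s with ha
  set c := √(s + l) with hc
  have ha0 : 0 ≤ a := Real.sqrt_nonneg s
  have hac : a ≤ c := Real.sqrt_le_sqrt (by linarith)
  have ha2 : a ^ 2 = s := Real.sq_sqrt hs
  have hc2 : c ^ 2 = s + l := Real.sq_sqrt (by linarith)
  have h1 : ∫ y in Ioi (0 : ℝ), y ^ (2 - 1) • annF s l y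
      = ∫ y in a..c, y * (s + l - y ^ 2) := by
    rw [← integral_indicator measurableSet_Ioi, intervalIntegral.integral_of_le hac,
      ← integral_Icc_eq_integral_Ioc, ← integral_indicator measurableSet_Icc]
    congr 1
    funext y
    by_cases hy : y ∈ Icc a c
    · rw [indicator_of_mem hy]
      rcases (ha0.trans hy.1).eq_or_lt with h0 | h0
      · rw [indicator_of_notMem (by simp [← h0])]
        simp [← h0]
      · rw [indicator_of_mem (mem_Ioi.mpr h0)]
        have h9 : annF s l y = s + l - y ^ 2 := by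
          simp only [annF]
          exact indicator_of_mem hy _
        rw [h9]
        norm_num
    · rw [indicator_of_notMem hy]
      by_cases hy0 : y ∈ Ioi (0 : ℝ)
      · rw [indicator_of_mem hy0]
        have h9 : annF s l y = 0 := by
          simp only [annF]
          exact indicator_of_notMem hy _
        rw [h9]
        simp
      · rw [indicator_of_notMem hy0]
  rw [h1]
  have h2 : ∀ y ∈ uIcc a c, HasDerivAt (fun y : ℝ => (s + l) * y ^ 2 / 2 - y ^ 4 / 4)
      (y * (s + l - y ^ 2)) y := by
    intro y _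
    have h3 := ((hasDerivAt_pow 2 y).const_mul (s + l)).div_const 2
    have h4 := (hasDerivAt_pow 4 y).div_const 4
    refine (h3.sub h4).congr_deriv ?_
    push_cast
    ring
  rw [intervalIntegral.integral_eq_sub_of_hasDerivAt h2 (by apply Continuous.intervalIntegrable; fun_prop)]
  have h5 : a ^ 4 = s ^ 2 := by rw [← ha2]; ring
  have h6 : c ^ 4 = (s + l) ^ 2 := by rw [← hc2]; ring
  rw [ha2, hc2, h5, h6]
  simp only [nsmul_eq_mul, smul_eq_mul]
  push_cast
  ring

/-- **Bathtub**: among sets of given area outside the disc `‖p‖² < s`, an annulus minimizes the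
moment. -/
theorem bathtub {X : Set E2} (hX : MeasurableSet X) (hbd : Bornology.IsBounded X) {s : ℝ} (hs : 0 ≤ s)
    (hout : ∀ p ∈ X, s ≤ ‖p‖ ^ 2) :
    (volume X).toReal ^ 2 / (2 * π) ≤ ∫ p in X, (‖p‖ ^ 2 - s) := by
  have hfin : volume X ≠ ⊤ := hbd.measure_lt_top.ne
  set A := (volume X).toReal with hA
  have hA0 : 0 ≤ A := ENNReal.toReal_nonneg
  have hπ : 0 < π := Real.pi_pos
  set l := A / π with hl
  have hl0 : 0 ≤ l := by positivity
  -- the comparison function
  set φ : E2 → ℝ := fun p => annF s l ‖p‖ with hφ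
  have hφ0 : ∀ p, 0 ≤ φ p := fun p => annF_nonneg hs hl0 _
  have hφm : Measurable φ := (annF_measurable s l).comp measurable_norm
  have hφi : Integrable φ := by
    have hcomp : IsCompact {p : E2 | √s ≤ ‖p‖ ∧ ‖p‖ ≤ √(s + l)} := by
      apply Metric.isCompact_of_isClosed_isBounded
      · exact (isClosed_le continuous_const continuous_norm).inter
          (isClosed_le continuous_norm continuous_const)
      · rw [isBounded_iff_forall_norm_le]
        exact ⟨√(s + l), fun p hp => hp.2⟩
    have h1 : IntegrableOn (fun p : E2 => s + l - ‖p‖ ^ 2)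
        {p : E2 | √s ≤ ‖p‖ ∧ ‖p‖ ≤ √(s + l)} :=
      (by fun_prop : Continuous fun p : E2 => s + l - ‖p‖ ^ 2).continuousOn.integrableOn_compact hcomp
    have h2 := h1.integrable_indicator hcomp.measurableSet
    refine h2.congr (Filter.Eventually.of_forall fun p => ?_)
    simp only [hφ, annF, indicator, mem_ofPred_eq, mem_Icc]
  -- pointwise comparison on `X`
  have hpt : ∀ p ∈ X, l - φ p ≤ ‖p‖ ^ 2 - s := by
    intro p hp
    have h1 := hout p hp
    by_cases hc : ‖p‖ ^ 2 ≤ s + l
    · have h2 : ‖p‖ ∈ Icc (√s) (√(s + l)) :=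
        ⟨Real.sqrt_le_iff.mpr ⟨norm_nonneg _, h1⟩, Real.le_sqrt_of_sq_le hc⟩
      simp only [hφ, annF, indicator_of_mem h2]
      linarith
    · have h0 := hφ0 p
      push Not at hc
      linarith
  have hint : IntegrableOn (fun p : E2 => ‖p‖ ^ 2 - s) X := by
    have hcl : IsCompact (closure X) := hbd.isCompact_closure
    exact ((by fun_prop : Continuous fun p : E2 => ‖p‖ ^ 2 - s).continuousOn.integrableOn_compact
      hcl).mono_set subset_closure
  have h1 : ∫ p in X, (l - φ p) ≤ ∫ p in X, (‖p‖ ^ 2 - s) := by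
    apply setIntegral_mono_on _ hint hX hpt
    exact (integrableOn_const hfin (by simp)).sub hφi.integrableOn
  have hconst : IntegrableOn (fun _ : E2 => l) X := integrableOn_const hfin (by simp)
  have h2 : ∫ p in X, (l - φ p) = l * A - ∫ p in X, φ p := by
    rw [integral_sub hconst hφi.integrableOn, setIntegral_const]
    simp [Measure.real, hA, mul_comm]
  have h3 : ∫ p in X, φ p ≤ ∫ p, φ p :=
    setIntegral_le_integral hφi (Filter.Eventually.of_forall hφ0)
  have h4 : ∫ p, φ p = π * l ^ 2 / 2 := integral_annF hs hl0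
  rw [h2] at h1
  have h5 : l * A - π * l ^ 2 / 2 = A ^ 2 / (2 * π) := by
    rw [hl]
    field_simp
    ring
  linarith

end

end Vale.Agent.Lib.P237.Petty
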