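import Vale.Agent.Lib.P237.BM

open MeasureTheory Set
open scoped RealInnerProductSpace

namespace Vale.Agent.Lib.P237.Petty

open Vale.Agent.Lib.P237

/-- Three dimensional Euclidean space. -/
abbrev E3 := EuclideanSpace ℝ (Fin 3)

noncomputable section

/-- The area of the orthogonal projection of `K` onto the plane orthogonal to `u`, computed with the
two dimensional volume of the subspace `u^⊥`. -/
def projArea (K : Set E3) (u : E3) : ℝ :=
  (volume ((ℝ ∙ u)ᗮ.orthogonalProjectionOnto '' K)).toReal

/-- The support function of `L`. -/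
def supp (L : Set E3) (u : E3) : ℝ := sSup ((fun x : E3 => ⟪x, u⟫) '' L)

/-- `L` is the projection body of `K`: a compact convex set whose support function in each unit
direction `u` is the area of the orthogonal projection of `K` onto `u^⊥`. -/
structure IsProjBody (K L : Set E3) : Prop where
  compact : IsCompact L
  convex : Convex ℝ L
  nonempty : L.Nonempty
  support : ∀ u : E3, ‖u‖ = 1 → supp L u = projArea K u

/-- Orthonormal coordinates: the point `p 0 b₀ + p 1 b₁ + t b₂`. -/
def pt (b : OrthonormalBasis (Fin 3) ℝ E3) (p : E2) (t : ℝ) : E3 :=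
  p 0 • b 0 + p 1 • b 1 + t • b 2

/-- The section of `K` at height `t` in direction `b 2`, in the coordinates of `b 0, b 1`. -/
def sec (b : OrthonormalBasis (Fin 3) ℝ E3) (K : Set E3) (t : ℝ) : Set E2 :=
  {p | pt b p t ∈ K}

/-- Square root of the section area. -/
def rr (b : OrthonormalBasis (Fin 3) ℝ E3) (K : Set E3) (t : ℝ) : ℝ :=
  rootArea (sec b K t)

/-- Every unit vector is the last vector of an orthonormal basis. -/
lemma exists_basis {y : E3} (hy : ‖y‖ = 1) :
    ∃ b : OrthonormalBasis (Fin 3) ℝ E3, b 2 = y := by
  have hv : Orthonormal ℝ (({2} : Set (Fin 3)).domRestrict (fun _ : Fin 3 => y)) := by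
    constructor
    · intro i
      exact hy
    · rintro ⟨i, hi⟩ ⟨j, hj⟩ hij
      simp only [Set.mem_singleton_iff] at hi hj
      subst hi; subst hj
      exact absurd rfl hij
  obtain ⟨b, hb⟩ := hv.exists_orthonormalBasis_extension_of_card_eq (by simp)
  exact ⟨b, hb 2 rfl⟩

end

end Vale.Agent.Lib.P237.Petty
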