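import Vale.Agent.Lib.P237.PettyFub

/-!
# The John averaging step of the Petty argument
-/

open MeasureTheory Set Module
open scoped RealInnerProductSpace Real

namespace Vale.Agent.Lib.P237.Petty

open Vale.Agent.Lib.P237

noncomputable section

/-- The weights of a decomposition of the identity add up to the dimension. -/
lemma sum_weights {ι : Type*} [Fintype ι] (y : ι → E3) (c : ι → ℝ) (hy : ∀ i, ‖y i‖ = 1)
    (hJ : ∀ x : E3, ∑ i, c i * ⟪x, y i⟫ ^ 2 = ‖x‖ ^ 2) : ∑ i, c i = 3 := by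
  set e := EuclideanSpace.basisFun (Fin 3) ℝ with he
  have h1 : ∑ k, ‖e k‖ ^ 2 = 3 := by
    simp [e.norm_eq_one]
  have h2 : ∑ k, ∑ i, c i * ⟪e k, y i⟫ ^ 2 = ∑ i, c i := by
    rw [Finset.sum_comm]
    refine Finset.sum_congr rfl fun i _ => ?_
    rw [← Finset.mul_sum]
    have h3 := e.sum_sq_norm_inner_right (y i)
    simp only [Real.norm_eq_abs, sq_abs] at h3
    rw [h3, hy i]
    norm_num
  rw [← h2, ← h1]
  exact Finset.sum_congr rfl fun k _ => hJ (e k)

/-- **John averaging**: in John position some contact direction has a large section integral. -/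
theorem pettyJC {ι : Type*} [Fintype ι] {K : Set E3} (hK : IsCompact K) (hKc : Convex ℝ K)
    (hsym : ∀ x ∈ K, -x ∈ K) (hB : Metric.closedBall (0 : E3) 1 ⊆ K)
    (y : ι → E3) (c : ι → ℝ) (hc : ∀ i, 0 < c i) (hy : ∀ i, ‖y i‖ = 1)
    (hJ : ∀ x : E3, ∑ i, c i * ⟪x, y i⟫ ^ 2 = ‖x‖ ^ 2)
    (hw : ∀ i, ∀ x ∈ K, ⟪x, y i⟫ ≤ 1)
    (b : ι → OrthonormalBasis (Fin 3) ℝ E3) (hb : ∀ i, b i 2 = y i) :
    ∃ i, PettyOneD.c0 * (volume K).toReal ≤ 4 * (∫ t in (0 : ℝ)..1, rr (b i) K t) ^ 2 := by
  have hπ : 0 < π := Real.pi_pos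
  have hsum := sum_weights y c hy hJ
  have hne : Nonempty ι := by
    by_contra hemp
    rw [not_nonempty_iff] at hemp
    simp at hsum
  set Vol : ℝ := (volume (outer K)).toReal with hVol
  set Mom : ℝ := ∫ x in outer K, ‖x‖ ^ 2 with hMom
  set S : ι → ℝ := fun i => ∫ x in outer K, ⟪y i, x⟫ ^ 2 with hS
  have hcontN : Continuous fun x : E3 => ‖x‖ ^ 2 := by fun_prop
  have hcontS : ∀ i, Continuous fun x : E3 => ⟪y i, x⟫ ^ 2 := fun i =>
    (continuous_const.inner continuous_id).pow 2
  have hfin := outer_finite hK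
  have hconst : ∀ a : ℝ, IntegrableOn (fun _ : E3 => a) (outer K) := fun a =>
    integrableOn_const hfin (by simp)
  -- volume of `K`
  have hvolK : (volume K).toReal = Vol + 4 * π / 3 := by
    have h1 : volume (outer K) = volume K - volume (Metric.closedBall (0 : E3) 1) :=
      measure_sdiff hB Metric.isClosed_closedBall.measurableSet.nullMeasurableSet
        (isCompact_closedBall _ _).measure_lt_top.ne
    have h2 : (volume (Metric.closedBall (0 : E3) 1)).toReal = 4 * π / 3 := by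
      rw [EuclideanSpace.volume_closedBall_fin_three]
      rw [ENNReal.toReal_mul, ENNReal.toReal_pow, ENNReal.toReal_ofReal zero_le_one,
        ENNReal.toReal_ofReal (by positivity)]
      ring
    rw [hVol, h1, ENNReal.toReal_sub_of_le (measure_mono hB) hK.measure_lt_top.ne, h2]
    ring
  -- the weighted moment
  have hMoments : ∑ i, c i * S i = Mom := by
    simp only [hS, hMom, ← integral_const_mul]
    rw [← integral_finsetSum]
    · refine integral_congr_ae (Filter.Eventually.of_forall fun x => ?_)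
      simp only
      rw [← hJ x]
      exact Finset.sum_congr rfl fun i _ => by rw [real_inner_comm]
    · intro i _
      exact (integrableOn_outer hK (hcontS i)).const_mul _
  -- the inequality in each direction
  have hdir : ∀ i, PettyOneD.c0 * Vol + 6 / 5 * S i - 2 / 5 * Mom + π ^ 3 / 4
      ≤ 4 * (∫ t in (0 : ℝ)..1, rr (b i) K t) ^ 2 := by
    intro i
    have hwi : ∀ x ∈ K, ⟪x, b i 2⟫ ≤ 1 := by
      rw [hb i]; exact hw i
    have h4 := outer_psi (b i) hK hKc hsym hB hwi
    have h5 := outer_moment (b i) hK hKc hsym hB hwi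
    have h1 := PettyOneD.oneD (rhoB_anti (b i) hK hKc hsym) (rhoB_low (b i) hK hB)
      (rhoB_cont (b i) hK hKc hB)
    rw [hb i] at h4
    -- the left side of `h4`
    have h6 : ∫ x in outer K, (PettyOneD.c0 - 2 / 5 + 6 / 5 * ⟪y i, x⟫ ^ 2)
        = (PettyOneD.c0 - 2 / 5) * Vol + 6 / 5 * S i := by
      rw [integral_add (hconst _) ((integrableOn_outer hK (hcontS i)).const_mul _),
        setIntegral_const, integral_const_mul]
      simp only [hS, Measure.real, smul_eq_mul, hVol]
      ring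
    have h7 : ∫ x in outer K, (‖x‖ ^ 2 - 1) = Mom - Vol := by
      rw [integral_sub (integrableOn_outer hK hcontN) (hconst _), setIntegral_const]
      simp [Measure.real, hMom, hVol]
    rw [h6] at h4
    rw [h7] at h5
    -- the profile integral
    have h8 : ∫ t in (0 : ℝ)..1, rhoB (b i) K t = (∫ t in (0 : ℝ)..1, rr (b i) K t) / √π := by
      simp only [rhoB, intervalIntegral.integral_div]
    rw [h8, div_pow, Real.sq_sqrt hπ.le] at h1
    set J := ∫ t in (0 : ℝ)..1, rr (b i) K t with hJdef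
    set L := ∫ t in (0 : ℝ)..1, PettyOneD.vv (rhoB (b i) K) t * PettyOneD.psi t with hL
    set M := ∫ t in (0 : ℝ)..1, PettyOneD.vv (rhoB (b i) K) t ^ 2 with hM
    -- multiply `h1` by `2 π`
    have h9 : 2 * π * (L - 1 / 5 * M) ≤ 2 * π * (2 * (J ^ 2 / π - (π / 4) ^ 2)) :=
      mul_le_mul_of_nonneg_left h1 (by positivity)
    have h10 : 2 * π * (2 * (J ^ 2 / π - (π / 4) ^ 2)) = 4 * J ^ 2 - π ^ 3 / 4 := by
      field_simp
      ring
    rw [h10] at h9
    have h11 : 2 * π * (L - 1 / 5 * M) = 2 * π * L - 2 / 5 * (π * M) := by ring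
    rw [h11, ← h4] at h9
    nlinarith
  -- average over the directions
  have hc0 : PettyOneD.c0 * (4 * π / 3) = π ^ 3 / 4 := by
    unfold PettyOneD.c0
    field_simp
    ring
  have hvalue : PettyOneD.c0 * (volume K).toReal = PettyOneD.c0 * Vol + π ^ 3 / 4 := by
    rw [hvolK, mul_add, hc0]
  by_contra hcon
  push Not at hcon
  have hlt : ∑ i, (c i / 3) * (4 * (∫ t in (0 : ℝ)..1, rr (b i) K t) ^ 2)
      < ∑ i, (c i / 3) * (PettyOneD.c0 * (volume K).toReal) := by
    apply Finset.sum_lt_sum_of_nonempty Finset.univ_nonempty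
    intro i _
    exact mul_lt_mul_of_pos_left (hcon i) (by have := hc i; positivity)
  have hle : ∑ i, (c i / 3) * (PettyOneD.c0 * Vol + 6 / 5 * S i - 2 / 5 * Mom + π ^ 3 / 4)
      ≤ ∑ i, (c i / 3) * (4 * (∫ t in (0 : ℝ)..1, rr (b i) K t) ^ 2) := by
    apply Finset.sum_le_sum
    intro i _
    exact mul_le_mul_of_nonneg_left (hdir i) (by have := hc i; positivity)
  have hleft : ∑ i, (c i / 3) * (PettyOneD.c0 * Vol + 6 / 5 * S i - 2 / 5 * Mom + π ^ 3 / 4)
      = PettyOneD.c0 * Vol + π ^ 3 / 4 := by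
    have e : ∀ i, (c i / 3) * (PettyOneD.c0 * Vol + 6 / 5 * S i - 2 / 5 * Mom + π ^ 3 / 4)
        = c i * ((PettyOneD.c0 * Vol - 2 / 5 * Mom + π ^ 3 / 4) / 3) + 2 / 5 * (c i * S i) := by
      intro i
      ring
    simp only [e]
    rw [Finset.sum_add_distrib, ← Finset.sum_mul, ← Finset.mul_sum, hsum, hMoments]
    ring
  have hright : ∑ i, (c i / 3) * (PettyOneD.c0 * (volume K).toReal)
      = PettyOneD.c0 * (volume K).toReal := by
    rw [← Finset.sum_mul, ← Finset.sum_div, hsum]
    ring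
  rw [hleft] at hle
  rw [hright] at hlt
  linarith

end

end Vale.Agent.Lib.P237.Petty
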