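import Vale.Agent.Lib.P237.PettyDefs

open MeasureTheory Set Filter Topology
open scoped RealInnerProductSpace Matrix

namespace Vale.Agent.Lib.P237.Petty

noncomputable section

/-- Three by three real matrices. -/
abbrev M3 := Matrix (Fin 3) (Fin 3) ℝ

/-- The action of a matrix on three space. -/
def act (M : M3) (x : E3) : E3 := WithLp.toLp 2 (M *ᵥ WithLp.ofLp x)

lemma act_add (M : M3) (x y : E3) : act M (x + y) = act M x + act M y := by
  unfold act
  simp [Matrix.mulVec_add]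

lemma act_smul (M : M3) (c : ℝ) (x : E3) : act M (c • x) = c • act M x := by
  unfold act
  simp [Matrix.mulVec_smul]

lemma act_neg (M : M3) (x : E3) : act M (-x) = - act M x := by
  have := act_smul M (-1) x
  simpa using this

lemma act_zero (M : M3) : act M 0 = 0 := by
  have := act_smul M 0 0
  simpa using this

lemma act_mul (M N : M3) (x : E3) : act (M * N) x = act M (act N x) := by
  unfold act
  simp [Matrix.mulVec_mulVec]

lemma act_one (x : E3) : act 1 x = x := by
  unfold act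
  simp

lemma act_one_add_smul (B : M3) (c : ℝ) (x : E3) : act (1 + c • B) x = x + c • act B x := by
  unfold act
  simp [Matrix.add_mulVec, Matrix.smul_mulVec]

lemma act_smul_left (c : ℝ) (B : M3) (x : E3) : act (c • B) x = c • act B x := by
  unfold act
  simp [Matrix.smul_mulVec]

lemma act_sub_smul_one (A : M3) (c : ℝ) (x : E3) : act (A - c • 1) x = act A x - c • x := by
  unfold act
  simp [Matrix.sub_mulVec, Matrix.smul_mulVec]

lemma act_continuous (M : M3) : Continuous (act M) := by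
  unfold act
  exact (PiLp.continuous_toLp 2 _).comp (Continuous.matrix_mulVec continuous_const
    (PiLp.continuous_ofLp 2 _))

lemma act_continuous_left (x : E3) : Continuous fun M : M3 => act M x := by
  unfold act
  exact (PiLp.continuous_toLp 2 _).comp (Continuous.matrix_mulVec continuous_id continuous_const)

lemma det_one_add_smul (B : M3) (c : ℝ) :
    (1 + c • B).det = 1 + c * B.trace +
      c ^ 2 * (B 0 0 * B 1 1 - B 0 1 * B 1 0 + B 0 0 * B 2 2 - B 0 2 * B 2 0 + B 1 1 * B 2 2 - B 1 2 * B 2 1)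
      + c ^ 3 * B.det := by
  simp [Matrix.det_fin_three, Matrix.trace_fin_three]
  ring

section dual

variable {K : Set E3}

lemma gauge_le_norm (hK0 : Metric.closedBall (0 : E3) 1 ⊆ K) (z : E3) : gauge K z ≤ ‖z‖ := by
  rcases eq_or_ne z 0 with rfl | hz
  · simp
  · apply gauge_le_of_mem (norm_nonneg z)
    refine ⟨‖z‖⁻¹ • z, hK0 ?_, ?_⟩
    · rw [mem_closedBall_zero_iff, norm_smul, norm_inv, norm_norm,
        inv_mul_cancel₀ (norm_ne_zero_iff.mpr hz)]
    · simp only
      rw [smul_smul, mul_inv_cancel₀ (norm_ne_zero_iff.mpr hz), one_smul]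

/-- A unit vector which is not interior gives a supporting direction. -/
lemma contact_of_gauge (hKc : Convex ℝ K) (hKcl : IsClosed K)
    (hK0 : Metric.closedBall (0 : E3) 1 ⊆ K) {y : E3} (hy : ‖y‖ = 1) (hg : ¬ gauge K y < 1) :
    ∀ x ∈ K, ⟪x, y⟫ ≤ 1 := by
  have hnh : K ∈ 𝓝 (0 : E3) := Filter.mem_of_superset (Metric.closedBall_mem_nhds 0 one_pos) hK0
  have hint : y ∉ interior K := by
    intro h
    exact hg ((gauge_lt_one_iff_mem_interior hKc hnh).mpr h)
  obtain ⟨f, hf1⟩ := geometric_hahn_banach_open_point hKc.interior isOpen_interior hint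
  set w : E3 := (InnerProductSpace.toDual ℝ E3).symm f with hw
  have hfw : ∀ z, f z = ⟪w, z⟫ := by
    intro z
    rw [hw, InnerProductSpace.toDual_symm_apply]
  have hball : Metric.ball (0 : E3) 1 ⊆ interior K :=
    interior_maximal (Metric.ball_subset_closedBall.trans hK0) Metric.isOpen_ball
  have hfy : ∀ z ∈ Metric.closedBall (0 : E3) 1, ⟪w, z⟫ ≤ ⟪w, y⟫ := by
    intro z hz
    have hz' : ‖z‖ ≤ 1 := by simpa using hz
    -- scale inside the open ball
    have key : ∀ t : ℝ, 0 ≤ t → t < 1 → t * ⟪w, z⟫ ≤ ⟪w, y⟫ := by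
      intro t ht0 ht1
      have hmem : t • z ∈ interior K := by
        apply hball
        rw [mem_ball_zero_iff, norm_smul, Real.norm_of_nonneg ht0]
        calc t * ‖z‖ ≤ t * 1 := by gcongr
          _ < 1 := by linarith
      have h1 := hf1 _ hmem
      rw [hfw, hfw, inner_smul_right] at h1
      exact h1.le
    by_contra hlt
    have hlt' : ⟪w, y⟫ < ⟪w, z⟫ := not_le.mp hlt
    have hc : Tendsto (fun t : ℝ => t * ⟪w, z⟫) (𝓝[<] 1) (𝓝 ⟪w, z⟫) := by
      have : Tendsto (fun t : ℝ => t * ⟪w, z⟫) (𝓝 1) (𝓝 (1 * ⟪w, z⟫)) :=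
        (continuous_id.mul continuous_const).tendsto 1
      rw [one_mul] at this
      exact this.mono_left nhdsWithin_le_nhds
    have hev := hc.eventually (lt_mem_nhds hlt')
    have h2 : ∀ᶠ t : ℝ in 𝓝[<] 1, 0 < t ∧ t < 1 := by
      filter_upwards [Ioo_mem_nhdsLT (zero_lt_one' ℝ)] with t ht
      exact ht
    obtain ⟨t, h3, h4⟩ := (hev.and h2).exists
    have := key t h4.1.le h4.2
    linarith
  have hw0 : w ≠ 0 := by
    intro h0
    have h1 := hf1 0 (hball (Metric.mem_ball_self one_pos))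
    rw [hfw, hfw, h0, inner_zero_left, inner_zero_left] at h1
    exact lt_irrefl _ h1
  have hwn : 0 < ‖w‖ := norm_pos_iff.mpr hw0
  have h1 : ‖w‖ ≤ ⟪w, y⟫ := by
    have := hfy (‖w‖⁻¹ • w) (by
      rw [mem_closedBall_zero_iff, norm_smul, norm_inv, norm_norm, inv_mul_cancel₀ hwn.ne'])
    rw [inner_smul_right, real_inner_self_eq_norm_sq] at this
    have e : ‖w‖⁻¹ * ‖w‖ ^ 2 = ‖w‖ := by field_simp
    rwa [e] at this
  have h2 : ⟪w, y⟫ ≤ ‖w‖ := by
    have := real_inner_le_norm w y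
    rwa [hy, mul_one] at this
  have heq : ⟪w, y⟫ = ‖w‖ := le_antisymm h2 h1
  have hwy : w = ‖w‖ • y := by
    have h3 : ⟪w, y⟫ = ‖w‖ * ‖y‖ := by rw [hy, mul_one]; exact heq
    have h4 := (inner_eq_norm_mul_iff_real (x := w) (y := y)).mp h3
    rw [hy, one_smul] at h4
    exact h4
  intro x hx
  have hxcl : x ∈ closure (interior K) := by
    rw [hKc.closure_interior_eq_closure_of_nonempty_interior
      ⟨0, hball (Metric.mem_ball_self one_pos)⟩, hKcl.closure_eq]
    exact hx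
  have hle : ⟪w, x⟫ ≤ ⟪w, y⟫ := by
    have hcl : IsClosed {z : E3 | ⟪w, z⟫ ≤ ⟪w, y⟫} :=
      isClosed_le (by fun_prop) continuous_const
    refine closure_minimal ?_ hcl hxcl
    intro z hz
    have := hf1 z hz
    rw [hfw, hfw] at this
    exact this.le
  rw [heq] at hle
  have h5 : ⟪w, x⟫ = ‖w‖ * ⟪x, y⟫ := by
    conv_lhs => rw [hwy]
    rw [inner_smul_left, real_inner_comm]
    simp
  rw [h5] at hle
  have : ‖w‖ * ⟪x, y⟫ ≤ ‖w‖ * 1 := by rwa [mul_one]
  exact le_of_mul_le_mul_left this hwn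

/-- Dual form of John's theorem. -/
theorem john_dual (hK : IsCompact K) (hKc : Convex ℝ K)
    (hK0 : Metric.closedBall (0 : E3) 1 ⊆ K)
    (hmax : ∀ S : M3, (∀ x : E3, ‖x‖ ≤ 1 → act S x ∈ K) → |S.det| ≤ 1) (A : M3) :
    ∃ y : E3, ‖y‖ = 1 ∧ (∀ x ∈ K, ⟪x, y⟫ ≤ 1) ∧ A.trace / 3 ≤ ⟪act A y, y⟫ := by
  by_contra hne
  have hne' : ∀ y : E3, ‖y‖ = 1 → (∀ x ∈ K, ⟪x, y⟫ ≤ 1) → ⟪act A y, y⟫ < A.trace / 3 := by
    intro y hy hc
    by_contra hlt
    exact hne ⟨y, hy, hc, not_lt.mp hlt⟩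
  have hnh : K ∈ 𝓝 (0 : E3) := Filter.mem_of_superset (Metric.closedBall_mem_nhds 0 one_pos) hK0
  have habs : Absorbent ℝ K := absorbent_nhds_zero hnh
  set B : M3 := A - (A.trace / 3) • 1 with hB
  have htr : B.trace = 0 := by
    rw [hB, Matrix.trace_sub, Matrix.trace_smul, Matrix.trace_one]
    simp
  set g : E3 → ℝ := fun y => ⟪act B y, y⟫ with hg
  have hgc : Continuous g := by
    simp only [hg]
    exact (act_continuous B).inner continuous_id
  have hgv : Continuous (gauge K) := continuous_gauge hKc hnh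
  set m : E3 → ℝ := fun y => min (g y) (gauge K y - 1) with hm
  have hmc : Continuous m := hgc.min (hgv.sub continuous_const)
  have hneg : ∀ y ∈ Metric.sphere (0 : E3) 1, m y < 0 := by
    intro y hy
    have hy' : ‖y‖ = 1 := by simpa using hy
    rw [hm]
    by_cases hlt : gauge K y < 1
    · exact min_lt_of_right_lt (by linarith)
    · apply min_lt_of_left_lt
      have hct := hne' y hy' (contact_of_gauge hKc hK.isClosed hK0 hy' hlt)
      simp only [hg, hB]
      rw [act_sub_smul_one, inner_sub_left, inner_smul_left, real_inner_self_eq_norm_sq, hy']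
      simp
      linarith
  have hsph : IsCompact (Metric.sphere (0 : E3) 1) := isCompact_sphere 0 1
  have hsne : (Metric.sphere (0 : E3) 1).Nonempty := by
    refine ⟨EuclideanSpace.single 0 1, ?_⟩
    simp
  obtain ⟨y₀, hy₀, hmaxm⟩ := hsph.exists_isMaxOn hsne hmc.continuousOn
  set η := - m y₀ with hη
  have hηpos : 0 < η := by
    have := hneg y₀ hy₀
    linarith
  have hall : ∀ y : E3, ‖y‖ = 1 → g y ≤ -η ∨ gauge K y - 1 ≤ -η := by
    intro y hy
    have hmem : y ∈ Metric.sphere (0 : E3) 1 := by simpa using hy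
    have h1 : m y ≤ m y₀ := hmaxm hmem
    have h2 : m y ≤ -η := by rw [hη, neg_neg]; exact h1
    rcases min_choice (g y) (gauge K y - 1) with h | h
    · left
      simp only [hm] at h2
      rwa [h] at h2
    · right
      simp only [hm] at h2
      rwa [h] at h2
  obtain ⟨M₀, hM₀⟩ := hsph.exists_bound_of_continuousOn (act_continuous B).continuousOn
  set M := max M₀ 1 with hM
  have hMpos : 0 < M := lt_of_lt_of_le one_pos (le_max_right _ _)
  have hbound : ∀ y : E3, ‖y‖ = 1 → ‖act B y‖ ≤ M := by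
    intro y hy
    exact (hM₀ y (by simpa using hy)).trans (le_max_left _ _)
  set e₂ := B 0 0 * B 1 1 - B 0 1 * B 1 0 + B 0 0 * B 2 2 - B 0 2 * B 2 0 + B 1 1 * B 2 2 - B 1 2 * B 2 1
    with he₂
  set e₃ := B.det with he₃
  -- the small parameter
  have ev1 : ∀ᶠ ε : ℝ in 𝓝[>] 0, ε * M ^ 2 < η := by
    have : Tendsto (fun ε : ℝ => ε * M ^ 2) (𝓝 0) (𝓝 (0 * M ^ 2)) :=
      (continuous_id.mul continuous_const).tendsto 0
    rw [zero_mul] at this
    exact (this.mono_left nhdsWithin_le_nhds).eventually (gt_mem_nhds hηpos)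
  have ev2 : ∀ᶠ ε : ℝ in 𝓝[>] 0, ε * (M + η / 2) < η := by
    have : Tendsto (fun ε : ℝ => ε * (M + η / 2)) (𝓝 0) (𝓝 (0 * (M + η / 2))) :=
      (continuous_id.mul continuous_const).tendsto 0
    rw [zero_mul] at this
    exact (this.mono_left nhdsWithin_le_nhds).eventually (gt_mem_nhds hηpos)
  have ev3 : ∀ᶠ ε : ℝ in 𝓝[>] 0, ε * η / 2 < 1 := by
    have : Tendsto (fun ε : ℝ => ε * η / 2) (𝓝 0) (𝓝 (0 * η / 2)) :=
      ((continuous_id.mul continuous_const).div_const 2).tendsto 0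
    simp only [zero_mul, zero_div] at this
    exact (this.mono_left nhdsWithin_le_nhds).eventually (gt_mem_nhds one_pos)
  have ev4 : ∀ᶠ ε : ℝ in 𝓝[>] 0,
      0 < 3 * η / 2 - 3 * ε * η ^ 2 / 4 + ε ^ 2 * η ^ 3 / 8 + ε * e₂ + ε ^ 2 * e₃ := by
    have hc : Continuous fun ε : ℝ =>
        3 * η / 2 - 3 * ε * η ^ 2 / 4 + ε ^ 2 * η ^ 3 / 8 + ε * e₂ + ε ^ 2 * e₃ := by fun_prop
    have := hc.tendsto 0
    simp only [mul_zero, zero_mul, zero_div, ne_eq, OfNat.ofNat_ne_zero, not_false_eq_true,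
      zero_pow, sub_zero, add_zero] at this
    exact (this.mono_left nhdsWithin_le_nhds).eventually (lt_mem_nhds (by positivity))
  obtain ⟨ε, ⟨⟨⟨h1, h2⟩, h3⟩, h4⟩, hε⟩ :=
    (((ev1.and ev2).and ev3).and ev4 |>.and self_mem_nhdsWithin).exists
  have hε0 : 0 < ε := hε
  set κ := 1 - ε * η / 2 with hκ
  have hκ0 : 0 < κ := by rw [hκ]; linarith
  have hz : ∀ y : E3, ‖y‖ = 1 → gauge K (y + ε • act B y) ≤ κ := by
    intro y hy
    rcases hall y hy with hc | hc
    · refine (gauge_le_norm hK0 _).trans ?_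
      have hgy : ⟪act B y, y⟫ ≤ -η := hc
      have hsq : ‖y + ε • act B y‖ ^ 2 ≤ κ ^ 2 := by
        rw [norm_add_sq_real, inner_smul_right, real_inner_comm, norm_smul, Real.norm_of_nonneg hε0.le,
          hy, mul_pow]
        have hb := hbound y hy
        have hb2 : ‖act B y‖ ^ 2 ≤ M ^ 2 := pow_le_pow_left₀ (norm_nonneg _) hb 2
        have h5 : ε ^ 2 * ‖act B y‖ ^ 2 ≤ ε ^ 2 * M ^ 2 :=
          mul_le_mul_of_nonneg_left hb2 (sq_nonneg ε)
        have h6 : ε * ⟪act B y, y⟫ ≤ ε * (-η) := mul_le_mul_of_nonneg_left hgy hε0.le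
        have h7 : ε ^ 2 * M ^ 2 ≤ ε * η := by
          have := mul_le_mul_of_nonneg_left h1.le hε0.le
          nlinarith
        rw [hκ]
        nlinarith [mul_pos hε0 hηpos, sq_nonneg (ε * η)]
      exact (pow_le_pow_iff_left₀ (norm_nonneg _) hκ0.le two_ne_zero).mp hsq
    · have hadd := gauge_add_le hKc habs y (ε • act B y)
      rw [gauge_smul_of_nonneg hε0.le, smul_eq_mul] at hadd
      have hb := (gauge_le_norm hK0 (act B y)).trans (hbound y hy)
      have h5 : ε * gauge K (act B y) ≤ ε * M := mul_le_mul_of_nonneg_left hb hε0.le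
      rw [hκ]
      nlinarith
  set S : M3 := κ⁻¹ • (1 + ε • B) with hS
  have hSact : ∀ x : E3, act S x = κ⁻¹ • (x + ε • act B x) := by
    intro x
    rw [hS, act_smul_left, act_one_add_smul]
  have hSmem : ∀ x : E3, ‖x‖ ≤ 1 → act S x ∈ K := by
    intro x hx
    rcases eq_or_ne x 0 with rfl | hx0
    · rw [act_zero]
      exact hK0 (by simp)
    · have hn : 0 < ‖x‖ := norm_pos_iff.mpr hx0
      have hu : ‖‖x‖⁻¹ • x‖ = 1 := by
        rw [norm_smul, norm_inv, norm_norm, inv_mul_cancel₀ hn.ne']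
      have hx' : x = ‖x‖ • (‖x‖⁻¹ • x) := by
        rw [smul_smul, mul_inv_cancel₀ hn.ne', one_smul]
      have h5 : act S x = (‖x‖ * κ⁻¹) • ((‖x‖⁻¹ • x) + ε • act B (‖x‖⁻¹ • x)) := by
        conv_lhs => rw [hx', act_smul, hSact]
        rw [smul_smul]
      have h6 : gauge K (act S x) ≤ 1 := by
        rw [h5, gauge_smul_of_nonneg (by positivity), smul_eq_mul]
        have := hz _ hu
        calc ‖x‖ * κ⁻¹ * gauge K (‖x‖⁻¹ • x + ε • act B (‖x‖⁻¹ • x))
            ≤ ‖x‖ * κ⁻¹ * κ := mul_le_mul_of_nonneg_left this (by positivity)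
          _ = ‖x‖ := by field_simp
          _ ≤ 1 := hx
      have := (gauge_le_one_iff_mem_closure hKc hnh).mp h6
      rwa [hK.isClosed.closure_eq] at this
  have hdet := hmax S hSmem
  have hdS : S.det = (κ⁻¹) ^ 3 * (1 + ε * B.trace + ε ^ 2 * e₂ + ε ^ 3 * e₃) := by
    rw [hS, Matrix.det_smul, det_one_add_smul, Fintype.card_fin]
  rw [htr, mul_zero, add_zero] at hdS
  have hp : κ ^ 3 < 1 + ε ^ 2 * e₂ + ε ^ 3 * e₃ := by
    have h5 := mul_pos hε0 h4
    rw [hκ]
    nlinarith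
  have hκ3 : 0 < κ ^ 3 := by positivity
  have hlarge : 1 < S.det := by
    rw [hdS, inv_pow, inv_mul_eq_div, one_lt_div hκ3]
    exact hp
  have := le_abs_self S.det
  linarith

end dual

end

end Vale.Agent.Lib.P237.Petty
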