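import Vale.Agent.Lib.P237.PettyJohn
import Mathlib.Analysis.Convex.Caratheodory

open MeasureTheory Set Filter Topology
open scoped RealInnerProductSpace Matrix

namespace Vale.Agent.Lib.P237.Petty

noncomputable section

variable {K : Set E3}

/-- The space of matrices as a Euclidean space. -/
abbrev X9 := EuclideanSpace ℝ (Fin 3 × Fin 3)

/-- The convex hull of a compact set in finite dimension is compact. -/
lemma convexHull_isCompact {E : Type} [NormedAddCommGroup E] [NormedSpace ℝ E] [FiniteDimensional ℝ E]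
    {s : Set E} (hs : IsCompact s) : IsCompact (convexHull ℝ s) := by
  rcases s.eq_empty_or_nonempty with rfl | ⟨s₀, hs₀⟩
  · simp
  set N := Module.finrank ℝ E + 1 with hN
  let Φ : (Fin N → ℝ) × (Fin N → E) → E := fun p => ∑ k, p.1 k • p.2 k
  have hΦ : Continuous Φ := by
    simp only [Φ]
    fun_prop
  have hS : IsCompact ((stdSimplex ℝ (Fin N)) ×ˢ (Set.univ.pi fun _ : Fin N => s)) :=
    (isCompact_stdSimplex ℝ _).prod (isCompact_univ_pi fun _ => hs)
  have heq : convexHull ℝ s = Φ '' ((stdSimplex ℝ (Fin N)) ×ˢ (Set.univ.pi fun _ : Fin N => s)) := by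
    apply Set.Subset.antisymm
    · intro x hx
      obtain ⟨ι, hι, z, w, hz, hai, hw, hw1, hsum⟩ := eq_pos_convex_span_of_mem_convexHull hx
      have hcard : Fintype.card ι ≤ N := hai.card_le_finrank_succ.trans (by
        rw [hN]
        exact Nat.succ_le_succ (Submodule.finrank_le _))
      let e : ι ↪ Fin N := (Fintype.equivFin ι).toEmbedding.trans (Fin.castLEEmb hcard)
      let w' : Fin N → ℝ := Function.extend e w 0
      let z' : Fin N → E := Function.extend e z (fun _ => s₀)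
      have hw'e : ∀ i, w' (e i) = w i := fun i => e.injective.extend_apply _ _ _
      have hz'e : ∀ i, z' (e i) = z i := fun i => e.injective.extend_apply _ _ _
      have hw'0 : ∀ k, k ∉ Set.range e → w' k = 0 := by
        intro k hk
        exact Function.extend_apply' _ _ _ (by simpa using hk)
      have hz'0 : ∀ k, k ∉ Set.range e → z' k = s₀ := by
        intro k hk
        exact Function.extend_apply' _ _ _ (by simpa using hk)
      refine ⟨(w', z'), ⟨⟨?_, ?_⟩, ?_⟩, ?_⟩
      · intro k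
        show 0 ≤ w' k
        by_cases hk : k ∈ Set.range e
        · obtain ⟨i, rfl⟩ := hk
          rw [hw'e]
          exact (hw i).le
        · rw [hw'0 k hk]
      · show ∑ k, w' k = 1
        rw [← hw1]
        symm
        exact Fintype.sum_of_injective e e.injective _ _ (fun k hk => hw'0 k hk) (fun i => (hw'e i).symm)
      · intro k _
        by_cases hk : k ∈ Set.range e
        · obtain ⟨i, rfl⟩ := hk
          show z' (e i) ∈ s
          rw [hz'e]
          exact hz ⟨i, rfl⟩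
        · show z' k ∈ s
          rw [hz'0 k hk]
          exact hs₀
      · show ∑ k, w' k • z' k = x
        rw [← hsum]
        symm
        refine Fintype.sum_of_injective e e.injective _ _ (fun k hk => ?_) (fun i => ?_)
        · rw [hw'0 k hk, zero_smul]
        · rw [hw'e, hz'e]
    · rintro _ ⟨⟨w, z⟩, ⟨hw, hz⟩, rfl⟩
      apply (convex_convexHull ℝ s).sum_mem (fun k _ => hw.1 k) hw.2
      intro k _
      exact subset_convexHull ℝ s (hz k (mem_univ k))
  rw [heq]
  exact hS.image hΦ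

lemma inner_X9 (w v : X9) : ⟪w, v⟫ = ∑ p : Fin 3 × Fin 3, w p * v p := by
  simp only [PiLp.inner_apply, RCLike.inner_apply, conj_trivial]
  exact Finset.sum_congr rfl fun p _ => mul_comm _ _

/-- The linear images of the unit ball inside `K`: a compact set of matrices. -/
lemma inscribed_compact (hK : IsCompact K) :
    IsCompact {M : M3 | ∀ x : E3, ‖x‖ ≤ 1 → act M x ∈ K} := by
  obtain ⟨R, hR⟩ := hK.isBounded.exists_norm_le
  have hcl : IsClosed {M : M3 | ∀ x : E3, ‖x‖ ≤ 1 → act M x ∈ K} := by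
    simp only [Set.ofPred_forall]
    exact isClosed_iInter fun x => isClosed_iInter fun _ =>
      hK.isClosed.preimage (act_continuous_left x)
  have hsub : {M : M3 | ∀ x : E3, ‖x‖ ≤ 1 → act M x ∈ K} ⊆
      (Set.univ.pi fun _ : Fin 3 => Set.univ.pi fun _ : Fin 3 => Icc (-R) R : Set (Fin 3 → Fin 3 → ℝ)) := by
    intro M hM i _ j _
    have h1 : ‖(EuclideanSpace.single j (1 : ℝ) : E3)‖ ≤ 1 := by simp
    have h2 := hR _ (hM _ h1)
    have h3 : |act M (EuclideanSpace.single j (1 : ℝ)) i| ≤ ‖act M (EuclideanSpace.single j (1 : ℝ))‖ := by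
      have := PiLp.norm_apply_le (p := 2) (act M (EuclideanSpace.single j (1 : ℝ))) i
      simpa [Real.norm_eq_abs] using this
    have h4 : act M (EuclideanSpace.single j (1 : ℝ)) i = M i j := by
      simp [act, Matrix.mulVec_single]
    rw [h4] at h3
    exact abs_le.mp (h3.trans h2)
  have hc : IsCompact (Set.univ.pi fun _ : Fin 3 => Set.univ.pi fun _ : Fin 3 => Icc (-R) R : Set (Fin 3 → Fin 3 → ℝ)) :=
    isCompact_univ_pi fun _ => isCompact_univ_pi fun _ => isCompact_Icc
  exact hc.of_isClosed_subset hcl hsub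

/-- The maximal determinant position. -/
theorem exists_john_matrix (hK : IsCompact K) {r : ℝ} (hr : 0 < r)
    (hball : Metric.closedBall (0 : E3) r ⊆ K) :
    ∃ M : M3, M.det ≠ 0 ∧ (∀ x : E3, ‖x‖ ≤ 1 → act M x ∈ K) ∧
      ∀ S : M3, (∀ x : E3, ‖x‖ ≤ 1 → act S x ∈ K) → |S.det| ≤ |M.det| := by
  have hmem : (r • (1 : M3)) ∈ {M : M3 | ∀ x : E3, ‖x‖ ≤ 1 → act M x ∈ K} := by
    intro x hx
    rw [act_smul_left, act_one]
    apply hball
    rw [mem_closedBall_zero_iff, norm_smul, Real.norm_of_nonneg hr.le]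
    nlinarith
  have hdc : ContinuousOn (fun M : M3 => |M.det|) {M : M3 | ∀ x : E3, ‖x‖ ≤ 1 → act M x ∈ K} :=
    (Continuous.matrix_det continuous_id).abs.continuousOn
  obtain ⟨M, hM, hmax⟩ := (inscribed_compact hK).exists_isMaxOn ⟨_, hmem⟩ hdc
  refine ⟨M, ?_, hM, fun S hS => hmax hS⟩
  intro h0
  have h1 : |(r • (1 : M3)).det| ≤ |M.det| := hmax hmem
  rw [h0, abs_zero, Matrix.det_smul, Matrix.det_one, mul_one, abs_nonpos_iff] at h1
  have : r ^ Fintype.card (Fin 3) ≠ 0 := pow_ne_zero _ hr.ne'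
  exact this h1

/-- Normalized form: the image under the inverse matrix contains the unit ball and has no larger
inscribed linear image. -/
theorem john_normalize (hK : IsCompact K) {r : ℝ} (hr : 0 < r)
    (hball : Metric.closedBall (0 : E3) r ⊆ K) :
    ∃ M : M3, M.det ≠ 0 ∧ Metric.closedBall (0 : E3) 1 ⊆ act M⁻¹ '' K ∧
      ∀ S : M3, (∀ x : E3, ‖x‖ ≤ 1 → act S x ∈ act M⁻¹ '' K) → |S.det| ≤ 1 := by
  obtain ⟨M, h0, hin, hmax⟩ := exists_john_matrix hK hr hball
  have hunit : IsUnit M.det := isUnit_iff_ne_zero.mpr h0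
  have hMi : M⁻¹ * M = 1 := Matrix.nonsing_inv_mul M hunit
  have hMi' : M * M⁻¹ = 1 := Matrix.mul_nonsing_inv M hunit
  refine ⟨M, h0, ?_, ?_⟩
  · intro x hx
    refine ⟨act M x, hin x (by simpa using hx), ?_⟩
    rw [← act_mul, hMi, act_one]
  · intro S hS
    have h1 : ∀ x : E3, ‖x‖ ≤ 1 → act (M * S) x ∈ K := by
      intro x hx
      obtain ⟨z, hz, he⟩ := hS x hx
      rw [act_mul, ← he, ← act_mul, hMi', act_one]
      exact hz
    have h2 := hmax _ h1
    rw [Matrix.det_mul, abs_mul] at h2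
    have hpos : 0 < |M.det| := abs_pos.mpr h0
    have : |M.det| * |S.det| ≤ |M.det| * 1 := by rwa [mul_one]
    exact le_of_mul_le_mul_left this hpos

/-- The primal form of John's theorem from the dual one. -/
theorem john_primal {C : Set E3} (hC : IsCompact C)
    (hdual : ∀ A : M3, ∃ y ∈ C, A.trace / 3 ≤ ⟪act A y, y⟫) :
    ∃ (ι : Type) (_ : Fintype ι) (y : ι → E3) (c : ι → ℝ), (∀ i, y i ∈ C) ∧ (∀ i, 0 < c i) ∧
      ∀ x : E3, ∑ i, c i * ⟪x, y i⟫ ^ 2 = ‖x‖ ^ 2 := by
  let Y : E3 → X9 := fun y => WithLp.toLp 2 fun p => y p.1 * y p.2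
  have hYc : Continuous Y := by
    apply (PiLp.continuous_toLp 2 _).comp
    apply continuous_pi
    intro p
    exact ((PiLp.continuous_apply 2 _ p.1).mul (PiLp.continuous_apply 2 _ p.2))
  let I3 : X9 := WithLp.toLp 2 fun p => if p.1 = p.2 then (1 / 3 : ℝ) else 0
  have hmem : I3 ∈ convexHull ℝ (Y '' C) := by
    by_contra hnot
    have hcomp : IsCompact (convexHull ℝ (Y '' C)) := convexHull_isCompact (hC.image hYc)
    obtain ⟨f, u, hf1, hf2⟩ := geometric_hahn_banach_closed_point (convex_convexHull ℝ _)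
      hcomp.isClosed hnot
    set w : X9 := (InnerProductSpace.toDual ℝ X9).symm f with hw
    have hfw : ∀ z, f z = ⟪w, z⟫ := by
      intro z
      rw [hw, InnerProductSpace.toDual_symm_apply]
    let A : M3 := fun i j => w (i, j)
    obtain ⟨y, hy, hA⟩ := hdual A
    have h1 := hf1 (Y y) (subset_convexHull ℝ _ ⟨y, hy, rfl⟩)
    rw [hfw] at h1 hf2
    have e1 : ⟪w, Y y⟫ = ⟪act A y, y⟫ := by
      rw [inner_X9]
      simp only [PiLp.inner_apply, Fintype.sum_prod_type, Fin.sum_univ_three, act, Y, A,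
        RCLike.inner_apply, conj_trivial, Matrix.mulVec, dotProduct]
      ring
    have e2 : ⟪w, I3⟫ = A.trace / 3 := by
      rw [inner_X9, Matrix.trace_fin_three]
      simp only [Fintype.sum_prod_type, Fin.sum_univ_three, I3, A]
      simp
      ring
    rw [e1] at h1
    rw [e2] at hf2
    linarith
  obtain ⟨ι, hι, z, w, hz, -, hw, hw1, hsum⟩ := eq_pos_convex_span_of_mem_convexHull hmem
  have hzy : ∀ i, ∃ y ∈ C, Y y = z i := fun i => hz ⟨i, rfl⟩
  choose y hy hyz using hzy
  refine ⟨ι, hι, y, fun i => 3 * w i, hy, fun i => by have := hw i; positivity, fun x => ?_⟩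
  have hcoord : ∀ k l : Fin 3, ∑ i, w i * (y i k * y i l) = if k = l then (1 / 3 : ℝ) else 0 := by
    intro k l
    have h1 := congrArg (fun v : X9 => v (k, l)) hsum
    have h2 : (∑ i, w i • z i) (k, l) = ∑ i, w i * (y i k * y i l) := by
      have h3 : (∑ i, w i • z i) (k, l) = ∑ i, (w i • z i) (k, l) := by
        have := map_sum (EuclideanSpace.proj (k, l) : X9 →L[ℝ] ℝ) (fun i => w i • z i) Finset.univ
        simp
      rw [h3]
      apply Finset.sum_congr rfl
      intro i _
      rw [← hyz i]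
      simp [Y]
    simp only at h1
    rw [h2] at h1
    rw [h1]
  have hexp : ∀ i, ⟪x, y i⟫ ^ 2 =
      x 0 * x 0 * (y i 0 * y i 0) + x 0 * x 1 * (y i 0 * y i 1) + x 0 * x 2 * (y i 0 * y i 2)
      + x 1 * x 0 * (y i 1 * y i 0) + x 1 * x 1 * (y i 1 * y i 1) + x 1 * x 2 * (y i 1 * y i 2)
      + x 2 * x 0 * (y i 2 * y i 0) + x 2 * x 1 * (y i 2 * y i 1) + x 2 * x 2 * (y i 2 * y i 2) := by
    intro i
    simp only [PiLp.inner_apply, Fin.sum_univ_three, RCLike.inner_apply, conj_trivial]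
    ring
  have hnorm : ‖x‖ ^ 2 = x 0 * x 0 + x 1 * x 1 + x 2 * x 2 := by
    rw [← real_inner_self_eq_norm_sq]
    simp only [PiLp.inner_apply, Fin.sum_univ_three, RCLike.inner_apply, conj_trivial]
  have h00 := hcoord 0 0
  have h01 := hcoord 0 1
  have h02 := hcoord 0 2
  have h10 := hcoord 1 0
  have h11 := hcoord 1 1
  have h12 := hcoord 1 2
  have h20 := hcoord 2 0
  have h21 := hcoord 2 1
  have h22 := hcoord 2 2
  simp only [if_true, Fin.reduceEq, if_false] at h00 h01 h02 h10 h11 h12 h20 h21 h22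
  have hs : ∑ i, 3 * w i * ⟪x, y i⟫ ^ 2 =
      3 * (x 0 * x 0 * ∑ i, w i * (y i 0 * y i 0) + x 0 * x 1 * ∑ i, w i * (y i 0 * y i 1)
      + x 0 * x 2 * ∑ i, w i * (y i 0 * y i 2)
      + x 1 * x 0 * ∑ i, w i * (y i 1 * y i 0) + x 1 * x 1 * ∑ i, w i * (y i 1 * y i 1)
      + x 1 * x 2 * ∑ i, w i * (y i 1 * y i 2)
      + x 2 * x 0 * ∑ i, w i * (y i 2 * y i 0) + x 2 * x 1 * ∑ i, w i * (y i 2 * y i 1)
      + x 2 * x 2 * ∑ i, w i * (y i 2 * y i 2)) := by
    simp only [Finset.mul_sum, ← Finset.sum_add_distrib]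
    apply Finset.sum_congr rfl
    intro i _
    rw [hexp i]
    ring
  rw [hs, h00, h01, h02, h10, h11, h12, h20, h21, h22, hnorm]
  ring

end

end Vale.Agent.Lib.P237.Petty
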