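import Vale.Agent.Lib.P237.PettyGood

open MeasureTheory Set Module Filter Topology Metric
open scoped RealInnerProductSpace Pointwise ENNReal

namespace Vale.Agent.Lib.P237.Petty

open Vale.Agent.Lib.P237 Vale.Agent.Lib.P227

noncomputable section

lemma vol_pos_of_ball {X : Set E3} (hX : IsCompact X) {r : ℝ} (hr : 0 < r)
    (hb : closedBall (0 : E3) r ⊆ X) : 0 < (volume X).toReal :=
  ENNReal.toReal_pos (ne_of_gt (lt_of_lt_of_le (measure_closedBall_pos volume 0 hr) (measure_mono hb)))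
    hX.measure_lt_top.ne

/-- The dual contact property passes to Hausdorff limits. -/
lemma dual_limit {X : ℕ → Set E3} {X₀ : Set E3} (hc : HConv X X₀) {R : ℝ}
    (hb : ∀ n, X n ⊆ closedBall (0 : E3) R)
    (hd : ∀ n, ∀ Q : M3, ∃ y : E3, ‖y‖ = 1 ∧ (∀ x ∈ X n, ⟪x, y⟫ ≤ 1) ∧ Q.trace / 3 ≤ ⟪act Q y, y⟫)
    (Q : M3) : ∃ y : E3, ‖y‖ = 1 ∧ (∀ x ∈ X₀, ⟪x, y⟫ ≤ 1) ∧ Q.trace / 3 ≤ ⟪act Q y, y⟫ := by
  choose y hy1 hy2 hy3 using fun n => hd n Q
  obtain ⟨y₀, hy₀, θ, hθ, hlim⟩ := (isCompact_sphere (0 : E3) 1).tendsto_subseq (x := y)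
    (fun n => by simpa using hy1 n)
  have hy₀' : ‖y₀‖ = 1 := by simpa using hy₀
  refine ⟨y₀, hy₀', ?_, ?_⟩
  · intro x hx
    have hc' : HConv (fun n => X (θ n)) X₀ := hc.comp hθ.tendsto_atTop
    apply le_of_forall_pos_le_add
    intro δ hδ
    set C := |R| + 2 with hC
    have hCpos : 0 < C := by positivity
    have hε : 0 < δ / C := by positivity
    have h1 := hc' (δ / C) hε
    have h2 := (Metric.tendsto_nhds.mp hlim) (δ / C) hε
    obtain ⟨n, hn1, hn2⟩ := (h1.and h2).exists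
    obtain ⟨x', hx', hd⟩ := hn1.2 x hx
    have h3 : ⟪x, y₀⟫ = ⟪x - x', y₀⟫ + ⟪x', y₀ - y (θ n)⟫ + ⟪x', y (θ n)⟫ := by
      rw [inner_sub_left, inner_sub_right]
      ring
    have h4 : ⟪x - x', y₀⟫ ≤ δ / C := by
      have := real_inner_le_norm (x - x') y₀
      rw [hy₀', mul_one] at this
      rw [dist_eq_norm] at hd
      linarith
    have h5 : ⟪x', y₀ - y (θ n)⟫ ≤ |R| * (δ / C) := by
      have := real_inner_le_norm x' (y₀ - y (θ n))
      have hx'R : ‖x'‖ ≤ |R| := by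
        have := hb _ hx'
        rw [mem_closedBall_zero_iff] at this
        exact this.trans (le_abs_self R)
      have hn2' : ‖y₀ - y (θ n)‖ ≤ δ / C := by
        simp only [Function.comp_apply] at hn2
        rw [dist_comm, dist_eq_norm] at hn2
        exact hn2.le
      calc _ ≤ ‖x'‖ * ‖y₀ - y (θ n)‖ := this
        _ ≤ |R| * (δ / C) := by gcongr
    have h6 := hy2 (θ n) x' hx'
    have h7 : δ / C + |R| * (δ / C) ≤ δ := by
      have : δ / C + |R| * (δ / C) = (|R| + 1) * δ / C := by ring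
      rw [this, div_le_iff₀ hCpos, hC]
      nlinarith
    linarith
  · have hcont : Continuous fun w : E3 => ⟪act Q w, w⟫ := (act_continuous Q).inner continuous_id
    have := hcont.tendsto y₀ |>.comp hlim
    exact ge_of_tendsto' this fun n => hy3 (θ n)

/-- The limit of good triples is a good triple. -/
theorem limit_good {ρ : ℝ} (A L M : ℕ → Set E3) (h : ∀ n, GoodT (A n) (L n) (M n) ρ)
    (hlim : Tendsto (fun n => (volume (L n)).toReal / (volume (A n)).toReal ^ 2) atTop (𝓝 ρ)) :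
    ∃ A₀ L₀ M₀, GoodT A₀ L₀ M₀ ρ ∧ (volume L₀).toReal = ρ * (volume A₀).toReal ^ 2 := by
  have hAne : ∀ n, (A n).Nonempty := fun n => ⟨0, (h n).ball (by simp)⟩
  have hLb : ∀ n, closedBall (0 : E3) (disk 1) ⊆ L n :=
    fun n => proj_ball_lower (h n).Ac (h n).proj1 (h n).ball
  have hLo : ∀ n, L n ⊆ closedBall (0 : E3) (disk 2) :=
    fun n => proj_ball_upper (h n).Ac (h n).proj1 (h n).outer
  have hMb : ∀ n, closedBall (0 : E3) (disk (disk 1)) ⊆ M n :=
    fun n => proj_ball_lower (h n).proj1.compact (h n).proj2 (hLb n)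
  have hMo : ∀ n, M n ⊆ closedBall (0 : E3) (disk (disk 2)) :=
    fun n => proj_ball_upper (h n).proj1.compact (h n).proj2 (hLo n)
  have hr1 : 0 < disk 1 := disk_pos one_pos
  have hr2 : 0 < disk (disk 1) := disk_pos hr1
  obtain ⟨A₀, φ₁, hφ₁, hA₀c, hA₀ne, hA₀R, hA₁⟩ := exists_HConv_subseq A (fun n => (h n).Ac) hAne
    (fun n => (h n).outer)
  obtain ⟨L₀, φ₂, hφ₂, hL₀c, hL₀ne, hL₀R, hL₂⟩ := exists_HConv_subseq (fun n => L (φ₁ n))
    (fun n => (h _).proj1.compact) (fun n => (h _).proj1.nonempty) (fun n => hLo _)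
  obtain ⟨M₀, φ₃, hφ₃, hM₀c, hM₀ne, hM₀R, hM₃⟩ := exists_HConv_subseq (fun n => M (φ₁ (φ₂ n)))
    (fun n => (h _).proj2.compact) (fun n => (h _).proj2.nonempty) (fun n => hMo _)
  set ψ : ℕ → ℕ := fun n => φ₁ (φ₂ (φ₃ n)) with hψ
  have hψt : Tendsto ψ atTop atTop :=
    hφ₁.tendsto_atTop.comp (hφ₂.tendsto_atTop.comp hφ₃.tendsto_atTop)
  have hAc : HConv (fun n => A (ψ n)) A₀ := hA₁.comp (hφ₂.tendsto_atTop.comp hφ₃.tendsto_atTop)
  have hLc : HConv (fun n => L (ψ n)) L₀ := hL₂.comp hφ₃.tendsto_atTop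
  have hMc : HConv (fun n => M (ψ n)) M₀ := hM₃
  have hA₀v : Convex ℝ A₀ := hAc.convex hA₀c.isClosed fun n => (h _).Av
  have hL₀v : Convex ℝ L₀ := hLc.convex hL₀c.isClosed fun n => (h _).proj1.convex
  have hM₀v : Convex ℝ M₀ := hMc.convex hM₀c.isClosed fun n => (h _).proj2.convex
  have hA₀s := hAc.symm hA₀c.isClosed fun n => (h _).As
  have hL₀s := hLc.symm hL₀c.isClosed fun n => (h _).Ls
  have hM₀s := hMc.symm hM₀c.isClosed fun n => (h _).Ms
  have hA₀b : closedBall (0 : E3) 1 ⊆ A₀ := hAc.ball hA₀c.isClosed fun n => (h _).ball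
  have hL₀b : closedBall (0 : E3) (disk 1) ⊆ L₀ := hLc.ball hL₀c.isClosed fun n => hLb _
  have hM₀b : closedBall (0 : E3) (disk (disk 1)) ⊆ M₀ := hMc.ball hM₀c.isClosed fun n => hMb _
  have H_A : ∀ η > 0, ∀ᶠ n in atTop, Sand (A (ψ n)) A₀ η := fun η hη =>
    hAc.sand (fun n => (h _).Av) hA₀v one_pos (fun n => (h _).ball) hA₀b hη
  have H_L : ∀ η > 0, ∀ᶠ n in atTop, Sand (L (ψ n)) L₀ η := fun η hη =>
    hLc.sand (fun n => (h _).proj1.convex) hL₀v hr1 (fun n => hLb _) hL₀b hη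
  have H_M : ∀ η > 0, ∀ᶠ n in atTop, Sand (M (ψ n)) M₀ η := fun η hη =>
    hMc.sand (fun n => (h _).proj2.convex) hM₀v hr2 (fun n => hMb _) hM₀b hη
  have tA := tendsto_volume (fun n => (h (ψ n)).Ac) hA₀c H_A
  have tL := tendsto_volume (fun n => (h (ψ n)).proj1.compact) hL₀c H_L
  have tM := tendsto_volume (fun n => (h (ψ n)).proj2.compact) hM₀c H_M
  have hA₀pos : 0 < (volume A₀).toReal := vol_pos_of_ball hA₀c one_pos hA₀b
  have hAnpos : ∀ n, 0 < (volume (A n)).toReal := fun n =>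
    vol_pos_of_ball (h n).Ac one_pos (h n).ball
  have proj1 : IsProjBody A₀ L₀ := by
    refine ⟨hL₀c, hL₀v, hL₀ne, fun u hu => ?_⟩
    have t1 := tendsto_supp (fun n => (h (ψ n)).proj1.compact) hL₀c (fun n => (h _).proj1.nonempty)
      hL₀ne (hL₀b (by simp [(disk_pos one_pos).le])) H_L u
    have t2 := tendsto_projArea (fun n => (h (ψ n)).Ac) hA₀c H_A hu
    have e : (fun n => supp (L (ψ n)) u) = fun n => projArea (A (ψ n)) u :=
      funext fun n => (h _).proj1.support u hu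
    rw [e] at t1
    exact tendsto_nhds_unique t1 t2
  have proj2 : IsProjBody L₀ M₀ := by
    refine ⟨hM₀c, hM₀v, hM₀ne, fun u hu => ?_⟩
    have t1 := tendsto_supp (fun n => (h (ψ n)).proj2.compact) hM₀c (fun n => (h _).proj2.nonempty)
      hM₀ne (hM₀b (by simp [hr2.le])) H_M u
    have t2 := tendsto_projArea (fun n => (h (ψ n)).proj1.compact) hL₀c H_L hu
    have e : (fun n => supp (M (ψ n)) u) = fun n => projArea (L (ψ n)) u :=
      funext fun n => (h _).proj2.support u hu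
    rw [e] at t1
    exact tendsto_nhds_unique t1 t2
  refine ⟨A₀, L₀, M₀, ⟨hA₀c, hA₀v, hA₀s, hA₀b, hA₀R, proj1, hL₀s, proj2, hM₀s, ?_, ?_, ?_, ?_⟩, ?_⟩
  · exact dual_limit hAc (fun n => (h _).outer) (fun n => (h _).dual)
  · intro ε hε g₀ hg₀ hv
    set g : ℕ → ℝ := fun n => (volume (A (ψ n))).toReal ^ ((1 : ℝ) / 3) with hg
    have hgpos : ∀ n, 0 < g n := fun n => Real.rpow_pos_of_pos (hAnpos _) _
    have hg3 : ∀ n, g n ^ 3 = (volume (A (ψ n))).toReal := by
      intro n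
      simp only [hg]
      rw [← Real.rpow_natCast, ← Real.rpow_mul (hAnpos _).le]
      norm_num
    have hgt : Tendsto g atTop (𝓝 g₀) := by
      have h1 : Tendsto g atTop (𝓝 ((volume A₀).toReal ^ ((1 : ℝ) / 3))) :=
        tA.rpow_const (Or.inr (by norm_num))
      have h2 : (volume A₀).toReal ^ ((1 : ℝ) / 3) = g₀ := by
        rw [← hv, ← Real.rpow_natCast, ← Real.rpow_mul hg₀.le]
        norm_num
      rwa [h2] at h1
    have tS : Tendsto (fun n => (volume (msum (A (ψ n)) ε (M (ψ n)))).toReal) atTop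
        (𝓝 (volume (msum A₀ ε M₀)).toReal) := by
      apply tendsto_volume (fun n => msum_compact (h _).Ac (h _).proj2.compact ε)
        (msum_compact hA₀c hM₀c ε)
      intro η hη
      filter_upwards [H_A η hη, H_M η hη] with n h1 h2
      exact ⟨msum_subset_smul h1.1 h2.1, msum_subset_smul h1.2 h2.2⟩
    have tR : Tendsto (fun n => (g n + ε * ((volume (L (ψ n))).toReal / g n ^ 2)) ^ 3) atTop
        (𝓝 ((g₀ + ε * ((volume L₀).toReal / g₀ ^ 2)) ^ 3)) := by
      apply Tendsto.pow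
      apply hgt.add
      apply Tendsto.const_mul
      exact tL.div (hgt.pow 2) (by positivity)
    exact le_of_tendsto_of_tendsto' tS tR fun n => (h _).tangent ε hε (g n) (hgpos n) (hg3 n)
  · exact le_of_tendsto_of_tendsto' (tM.mul (tA.pow 2)) (tL.pow 3) fun n => (h _).mink
  · exact le_of_tendsto_of_tendsto' ((tL.pow 2).const_mul ρ) tM fun n => (h _).lowerR
  · have t1 := hlim.comp hψt
    have t2 : Tendsto (fun n => (volume (L (ψ n))).toReal / (volume (A (ψ n))).toReal ^ 2) atTop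
        (𝓝 ((volume L₀).toReal / (volume A₀).toReal ^ 2)) :=
      tL.div (tA.pow 2) (by positivity)
    have := tendsto_nhds_unique t2 t1
    rw [← this]
    field_simp

end

end Vale.Agent.Lib.P237.Petty
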