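import Vale.Agent.Lib.P237.PettySlice3
import Mathlib.Analysis.SumIntegralComparisons

open MeasureTheory Set Module
open scoped RealInnerProductSpace Pointwise ENNReal

namespace Vale.Agent.Lib.P237.Petty

open Vale.Agent.Lib.P237 Vale.Agent.Lib.P227

noncomputable section

variable (b : OrthonormalBasis (Fin 3) ℝ E3) {K L : Set E3}

lemma unit_coord {n : E2} (hn : ‖n‖ = 1) : n 0 ^ 2 + n 1 ^ 2 = 1 := by
  have h := real_inner_self_eq_norm_sq n
  rw [inner_two, hn] at h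
  nlinarith

lemma nu_facts {n : E2} (hn : ‖n‖ = 1) :
    ‖nu b n‖ = 1 ∧ ‖uu b n‖ = 1 ∧ ⟪nu b n, b 2⟫ = 0 ∧ ⟪nu b n, uu b n⟫ = 0 ∧ ⟪b 2, uu b n⟫ = 0 := by
  have hc := unit_coord hn
  have h00 := b_inner_self b 0
  have h11 := b_inner_self b 1
  have h01 : ⟪b 0, b 1⟫ = 0 := b_inner_ne b (by decide)
  have h10 : ⟪b 1, b 0⟫ = 0 := b_inner_ne b (by decide)
  have h02 : ⟪b 0, b 2⟫ = 0 := b_inner_ne b (by decide)
  have h12 : ⟪b 1, b 2⟫ = 0 := b_inner_ne b (by decide)
  have h20 : ⟪b 2, b 0⟫ = 0 := b_inner_ne b (by decide)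
  have h21 : ⟪b 2, b 1⟫ = 0 := b_inner_ne b (by decide)
  have norm_one : ∀ v : E3, ⟪v, v⟫ = 1 → ‖v‖ = 1 := by
    intro v hv
    rw [real_inner_self_eq_norm_sq] at hv
    exact (pow_eq_one_iff_of_nonneg (norm_nonneg v) two_ne_zero).mp hv
  refine ⟨norm_one _ ?_, norm_one _ ?_, ?_, ?_, ?_⟩
  · unfold nu
    simp only [inner_add_left, inner_add_right, real_inner_smul_left, real_inner_smul_right,
      h00, h11, h01, h10]
    nlinarith
  · unfold uu
    simp only [inner_sub_left, inner_sub_right, real_inner_smul_left, real_inner_smul_right,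
      h00, h11, h01, h10]
    nlinarith
  · unfold nu
    simp only [inner_add_left, real_inner_smul_left, h02, h12]
    ring
  · unfold nu uu
    simp only [inner_add_left, inner_sub_right, real_inner_smul_left, real_inner_smul_right,
      h00, h11, h01, h10]
    ring
  · unfold uu
    simp only [inner_sub_right, real_inner_smul_right, h20, h21]
    ring

/-- The difference sets of the sections at the partition heights. -/
def DD (K : Set E3) (m k : ℕ) : Set E2 := Dset (sec b K (hgt m k))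

variable {b}

lemma sec_hgt_nonempty (hB : Metric.closedBall (0 : E3) 1 ⊆ K) {m k : ℕ} (hk : k < m) :
    (sec b K (hgt m k)).Nonempty := by
  apply sec_nonempty b hB
  rw [abs_le]
  have h0 := hgt_pos (m := m) (by omega) k
  have h1 := hgt_le_one hk
  constructor <;> linarith

lemma TT_subset (hK : IsCompact K) (hKc : Convex ℝ K) (hsym : ∀ x ∈ K, -x ∈ K)
    (hB : Metric.closedBall (0 : E3) 1 ⊆ K) (hL : IsProjBody K L) {m : ℕ} (hm : m ≠ 0) :
    TT (2 / (m : ℝ)) (DD b K m) m ⊆ cmap (b 1) (-b 0) '' L := by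
  intro x hx
  by_contra hxQ
  have hQc := cmap_image_compact hL.compact (b 1) (-b 0)
  have hQv := cmap_image_convex hL.convex (b 1) (-b 0)
  obtain ⟨f, u₀, hf1, hf2⟩ := geometric_hahn_banach_closed_point hQv hQc.isClosed hxQ
  set w : E2 := (InnerProductSpace.toDual ℝ E2).symm f with hw
  have hfw : ∀ z, f z = ⟪z, w⟫ := by
    intro z
    rw [real_inner_comm, hw, InnerProductSpace.toDual_symm_apply]
  obtain ⟨ℓ, hℓ⟩ := hL.nonempty
  have hw0 : w ≠ 0 := by
    intro h0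
    have h1 := hf1 _ ⟨ℓ, hℓ, rfl⟩
    rw [hfw, h0, inner_zero_right] at h1
    rw [hfw, h0, inner_zero_right] at hf2
    linarith
  have hwn : 0 < ‖w‖ := norm_pos_iff.mpr hw0
  set n : E2 := ‖w‖⁻¹ • w with hn
  have hn1 : ‖n‖ = 1 := by
    rw [hn, norm_smul, norm_inv, norm_norm, inv_mul_cancel₀ hwn.ne']
  have hsep : ∀ q ∈ cmap (b 1) (-b 0) '' L, ⟪q, n⟫ < ⟪x, n⟫ := by
    intro q hq
    have h1 := hf1 q hq
    rw [hfw] at h1 hf2
    rw [hn, real_inner_smul_right, real_inner_smul_right]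
    exact mul_lt_mul_of_pos_left (h1.trans hf2) (inv_pos.mpr hwn)
  obtain ⟨hν, hu, hν2, hνu, h2u⟩ := nu_facts b hn1
  have hproj : projArea K (uu b n) = (volume (cmap (nu b n) (b 2) '' K)).toReal :=
    projArea_eq hK hν (b.norm_eq_one 2) hu hν2 hνu h2u
  have hsupp := hL.support (uu b n) hu
  obtain ⟨ℓ₀, hℓ₀, hmax⟩ := hL.compact.exists_isMaxOn hL.nonempty
    (f := fun x : E3 => ⟪x, uu b n⟫) (by fun_prop)
  have hsup : supp L (uu b n) = ⟪ℓ₀, uu b n⟫ := by
    unfold supp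
    apply IsGreatest.csSup_eq
    refine ⟨⟨ℓ₀, hℓ₀, rfl⟩, ?_⟩
    rintro _ ⟨y, hy, rfl⟩
    exact hmax hy
  have hmax' : ∀ k < m, ∃ d ∈ DD b K m k, ∀ d' ∈ DD b K m k, ⟪d', n⟫ ≤ ⟪d, n⟫ := by
    intro k hk
    obtain ⟨d, hd, hdm⟩ := (Dset_compact (sec_compact b hK (hgt m k))).exists_isMaxOn
      (Dset_nonempty (sec_hgt_nonempty hB hk)) (f := fun d : E2 => ⟪d, n⟫) (by fun_prop)
    exact ⟨d, hd, fun d' hd' => hdm hd'⟩
  choose! d hd hdm using hmax'
  have hφ0 : ∀ k < m, 0 ≤ ⟪d k, n⟫ := by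
    intro k hk
    obtain ⟨a, ha⟩ := sec_hgt_nonempty (b := b) hB hk
    have h0 : (0 : E2) ∈ DD b K m k := ⟨(a, a), ⟨ha, ha⟩, by simp⟩
    have := hdm k hk 0 h0
    rwa [inner_zero_left] at this
  have hlow := area_lower b hK hKc hsym n hm (φ := fun k => ⟪d k, n⟫) hφ0
    (fun k hk => ⟨d k, hd k hk, rfl⟩)
  have hup := TT_bound (c := 2 / (m : ℝ)) (by positivity) n (φ := fun k => ⟪d k, n⟫) m
    (fun k hk d' hd' => hdm k hk d' hd') x hx
  have hq := hsep _ ⟨ℓ₀, hℓ₀, rfl⟩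
  rw [← inner_uu, real_inner_comm] at hq
  rw [hproj, hsup] at hsupp
  linarith

lemma slice_sum (hK : IsCompact K) (hKc : Convex ℝ K) (hsym : ∀ x ∈ K, -x ∈ K)
    (hB : Metric.closedBall (0 : E3) 1 ⊆ K) (hL : IsProjBody K L) {m : ℕ} (hm : m ≠ 0) :
    4 / (m : ℝ) * ∑ k ∈ Finset.range m, rr b K (hgt m k) ≤ rootArea (cmap (b 1) (-b 0) '' L) := by
  have hQc := cmap_image_compact hL.compact (b 1) (-b 0)
  have hD : ∀ k < m, IsCompact (DD b K m k) := fun k _ => Dset_compact (sec_compact b hK _)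
  have hD' : ∀ k < m, (DD b K m k).Nonempty := fun k hk => Dset_nonempty (sec_hgt_nonempty hB hk)
  have h1 := TT_bm (c := 2 / (m : ℝ)) (by positivity) m hD hD'
  have h2 := rootArea_mono' hQc (TT_subset (b := b) hK hKc hsym hB hL hm)
  have h3 : ∑ k ∈ Finset.range m, 2 * rr b K (hgt m k) ≤ ∑ k ∈ Finset.range m, rootArea (DD b K m k) :=
    Finset.sum_le_sum fun k hk =>
      rootArea_Dset (sec_compact b hK _) (sec_hgt_nonempty hB (Finset.mem_range.mp hk))
  rw [← Finset.mul_sum] at h3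
  have h4 := mul_le_mul_of_nonneg_left h3 (by positivity : (0 : ℝ) ≤ 2 / m)
  have e : 4 / (m : ℝ) * ∑ k ∈ Finset.range m, rr b K (hgt m k)
      = 2 / (m : ℝ) * (2 * ∑ k ∈ Finset.range m, rr b K (hgt m k)) := by ring
  rw [e]
  linarith

/-- Riemann sum bound for an antitone function. -/
lemma riemann_upper {f : ℝ → ℝ} (hf : AntitoneOn f (Icc 0 1)) (hf0 : ∀ t, 0 ≤ f t) {m : ℕ}
    (hm : m ≠ 0) : m * ∫ t in (0 : ℝ)..1, f t ≤ f 0 + ∑ k ∈ Finset.range m, f (hgt m k) := by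
  have hmr : (0 : ℝ) < m := by positivity
  have hg : AntitoneOn (fun x : ℝ => f (x / m)) (Icc 0 ((0 : ℝ) + (m : ℕ))) := by
    intro x hx y hy hxy
    have hx' : x / m ∈ Icc (0 : ℝ) 1 := by
      refine ⟨div_nonneg hx.1 hmr.le, ?_⟩
      rw [div_le_one hmr]
      simpa using hx.2
    have hy' : y / m ∈ Icc (0 : ℝ) 1 := by
      refine ⟨div_nonneg hy.1 hmr.le, ?_⟩
      rw [div_le_one hmr]
      simpa using hy.2
    exact hf hx' hy' (div_le_div_of_nonneg_right hxy hmr.le)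
  have h := hg.integral_le_sum
  rw [intervalIntegral.integral_comp_div _ hmr.ne'] at h
  have e1 : (0 : ℝ) / m = 0 := by simp
  have e2 : ((0 : ℝ) + (m : ℕ)) / m = 1 := by
    rw [zero_add]; exact div_self hmr.ne'
  rw [e1, e2, smul_eq_mul] at h
  refine h.trans ?_
  obtain ⟨m', rfl⟩ := Nat.exists_eq_succ_of_ne_zero hm
  rw [Finset.sum_range_succ', Finset.sum_range_succ (fun k => f (hgt _ k))]
  simp only [zero_add, Nat.cast_zero, zero_div]
  have h3 : ∀ k ∈ Finset.range m', f (((k + 1 : ℕ) : ℝ) / ((m' + 1 : ℕ) : ℝ)) = f (hgt (m' + 1) k) := by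
    intro k _
    unfold hgt
    push_cast
    rfl
  rw [Finset.sum_congr rfl h3]
  have := hf0 (hgt (m' + 1) m')
  linarith

/-- **The slice inequality**: the projection of the projection body. -/
theorem slice (hK : IsCompact K) (hKc : Convex ℝ K) (hsym : ∀ x ∈ K, -x ∈ K)
    (hB : Metric.closedBall (0 : E3) 1 ⊆ K) (hL : IsProjBody K L) (b : OrthonormalBasis (Fin 3) ℝ E3) :
    16 * (∫ t in (0 : ℝ)..1, rr b K t) ^ 2 ≤ projArea L (b 2) := by
  have hf0 : ∀ t, 0 ≤ rr b K t := fun t => rootArea_nonneg _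
  have hanti := rr_anti b hK hKc hsym
  set I := ∫ t in (0 : ℝ)..1, rr b K t with hI
  have hI0 : 0 ≤ I := intervalIntegral.integral_nonneg zero_le_one fun t _ => hf0 t
  set R := rootArea (cmap (b 1) (-b 0) '' L) with hR
  have hproj : projArea L (b 2) = R ^ 2 := by
    rw [hR, rootArea_sq]
    apply projArea_eq hL.compact (b.norm_eq_one 1) (by rw [norm_neg]; exact b.norm_eq_one 0)
      (b.norm_eq_one 2)
    · rw [inner_neg_right, b_inner_ne b (by decide), neg_zero]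
    · exact b_inner_ne b (by decide)
    · rw [inner_neg_left, b_inner_ne b (by decide), neg_zero]
  have key : ∀ m : ℕ, m ≠ 0 → 4 * I ≤ R + 4 * rr b K 0 / m := by
    intro m hm
    have hmr : (0 : ℝ) < m := by positivity
    have h1 := slice_sum (b := b) hK hKc hsym hB hL hm
    have h2 := riemann_upper hanti hf0 hm
    rw [← hI] at h2
    have h3 : 4 * I = 4 / (m : ℝ) * (m * I) := by
      field_simp
    have h4 : 4 / (m : ℝ) * (m * I) ≤ 4 / (m : ℝ) * (rr b K 0 + ∑ k ∈ Finset.range m, rr b K (hgt m k)) :=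
      mul_le_mul_of_nonneg_left h2 (by positivity)
    have h5 : 4 / (m : ℝ) * (rr b K 0 + ∑ k ∈ Finset.range m, rr b K (hgt m k))
        = 4 * rr b K 0 / m + 4 / (m : ℝ) * ∑ k ∈ Finset.range m, rr b K (hgt m k) := by ring
    linarith
  have hle : 4 * I ≤ R := by
    by_contra hlt
    have hgap : 0 < 4 * I - R := by linarith [not_le.mp hlt]
    obtain ⟨N, hN⟩ := exists_nat_gt (4 * rr b K 0 / (4 * I - R))
    have hN0 : (0 : ℝ) ≤ N := Nat.cast_nonneg N
    have h1 := key (N + 1) (by omega)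
    have hNr : (0 : ℝ) < ((N + 1 : ℕ) : ℝ) := by positivity
    have h2 : 4 * rr b K 0 / ((N + 1 : ℕ) : ℝ) < 4 * I - R := by
      rw [div_lt_iff₀ hNr]
      rw [div_lt_iff₀ hgap] at hN
      push_cast
      nlinarith
    linarith
  rw [hproj]
  have : (4 * I) ^ 2 ≤ R ^ 2 := pow_le_pow_left₀ (by positivity) hle 2
  nlinarith

end

end Vale.Agent.Lib.P237.Petty
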