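import Vale.Agent.Lib.P237.PettyJC
import Vale.Agent.Lib.P237.PettySlice4

open MeasureTheory Set Module
open scoped RealInnerProductSpace Real Pointwise

namespace Vale.Agent.Lib.P237.Petty

open Vale.Agent.Lib.P237

noncomputable section

/-- **Theorem A.** For a symmetric convex body in John position, some contact direction `y i`
satisfies `(3 π² / 4) |K| ≤ area (P_{y i ^⊥} Π K)`. -/
theorem theoremA {ι : Type*} [Fintype ι] {K L : Set E3} (hK : IsCompact K) (hKc : Convex ℝ K)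
    (hsym : ∀ x ∈ K, -x ∈ K) (hB : Metric.closedBall (0 : E3) 1 ⊆ K) (hL : IsProjBody K L)
    (y : ι → E3) (c : ι → ℝ) (hc : ∀ i, 0 < c i) (hy : ∀ i, ‖y i‖ = 1)
    (hJ : ∀ x : E3, ∑ i, c i * ⟪x, y i⟫ ^ 2 = ‖x‖ ^ 2)
    (hw : ∀ i, ∀ x ∈ K, ⟪x, y i⟫ ≤ 1) :
    ∃ i, 3 * π ^ 2 / 4 * (volume K).toReal ≤ projArea L (y i) := by
  choose b hb using fun i => exists_basis (hy i)
  obtain ⟨i, hi⟩ := pettyJC hK hKc hsym hB y c hc hy hJ hw b hb
  refine ⟨i, ?_⟩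
  have h1 := slice hK hKc hsym hB hL (b i)
  rw [hb i] at h1
  unfold PettyOneD.c0 at hi
  nlinarith

/-- **Fixed point form.** If `Π² K` lies in `c K` for a symmetric convex body `K` in John position,
then `c ≥ (3 π² / 4) |K|`. -/
theorem fixed_point {ι : Type*} [Fintype ι] {K L M : Set E3} {c₀ : ℝ} (hK : IsCompact K)
    (hKc : Convex ℝ K) (hsym : ∀ x ∈ K, -x ∈ K) (hB : Metric.closedBall (0 : E3) 1 ⊆ K)
    (hL : IsProjBody K L) (hM : IsProjBody L M) (hc₀ : 0 ≤ c₀) (hfix : M ⊆ c₀ • K)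
    (y : ι → E3) (c : ι → ℝ) (hc : ∀ i, 0 < c i) (hy : ∀ i, ‖y i‖ = 1)
    (hJ : ∀ x : E3, ∑ i, c i * ⟪x, y i⟫ ^ 2 = ‖x‖ ^ 2)
    (hw : ∀ i, ∀ x ∈ K, ⟪x, y i⟫ ≤ 1) :
    3 * π ^ 2 / 4 * (volume K).toReal ≤ c₀ := by
  obtain ⟨i, hi⟩ := theoremA hK hKc hsym hB hL y c hc hy hJ hw
  refine hi.trans ?_
  rw [← hM.support _ (hy i)]
  unfold supp
  apply csSup_le (hM.nonempty.image _)
  rintro _ ⟨m, hm, rfl⟩
  obtain ⟨k, hk, rfl⟩ := hfix hm
  simp only [inner_smul_left, RCLike.conj_to_real]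
  have := hw i k hk
  nlinarith

end

end Vale.Agent.Lib.P237.Petty
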