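import Vale.Agent.Lib.P237.PettyMain1
import Vale.Agent.Lib.P237.PettyThmA
import Vale.Agent.Lib.P237.PettyEq

open MeasureTheory Set Module Filter Topology Metric
open scoped RealInnerProductSpace Pointwise ENNReal Real

namespace Vale.Agent.Lib.P237.Petty

open Vale.Agent.Lib.P237 Vale.Agent.Lib.P227

noncomputable section

lemma msum_eq_add (A M : Set E3) (e : ℝ) : msum A e M = A + e • M := by
  ext x
  constructor
  · rintro ⟨y, hy, m, hm, rfl⟩
    exact ⟨y, hy, e • m, ⟨m, hm, rfl⟩, rfl⟩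
  · rintro ⟨y, hy, _, ⟨m, hm, rfl⟩, rfl⟩
    exact ⟨y, hy, m, hm, rfl⟩

/-- A zonotope of positive volume gives a good triple with the same ratio. -/
theorem good_of_family {ι : Type} [Fintype ι] (a : ι → E3) (hpos : 0 < (volume (zonotope a)).toReal)
    {ρ : ℝ} (hρ : ∀ (κ : Type) [Fintype κ] (b : κ → E3), 0 < (volume (zonotope b)).toReal →
      ρ * (volume (zonotope b)).toReal ^ 2 ≤ (volume (zonotope (projGen b))).toReal) :
    ∃ A L M, GoodT A L M ρ ∧ (volume L).toReal / (volume A).toReal ^ 2 =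
      (volume (zonotope (projGen a))).toReal / (volume (zonotope a)).toReal ^ 2 := by
  classical
  obtain ⟨r, hr, hb⟩ := exists_ball_of_volume_pos (zon_compact a) (zon_convex a)
    (fun _ hx => zon_neg a hx) hpos
  obtain ⟨T, hdet, hball, hmax⟩ := john_normalize (zon_compact a) hr hb
  rw [zon_image] at hball hmax
  set a' : ι → E3 := fun i => act T⁻¹ (a i) with ha'
  have hdual := john_dual (zon_compact a') (zon_convex a') hball hmax
  have hA'pos : 0 < (volume (zonotope a')).toReal := vol_pos_of_ball (zon_compact a') one_pos hball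
  have hproj1 := isProjBody_zonotope a'
  have hLball := proj_ball_lower (zon_compact a') hproj1 hball
  have hLpos : 0 < (volume (zonotope (projGen a'))).toReal :=
    vol_pos_of_ball (zon_compact _) (disk_pos one_pos) hLball
  have hVA : 4 / 3 * D3 a' = (volume (zonotope a')).toReal := (toReal_volume_zonotope a').symm
  have hVL : 4 / 3 * D3 (projGen a') = (volume (zonotope (projGen a'))).toReal :=
    (toReal_volume_zonotope _).symm
  have hVM : 4 / 3 * D3 (projGen (projGen a')) = (volume (zonotope (projGen (projGen a')))).toReal :=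
    (toReal_volume_zonotope _).symm
  refine ⟨zonotope a', zonotope (projGen a'), zonotope (projGen (projGen a')), ⟨zon_compact _,
    zon_convex _, fun _ hx => zon_neg _ hx, hball, outer_of_dual (fun _ hx => zon_neg _ hx) hdual,
    hproj1, fun _ hx => zon_neg _ hx, isProjBody_zonotope _, fun _ hx => zon_neg _ hx, hdual,
    ?_, ?_, hρ _ _ hLpos⟩, ?_⟩
  · intro ε hε g₀ hg₀ hv
    have := zon_tangent a' (projGen (projGen a')) hg₀ (hVA.trans hv.symm) hε
    rw [EE_projGen, hVL] at this
    exact this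
  · set g₀ := (volume (zonotope a')).toReal ^ ((1 : ℝ) / 3) with hg₀d
    have hg₀ : 0 < g₀ := Real.rpow_pos_of_pos hA'pos _
    have hg3 : g₀ ^ 3 = (volume (zonotope a')).toReal := by
      rw [hg₀d, ← Real.rpow_natCast, ← Real.rpow_mul hA'pos.le]
      norm_num
    have := zon_minkowski a' (projGen (projGen a')) hg₀ (hVA.trans hg3.symm)
    rw [EE_projGen, hVL, hVM] at this
    rw [← hg3]
    have h2 : 0 < g₀ ^ 2 := by positivity
    have h3 : (volume (zonotope (projGen a'))).toReal ^ 3 = ((volume (zonotope (projGen a'))).toReal / g₀ ^ 2) ^ 3 * (g₀ ^ 3) ^ 2 := by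
      field_simp
    rw [h3]
    exact mul_le_mul_of_nonneg_right this (by positivity)
  · have hdetinv : T⁻¹.det ≠ 0 := by
      rw [Matrix.det_nonsing_inv]
      have hu : IsUnit T.det := isUnit_iff_ne_zero.mpr hdet
      simp [hdet]
    rw [toReal_volume_zonotope (projGen a'), toReal_volume_zonotope a',
      toReal_volume_zonotope (projGen a), toReal_volume_zonotope a, ha', D3_act, D3_projGen_act]
    have hD : 0 < |T⁻¹.det| := abs_pos.mpr hdetinv
    have hs : |T⁻¹.det| ^ 2 = T⁻¹.det ^ 2 := sq_abs _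
    rw [← hs, mul_pow]
    have hD3 : 0 < D3 a := by
      rw [toReal_volume_zonotope] at hpos
      linarith
    field_simp

/-- The fixed point step. -/
theorem fixed_step {A L M : Set E3} {ρ : ℝ} (h : GoodT A L M ρ)
    (hr : (volume L).toReal = ρ * (volume A).toReal ^ 2) : 3 * π ^ 2 / 4 ≤ ρ := by
  set V := (volume A).toReal with hV
  have hVpos : 0 < V := vol_pos_of_ball h.Ac one_pos h.ball
  have hLb := proj_ball_lower h.Ac h.proj1 h.ball
  have hMb := proj_ball_lower h.proj1.compact h.proj2 hLb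
  have hr1 : 0 < disk 1 := disk_pos one_pos
  have hr2 : 0 < disk (disk 1) := disk_pos hr1
  have hLpos : 0 < (volume L).toReal := vol_pos_of_ball h.proj1.compact hr1 hLb
  have hρ : 0 < ρ := by
    rw [hr] at hLpos
    exact (pos_iff_pos_of_mul_pos hLpos).mpr (by positivity)
  set g₀ := V ^ ((1 : ℝ) / 3) with hg₀d
  have hg₀ : 0 < g₀ := Real.rpow_pos_of_pos hVpos _
  have hg3 : g₀ ^ 3 = V := by
    rw [hg₀d, ← Real.rpow_natCast, ← Real.rpow_mul hVpos.le]
    norm_num
  set c := ρ * V with hc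
  have hcpos : 0 < c := by positivity
  have hM1 := h.mink
  have hM2 := h.lowerR
  rw [hr] at hM1 hM2
  have hVM : (volume M).toReal = c ^ 3 * V := by
    have h1 : (volume M).toReal ≤ c ^ 3 * V := by
      have h2 : (volume M).toReal * V ^ 2 ≤ c ^ 3 * V * V ^ 2 := by
        calc _ ≤ (ρ * V ^ 2) ^ 3 := hM1
          _ = _ := by rw [hc]; ring
      exact le_of_mul_le_mul_right h2 (by positivity)
    have h3 : c ^ 3 * V ≤ (volume M).toReal := by
      calc _ = ρ * (ρ * V ^ 2) ^ 2 := by rw [hc]; ring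
        _ ≤ _ := hM2
    exact le_antisymm h1 h3
  have he : 0 < c⁻¹ := inv_pos.mpr hcpos
  have htan := h.tangent c⁻¹ he.le g₀ hg₀ hg3
  have hval : g₀ + c⁻¹ * ((volume L).toReal / g₀ ^ 2) = 2 * g₀ := by
    rw [hr, hc, ← hg3]
    field_simp
    ring
  rw [hval] at htan
  have hA : SymBody A 1 := ⟨one_pos, h.Ac, h.Av, h.As, h.ball⟩
  have hMs : SymBody M (disk (disk 1)) := ⟨hr2, h.proj2.compact, h.proj2.convex, h.Ms, hMb⟩
  have hMV : volume M = ENNReal.ofReal (c ^ 3) * volume A := by
    rw [← ENNReal.ofReal_toReal h.proj2.compact.measure_lt_top.ne, hVM,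
      ENNReal.ofReal_mul (by positivity), ENNReal.ofReal_toReal h.Ac.measure_lt_top.ne]
  have hadd : volume (A + c⁻¹ • M) ≤ ENNReal.ofReal ((1 + c⁻¹ * c) ^ 3) * volume A := by
    rw [← msum_eq_add]
    have hcomp := msum_compact h.Ac h.proj2.compact c⁻¹
    rw [← ENNReal.ofReal_toReal hcomp.measure_lt_top.ne,
      ← ENNReal.ofReal_toReal h.Ac.measure_lt_top.ne (a := volume A),
      ← ENNReal.ofReal_mul (by positivity)]
    apply ENNReal.ofReal_le_ofReal
    rw [inv_mul_cancel₀ hcpos.ne']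
    calc _ ≤ (2 * g₀) ^ 3 := htan
      _ = (1 + 1) ^ 3 * g₀ ^ 3 := by ring
      _ = _ := by rw [hg3]
  have heq := eq_smul_of_volume_add_le hA hMs hcpos he hMV hadd
  -- John data
  set C : Set E3 := {y | ‖y‖ = 1 ∧ ∀ x ∈ A, ⟪x, y⟫ ≤ 1} with hC
  have hCc : IsCompact C := by
    apply (isCompact_sphere (0 : E3) 1).of_isClosed_subset
    · have : C = {y : E3 | ‖y‖ = 1} ∩ ⋂ x ∈ A, {y : E3 | ⟪x, y⟫ ≤ 1} := by
        ext y
        simp [hC]
      rw [this]
      apply IsClosed.inter (isClosed_eq continuous_norm continuous_const)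
      apply isClosed_biInter
      intro x _
      exact isClosed_le (by fun_prop) continuous_const
    · intro y hy
      simpa using hy.1
  obtain ⟨ι, hι, y, w, hy, hw, hdec⟩ := john_primal hCc (fun Q => by
    obtain ⟨y, h1, h2, h3⟩ := h.dual Q
    exact ⟨y, ⟨h1, h2⟩, h3⟩)
  have hfix := fixed_point h.Ac h.Av h.As h.ball h.proj1 h.proj2 hcpos.le heq.subset y w hw
    (fun i => (hy i).1) hdec (fun i => (hy i).2)
  rw [hc] at hfix
  rw [mul_comm ρ V, mul_comm (3 * π ^ 2 / 4) _] at hfix
  exact le_of_mul_le_mul_left hfix hVpos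

/-- **Petty's projection inequality for zonotopes in `ℝ³`, with the sharp constant.** -/
theorem zonotope_sharp {ι : Type} [Fintype ι] (a : ι → E3) :
    3 * π ^ 2 / 4 * (volume (zonotope a)).toReal ^ 2 ≤ (volume (zonotope (projGen a))).toReal := by
  by_cases hpos : 0 < (volume (zonotope a)).toReal
  swap
  · have h0 : (volume (zonotope a)).toReal = 0 := le_antisymm (not_lt.mp hpos) ENNReal.toReal_nonneg
    rw [h0]
    simp
  set S : Set ℝ := {r | ∃ (κ : Type) (_ : Fintype κ) (b : κ → E3), 0 < (volume (zonotope b)).toReal ∧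
    r = (volume (zonotope (projGen b))).toReal / (volume (zonotope b)).toReal ^ 2} with hS
  have hSne : S.Nonempty := ⟨_, ι, inferInstance, a, hpos, rfl⟩
  have hSbdd : BddBelow S := by
    refine ⟨0, ?_⟩
    rintro _ ⟨κ, _, b, hb, rfl⟩
    positivity
  set ρ := sInf S with hρd
  have hρ : ∀ (κ : Type) [Fintype κ] (b : κ → E3), 0 < (volume (zonotope b)).toReal →
      ρ * (volume (zonotope b)).toReal ^ 2 ≤ (volume (zonotope (projGen b))).toReal := by
    intro κ _ b hb
    have h1 : ρ ≤ (volume (zonotope (projGen b))).toReal / (volume (zonotope b)).toReal ^ 2 :=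
      csInf_le hSbdd ⟨κ, inferInstance, b, hb, rfl⟩
    have h2 : 0 < (volume (zonotope b)).toReal ^ 2 := by positivity
    rwa [le_div_iff₀ h2] at h1
  have hseq : ∀ n : ℕ, ∃ A L M, GoodT A L M ρ ∧ ρ ≤ (volume L).toReal / (volume A).toReal ^ 2 ∧
      (volume L).toReal / (volume A).toReal ^ 2 < ρ + 1 / ((n : ℝ) + 1) := by
    intro n
    have h1 : ρ < ρ + 1 / ((n : ℝ) + 1) := by
      have : 0 < 1 / ((n : ℝ) + 1) := by positivity
      linarith
    obtain ⟨r, ⟨κ, hκ, b, hb, rfl⟩, hr⟩ := exists_lt_of_csInf_lt hSne h1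
    obtain ⟨A, L, M, hG, hq⟩ := good_of_family b hb hρ
    refine ⟨A, L, M, hG, ?_, ?_⟩
    · rw [hq]
      exact csInf_le hSbdd ⟨κ, hκ, b, hb, rfl⟩
    · rw [hq]
      exact hr
  choose A L M hG hlow hup using hseq
  have hlim : Tendsto (fun n => (volume (L n)).toReal / (volume (A n)).toReal ^ 2) atTop (𝓝 ρ) := by
    have h0 : Tendsto (fun n : ℕ => ρ + 1 / ((n : ℝ) + 1)) atTop (𝓝 (ρ + 0)) :=
      tendsto_const_nhds.add tendsto_one_div_add_atTop_nhds_zero_nat
    rw [add_zero] at h0
    exact tendsto_of_tendsto_of_tendsto_of_le_of_le tendsto_const_nhds h0 hlow fun n => (hup n).le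
  obtain ⟨A₀, L₀, M₀, hG₀, hr₀⟩ := limit_good A L M hG hlim
  have hfinal := fixed_step hG₀ hr₀
  have h2 := hρ ι a hpos
  have h3 : 3 * π ^ 2 / 4 * (volume (zonotope a)).toReal ^ 2 ≤ ρ * (volume (zonotope a)).toReal ^ 2 :=
    mul_le_mul_of_nonneg_right hfinal (by positivity)
  linarith

end

end Vale.Agent.Lib.P237.Petty
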