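import Vale.Agent.Lib.P237.PettyTable

open MeasureTheory Set

namespace Vale.Agent.Lib.P237.PettyOneD

open Vale.Agent.Lib.P237.PettyTable

noncomputable section

/-- Sum of positive parts of `y - b / 10^6` over a list of naturals. -/
def sumPos (l : List ℕ) (y : ℝ) : ℝ :=
  (l.map (fun b : ℕ => max (y - (b : ℝ) / 1000000) 0)).sum

lemma sumPos_nil (y : ℝ) : sumPos [] y = 0 := by simp [sumPos]

lemma sumPos_append (l m : List ℕ) (y : ℝ) : sumPos (l ++ m) y = sumPos l y + sumPos m y := by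
  simp [sumPos]

lemma sumPos_singleton (b : ℕ) (y : ℝ) : sumPos [b] y = max (y - (b : ℝ) / 1000000) 0 := by
  simp [sumPos]

lemma sumPos_ge (l : List ℕ) (Y : ℕ) (y : ℝ) :
    (((l.map (fun x => Y - x)).sum : ℕ) : ℝ) / 1000000
      + (((l.filter (fun x => decide (x < Y))).length : ℕ) : ℝ) * (y - (Y : ℝ) / 1000000)
      ≤ sumPos l y := by
  induction l with
  | nil => simp [sumPos]
  | cons b l ih =>
    have hs : sumPos (b :: l) y = max (y - (b : ℝ) / 1000000) 0 + sumPos l y := by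
      simp [sumPos]
    rw [hs]
    by_cases hb : b < Y
    · have h1 : (((b :: l).map (fun x => Y - x)).sum : ℕ) = (Y - b) + (l.map (fun x => Y - x)).sum := by
        simp
      have h2 : (((b :: l).filter (fun x => decide (x < Y))).length : ℕ)
          = (l.filter (fun x => decide (x < Y))).length + 1 := by
        simp [hb]
      rw [h1, h2, Nat.cast_add, Nat.cast_add, Nat.cast_sub hb.le, Nat.cast_one]
      have := le_max_left (y - (b : ℝ) / 1000000) 0
      linarith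
    · have h0 : Y - b = 0 := by omega
      have h1 : (((b :: l).map (fun x => Y - x)).sum : ℕ) = (l.map (fun x => Y - x)).sum := by
        simp [h0]
      have h2 : (((b :: l).filter (fun x => decide (x < Y))).length : ℕ)
          = (l.filter (fun x => decide (x < Y))).length := by
        simp [hb]
      rw [h1, h2]
      have := le_max_right (y - (b : ℝ) / 1000000) 0
      linarith

lemma mem_range_of_lt {n m : ℕ} (h : n < m) : n ∈ List.range m := List.mem_range.mpr h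

/-- Real-number core of the table check. -/
lemma phi_core {YY BB DN LS SG EL Usub sumP y : ℝ} (hYY0 : 0 ≤ YY) (hBB0 : 0 ≤ BB) (hy0 : 0 ≤ y)
    (hsum : LS / 1000000 + SG * (y - YY / 1000000) ≤ sumP)
    (t1 : 5000000 * DN ≤ SG * 40000000000 + 3 * YY ^ 2 + 2 * BB * YY)
    (t2 : (YY + BB) * (5000000 * DN)
      + (SG * 40000000000 + 3 * YY ^ 2 + 2 * BB * YY - 5000000 * DN) * Usub
      ≤ 3141592 * 5000000000000 + LS * 40000000000 + (YY + BB) * YY ^ 2)
    (hU : 0 ≤ Usub) (hU2 : YY - EL ≤ Usub) (hy : EL / 1000000 ≤ y) :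
    0 ≤ (3141592 : ℝ) / 1000000 + 4 * (1 / 500) * sumP
      + (y + BB / 1000000) * (y ^ 2 / 5 - DN / 1000000) := by
  obtain ⟨Yr, hYr⟩ : ∃ Yr : ℝ, Yr = YY / 1000000 := ⟨_, rfl⟩
  obtain ⟨Br, hBr⟩ : ∃ Br : ℝ, Br = BB / 1000000 := ⟨_, rfl⟩
  obtain ⟨Dr, hDr⟩ : ∃ Dr : ℝ, Dr = DN / 1000000 := ⟨_, rfl⟩
  have hYr' : YY = Yr * 1000000 := by rw [hYr]; ring
  have hBr' : BB = Br * 1000000 := by rw [hBr]; ring
  have hDr' : DN = Dr * 1000000 := by rw [hDr]; ring
  subst hYr' hBr' hDr'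
  have hYr0 : 0 ≤ Yr := by linarith
  have hBr0 : 0 ≤ Br := by linarith
  have e1 : Yr * 1000000 / 1000000 = Yr := by ring
  have e2 : Br * 1000000 / 1000000 = Br := by ring
  have e3 : Dr * 1000000 / 1000000 = Dr := by ring
  rw [e1] at hsum
  rw [e2, e3]
  have htan : (Yr + Br) * (Yr ^ 2 / 5 - Dr)
      + (3 / 5 * Yr ^ 2 + 2 / 5 * Br * Yr - Dr) * (y - Yr)
      ≤ (y + Br) * (y ^ 2 / 5 - Dr) := by
    have h : 0 ≤ (y - Yr) ^ 2 * (y + 2 * Yr + Br) := by positivity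
    nlinarith [h]
  obtain ⟨g, hg⟩ : ∃ g : ℝ, g = 4 * (1 / 500) * SG + (3 / 5 * Yr ^ 2 + 2 / 5 * Br * Yr - Dr) :=
    ⟨_, rfl⟩
  have hg5 : SG * 40000000000 + 3 * (Yr * 1000000) ^ 2 + 2 * (Br * 1000000) * (Yr * 1000000)
      - 5000000 * (Dr * 1000000) = g * 5000000000000 := by
    rw [hg]; ring
  have hg0 : 0 ≤ g := by nlinarith
  rw [hg5] at t2
  have hval : (3141592 : ℝ) / 1000000 + 4 * (1 / 500) * (LS / 1000000)
      + (Yr + Br) * (Yr ^ 2 / 5 - Dr) - g * (Usub / 1000000) ≥ 0 := by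
    have h : ((3141592 : ℝ) / 1000000 + 4 * (1 / 500) * (LS / 1000000)
      + (Yr + Br) * (Yr ^ 2 / 5 - Dr) - g * (Usub / 1000000)) * 5000000000000000000
      = (3141592 * 5000000000000 + LS * 40000000000
          + (Yr * 1000000 + Br * 1000000) * (Yr * 1000000) ^ 2)
        - ((Yr * 1000000 + Br * 1000000) * (5000000 * (Dr * 1000000))
          + g * 5000000000000 * Usub) := by ring
    have h2 : 0 ≤ ((3141592 : ℝ) / 1000000 + 4 * (1 / 500) * (LS / 1000000)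
      + (Yr + Br) * (Yr ^ 2 / 5 - Dr) - g * (Usub / 1000000)) * 5000000000000000000 := by
      rw [h]; linarith
    exact nonneg_of_mul_nonneg_left h2 (by norm_num)
  have hmain : (3141592 : ℝ) / 1000000 + 4 * (1 / 500) * sumP
      + (y + Br) * (y ^ 2 / 5 - Dr)
      ≥ (3141592 : ℝ) / 1000000 + 4 * (1 / 500) * (LS / 1000000)
        + (Yr + Br) * (Yr ^ 2 / 5 - Dr) + g * (y - Yr) := by
    have : 4 * (1 / 500 : ℝ) * (LS / 1000000 + SG * (y - Yr)) ≤ 4 * (1 / 500) * sumP :=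
      mul_le_mul_of_nonneg_left hsum (by norm_num)
    rw [hg]
    nlinarith [htan, this]
  have hkey : - (Usub / 1000000) ≤ y - Yr := by
    have : Yr * 1000000 - EL ≤ Usub := hU2
    have h3 : Yr - EL / 1000000 ≤ Usub / 1000000 := by linarith
    linarith
  have hkey2 : g * (-(Usub / 1000000)) ≤ g * (y - Yr) := mul_le_mul_of_nonneg_left hkey hg0
  nlinarith [hkey2, hval, hmain]

/-- The numeric table gives nonnegativity of the auxiliary convex function for each `n`. -/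
theorem phi_nonneg {n : ℕ} (hn : n < 500) {y : ℝ} (hy : (ell n : ℝ) / 1000000 ≤ y) (hy0 : 0 ≤ y) :
    0 ≤ (3141592 : ℝ) / 1000000 + 4 * (1 / 500) * sumPos (bL.take n) y
      + (y + (Bv n : ℝ) / 1000000) * (y ^ 2 / 5 - (DD n : ℝ) / 1000000) := by
  obtain ⟨t1, t2⟩ := table_check n (mem_range_of_lt hn)
  have hsum := sumPos_ge (bL.take n) (Yv n) y
  have c1 : ((gneg n : ℕ) : ℝ) = 5000000 * (DD n : ℝ) := by
    unfold gneg; push_cast; ring
  have c2 : ((gpos n : ℕ) : ℝ) = (sig n : ℝ) * 40000000000 + 3 * (Yv n : ℝ) ^ 2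
      + 2 * (Bv n : ℝ) * (Yv n : ℝ) := by
    unfold gpos; push_cast; ring
  have c3 : ((lhsP n : ℕ) : ℝ) = 3141592 * 5000000000000 + (Ls n : ℝ) * 40000000000
      + ((Yv n : ℝ) + (Bv n : ℝ)) * (Yv n : ℝ) ^ 2 := by
    unfold lhsP; push_cast; ring
  have c4 : ((rhsP n : ℕ) : ℝ) = ((Yv n : ℝ) + (Bv n : ℝ)) * (5000000 * (DD n : ℝ)) := by
    unfold rhsP; push_cast; ring
  have t1' : ((gneg n : ℕ) : ℝ) ≤ ((gpos n : ℕ) : ℝ) := by exact_mod_cast t1
  have t2' : ((rhsP n + (gpos n - gneg n) * (Yv n - ell n) : ℕ) : ℝ) ≤ ((lhsP n : ℕ) : ℝ) := by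
    exact_mod_cast t2
  rw [Nat.cast_add, Nat.cast_mul, Nat.cast_sub t1] at t2'
  rw [c1, c2, c3, c4] at t2'
  rw [c1, c2] at t1'
  refine phi_core (YY := (Yv n : ℝ)) (EL := (ell n : ℝ)) (Usub := ((Yv n - ell n : ℕ) : ℝ))
    (LS := (Ls n : ℝ)) (SG := (sig n : ℝ)) (Nat.cast_nonneg _) (Nat.cast_nonneg _) hy0 hsum t1' t2'
    (Nat.cast_nonneg _) ?_ hy
  rcases le_total (ell n) (Yv n) with h | h
  · rw [Nat.cast_sub h]
  · have h1 : (Yv n : ℝ) ≤ (ell n : ℝ) := by exact_mod_cast h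
    have h2 : (0 : ℝ) ≤ ((Yv n - ell n : ℕ) : ℝ) := Nat.cast_nonneg _
    linarith

end

end Vale.Agent.Lib.P237.PettyOneD
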