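import Vale.Agent.Lib.P237.PettyOneD1

open MeasureTheory Set intervalIntegral Real Filter Topology

namespace Vale.Agent.Lib.P237.PettyOneD

open Vale.Agent.Lib.P237.PettyTable

noncomputable section

/-- The half circle profile `sqrt (1 - t^2)`. -/
def rho0 (t : ℝ) : ℝ := √(1 - t ^ 2)

lemma rho0_cont : Continuous rho0 := by
  unfold rho0
  fun_prop

lemma rho0_nonneg (t : ℝ) : 0 ≤ rho0 t := Real.sqrt_nonneg _

lemma rho0_sq {t : ℝ} (h : t ∈ Icc (0 : ℝ) 1) : rho0 t ^ 2 = 1 - t ^ 2 :=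
  Real.sq_sqrt (by nlinarith [h.1, h.2])

lemma rho0_anti {s t : ℝ} (hs : 0 ≤ s) (hst : s ≤ t) : rho0 t ≤ rho0 s :=
  Real.sqrt_le_sqrt (by nlinarith)

lemma integral_rho0 : ∫ t in (0 : ℝ)..1, rho0 t = π / 4 := by
  have h := integral_sqrt_one_sub_sq
  have hint : ∀ a b : ℝ, IntervalIntegrable rho0 volume a b := fun a b =>
    rho0_cont.intervalIntegrable a b
  have h1 : ∫ t in (-1 : ℝ)..1, rho0 t
      = (∫ t in (-1 : ℝ)..0, rho0 t) + ∫ t in (0 : ℝ)..1, rho0 t :=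
    (intervalIntegral.integral_add_adjacent_intervals (hint _ _) (hint _ _)).symm
  have h2 : ∫ t in (-1 : ℝ)..0, rho0 t = ∫ t in (0 : ℝ)..1, rho0 t := by
    have := intervalIntegral.integral_comp_neg (a := (0 : ℝ)) (b := 1) rho0
    rw [neg_zero] at this
    rw [← this]
    apply intervalIntegral.integral_congr
    intro t _
    simp [rho0]
  have h3 : ∫ t in (-1 : ℝ)..1, rho0 t = π / 2 := h
  linarith

lemma bL_length : bL.length = 501 := by decide +kernel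

lemma rho0_le_b {j : ℕ} (hj : j ≤ 500) : rho0 ((j : ℝ) / 500) ≤ (Bv j : ℝ) / 1000000 := by
  have h := table_upper j (List.mem_range.mpr (by omega))
  have hj2 : j ^ 2 ≤ 250000 := by nlinarith
  have h' : (((250000 - j ^ 2) * 1000000000000 : ℕ) : ℝ) ≤ ((Bv j ^ 2 * 250000 : ℕ) : ℝ) := by
    exact_mod_cast h
  rw [Nat.cast_mul, Nat.cast_sub hj2, Nat.cast_mul] at h'
  push_cast at h'
  unfold rho0
  rw [Real.sqrt_le_iff]
  refine ⟨by positivity, ?_⟩
  have : (1 - ((j : ℝ) / 500) ^ 2) = (250000 - (j : ℝ) ^ 2) * 1000000000000 / 250000000000000000 := by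
    ring
  rw [this]
  have e : ((Bv j : ℝ) / 1000000) ^ 2 = (Bv j : ℝ) ^ 2 * 250000 / 250000000000000000 := by ring
  rw [e]
  exact div_le_div_of_nonneg_right h' (by norm_num)

lemma ell_le_rho0 {n : ℕ} (hn : n < 500) :
    (ell n : ℝ) / 1000000 ≤ rho0 (((n : ℝ) + 1) / 500) := by
  have h := table_lower (n + 1) (List.mem_range.mpr (by omega))
  have hj2 : (n + 1) ^ 2 ≤ 250000 := by nlinarith
  have h' : (((Bv (n + 1) - 2) ^ 2 * 250000 : ℕ) : ℝ)
      ≤ (((250000 - (n + 1) ^ 2) * 1000000000000 : ℕ) : ℝ) := by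
    exact_mod_cast h
  rw [Nat.cast_mul, Nat.cast_mul, Nat.cast_sub hj2] at h'
  push_cast at h'
  have hell : (ell n : ℝ) = (((Bv (n + 1) - 2 : ℕ)) : ℝ) := rfl
  unfold rho0
  apply Real.le_sqrt_of_sq_le
  rw [hell]
  have e1 : (((Bv (n + 1) - 2 : ℕ) : ℝ) / 1000000) ^ 2
      = ((Bv (n + 1) - 2 : ℕ) : ℝ) ^ 2 * 250000 / 250000000000000000 := by ring
  have e2 : (1 - (((n : ℝ) + 1) / 500) ^ 2)
      = (250000 - ((n : ℝ) + 1) ^ 2) * 1000000000000 / 250000000000000000 := by ring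
  rw [e1, e2]
  apply div_le_div_of_nonneg_right _ (by norm_num)
  simpa using h'

/-- The constant `3 π² / 16`. -/
def c0 : ℝ := 3 * π ^ 2 / 16

lemma c0_le : c0 ≤ 1.850552 := by
  unfold c0
  have h1 := Real.pi_lt_d6
  have h2 := Real.pi_gt_d6
  nlinarith

section main

variable {ρ : ℝ → ℝ}

/-- `ρ - rho0`. -/
def eps (ρ : ℝ → ℝ) (t : ℝ) : ℝ := ρ t - rho0 t

/-- Primitive of `eps`. -/
def CC (ρ : ℝ → ℝ) (t : ℝ) : ℝ := ∫ s in (0 : ℝ)..t, eps ρ s

lemma rho_int (hanti : AntitoneOn ρ (Icc 0 1)) {a b : ℝ} (ha : 0 ≤ a) (hab : a ≤ b) (hb : b ≤ 1) :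
    IntervalIntegrable ρ volume a b := by
  apply AntitoneOn.intervalIntegrable
  rw [uIcc_of_le hab]
  exact hanti.mono (Icc_subset_Icc ha hb)

lemma eps_int (hanti : AntitoneOn ρ (Icc 0 1)) {a b : ℝ} (ha : 0 ≤ a) (hab : a ≤ b) (hb : b ≤ 1) :
    IntervalIntegrable (eps ρ) volume a b :=
  (rho_int hanti ha hab hb).sub (rho0_cont.intervalIntegrable a b)

lemma eps_nonneg (hlow : ∀ t ∈ Icc (0 : ℝ) 1, rho0 t ≤ ρ t) {t : ℝ} (ht : t ∈ Icc (0 : ℝ) 1) :
    0 ≤ eps ρ t := sub_nonneg.mpr (hlow t ht)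

lemma CC_add (hanti : AntitoneOn ρ (Icc 0 1)) {a b : ℝ} (ha : 0 ≤ a) (hab : a ≤ b) (hb : b ≤ 1) :
    CC ρ b = CC ρ a + ∫ s in a..b, eps ρ s := by
  unfold CC
  rw [intervalIntegral.integral_add_adjacent_intervals (eps_int hanti le_rfl ha (hab.trans hb))
    (eps_int hanti ha hab hb)]

lemma CC_mono (hanti : AntitoneOn ρ (Icc 0 1)) (hlow : ∀ t ∈ Icc (0 : ℝ) 1, rho0 t ≤ ρ t)
    {a b : ℝ} (ha : 0 ≤ a) (hab : a ≤ b) (hb : b ≤ 1) : CC ρ a ≤ CC ρ b := by
  rw [CC_add hanti ha hab hb]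
  have : 0 ≤ ∫ s in a..b, eps ρ s :=
    intervalIntegral.integral_nonneg hab fun s hs =>
      eps_nonneg hlow ⟨ha.trans hs.1, hs.2.trans hb⟩
  linarith

lemma CC_zero : CC ρ 0 = 0 := by simp [CC]

lemma CC_nonneg (hanti : AntitoneOn ρ (Icc 0 1)) (hlow : ∀ t ∈ Icc (0 : ℝ) 1, rho0 t ≤ ρ t)
    {t : ℝ} (ht : t ∈ Icc (0 : ℝ) 1) : 0 ≤ CC ρ t := by
  have := CC_mono hanti hlow le_rfl ht.1 ht.2
  rwa [CC_zero] at this

lemma take_succ_bL {n : ℕ} (hn : n < 501) : bL.take (n + 1) = bL.take n ++ [Bv n] := by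
  have hl : n < bL.length := by rw [bL_length]; exact hn
  rw [List.take_add_one, List.getElem?_eq_getElem hl]
  simp [Bv, List.getD_eq_getElem?_getD, List.getElem?_eq_getElem hl]

/-- Discrete lower bound for the primitive, by monotonicity only. -/
lemma CC_lower (hanti : AntitoneOn ρ (Icc 0 1)) (hlow : ∀ t ∈ Icc (0 : ℝ) 1, rho0 t ≤ ρ t)
    {t : ℝ} (ht : t ∈ Icc (0 : ℝ) 1) (n : ℕ) (hn : (n : ℝ) / 500 ≤ t) :
    (1 / 500) * sumPos (bL.take n) (ρ t) ≤ CC ρ ((n : ℝ) / 500) := by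
  induction n with
  | zero => simp [sumPos_nil, CC_zero]
  | succ n ih =>
    have hn' : (n : ℝ) / 500 ≤ t := by
      refine le_trans ?_ hn
      push_cast
      apply div_le_div_of_nonneg_right _ (by norm_num)
      linarith
    have hn1 : ((n + 1 : ℕ) : ℝ) / 500 ≤ 1 := hn.trans ht.2
    have hn500 : n + 1 ≤ 500 := by
      have h : ((n + 1 : ℕ) : ℝ) ≤ 500 := by
        have := hn1
        rw [div_le_one (by norm_num)] at this
        exact this
      exact_mod_cast h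
    have h0 : (0 : ℝ) ≤ (n : ℝ) / 500 := by positivity
    have hstep : (n : ℝ) / 500 ≤ ((n + 1 : ℕ) : ℝ) / 500 := by
      push_cast
      apply div_le_div_of_nonneg_right _ (by norm_num)
      linarith
    rw [take_succ_bL (by omega), sumPos_append, sumPos_singleton,
      CC_add hanti h0 hstep hn1]
    have hint := eps_int hanti h0 hstep hn1
    have hlb : ∫ _s in (n : ℝ) / 500..((n + 1 : ℕ) : ℝ) / 500,
        max (ρ t - (Bv n : ℝ) / 1000000) 0 ≤ ∫ s in (n : ℝ) / 500..((n + 1 : ℕ) : ℝ) / 500, eps ρ s := by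
      apply intervalIntegral.integral_mono_on hstep intervalIntegrable_const hint
      intro s hs
      have hs0 : 0 ≤ s := h0.trans hs.1
      have hs1 : s ≤ 1 := hs.2.trans hn1
      apply max_le
      · have h1 : ρ t ≤ ρ s := hanti ⟨hs0, hs1⟩ ht (hs.2.trans hn)
        have h2 : rho0 s ≤ rho0 ((n : ℝ) / 500) := rho0_anti h0 hs.1
        have h3 := rho0_le_b (j := n) (by omega)
        unfold eps
        linarith
      · exact eps_nonneg hlow ⟨hs0, hs1⟩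
    rw [intervalIntegral.integral_const, smul_eq_mul] at hlb
    have e : ((n + 1 : ℕ) : ℝ) / 500 - (n : ℝ) / 500 = 1 / 500 := by
      push_cast; ring
    rw [e] at hlb
    have ih' := ih hn'
    linarith

/-- The key pointwise inequality. -/
theorem pointwise (hanti : AntitoneOn ρ (Icc 0 1)) (hlow : ∀ t ∈ Icc (0 : ℝ) 1, rho0 t ≤ ρ t)
    {t : ℝ} (ht : t ∈ Icc (0 : ℝ) 1) :
    (ρ t + rho0 t) * (c0 - 1 / 5 + t ^ 2 - ρ t ^ 2 / 5) ≤ π + 4 * CC ρ t := by
  -- choose the cell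
  obtain ⟨n, hn, hn1, hn2⟩ : ∃ n : ℕ, n < 500 ∧ (n : ℝ) / 500 ≤ t ∧ t ≤ ((n : ℝ) + 1) / 500 := by
    by_cases h1 : t = 1
    · refine ⟨499, by norm_num, ?_, ?_⟩
      · rw [h1]; norm_num
      · rw [h1]; norm_num
    · have hlt : t < 1 := lt_of_le_of_ne ht.2 h1
      refine ⟨⌊500 * t⌋₊, ?_, ?_, ?_⟩
      · have : (⌊500 * t⌋₊ : ℝ) ≤ 500 * t := Nat.floor_le (by linarith [ht.1])
        have h2 : (⌊500 * t⌋₊ : ℝ) < 500 := by linarith
        exact_mod_cast h2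
      · have : (⌊500 * t⌋₊ : ℝ) ≤ 500 * t := Nat.floor_le (by linarith [ht.1])
        rw [div_le_iff₀ (by norm_num)]
        linarith
      · have : 500 * t < (⌊500 * t⌋₊ : ℝ) + 1 := Nat.lt_floor_add_one _
        rw [le_div_iff₀ (by norm_num)]
        linarith
  set y := ρ t with hy
  have hn0 : (0 : ℝ) ≤ (n : ℝ) / 500 := by positivity
  have hlow_t : rho0 t ≤ y := hlow t ht
  have hy0 : 0 ≤ y := (rho0_nonneg t).trans hlow_t
  have h1 : (ell n : ℝ) / 1000000 ≤ y :=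
    (ell_le_rho0 hn).trans ((rho0_anti ht.1 hn2).trans hlow_t)
  have hphi := phi_nonneg hn h1 hy0
  have hC : (1 / 500) * sumPos (bL.take n) y ≤ CC ρ t :=
    (CC_lower hanti hlow ht n hn1).trans (CC_mono hanti hlow hn0 hn1 ht.2)
  have hCnn : 0 ≤ CC ρ t := CC_nonneg hanti hlow ht
  have hpi := Real.pi_gt_d6
  have hb : rho0 t ≤ (Bv n : ℝ) / 1000000 :=
    (rho0_anti hn0 hn1).trans (rho0_le_b (by omega))
  have hD : c0 - 1 / 5 + t ^ 2 ≤ (DD n : ℝ) / 1000000 := by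
    have hc := c0_le
    have e : (DD n : ℝ) / 1000000 = 1.650552 + (((n : ℝ) + 1) / 500) ^ 2 := by
      unfold DD; push_cast; ring
    rw [e]
    have : t ^ 2 ≤ (((n : ℝ) + 1) / 500) ^ 2 := by
      apply pow_le_pow_left₀ ht.1 hn2
    linarith
  set X := c0 - 1 / 5 + t ^ 2 - y ^ 2 / 5 with hX
  by_cases hXs : X ≤ 0
  · have : (y + rho0 t) * X ≤ 0 :=
      mul_nonpos_of_nonneg_of_nonpos (add_nonneg hy0 (rho0_nonneg t)) hXs
    have hpos : 0 < π := Real.pi_pos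
    linarith
  · replace hXs := not_le.mp hXs
    have h2 : (y + rho0 t) * X ≤ (y + (Bv n : ℝ) / 1000000) * X :=
      mul_le_mul_of_nonneg_right (by linarith) hXs.le
    have h3 : (y + (Bv n : ℝ) / 1000000) * X
        ≤ (y + (Bv n : ℝ) / 1000000) * ((DD n : ℝ) / 1000000 - y ^ 2 / 5) := by
      apply mul_le_mul_of_nonneg_left (by rw [hX]; linarith)
      have : (0 : ℝ) ≤ (Bv n : ℝ) / 1000000 := by positivity
      linarith
    have e4 : (y + (Bv n : ℝ) / 1000000) * (y ^ 2 / 5 - (DD n : ℝ) / 1000000)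
        = - ((y + (Bv n : ℝ) / 1000000) * ((DD n : ℝ) / 1000000 - y ^ 2 / 5)) := by ring
    rw [e4] at hphi
    have h5 : 4 * (1 / 500) * sumPos (bL.take n) y ≤ 4 * CC ρ t := by
      have : 4 * (1 / 500) * sumPos (bL.take n) y = 4 * ((1 / 500) * sumPos (bL.take n) y) := by ring
      rw [this]
      linarith
    have h6 : (3141592 : ℝ) / 1000000 ≤ π := by
      have := hpi
      norm_num at this ⊢
      linarith
    linarith

end main

end

end Vale.Agent.Lib.P237.PettyOneD
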