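import Vale.Agent.Lib.P237.PettyDefs

open MeasureTheory Set Module
open scoped RealInnerProductSpace

namespace Vale.Agent.Lib.P237.Petty

open Vale.Agent.Lib.P237

noncomputable section

/-- The coordinate map of a pair of vectors. -/
def cmap (e₁ e₂ : E3) (x : E3) : E2 := !₂[⟪e₁, x⟫, ⟪e₂, x⟫]

@[simp] lemma cmap_zero (e₁ e₂ x : E3) : cmap e₁ e₂ x 0 = ⟪e₁, x⟫ := by simp [cmap]

@[simp] lemma cmap_one (e₁ e₂ x : E3) : cmap e₁ e₂ x 1 = ⟪e₂, x⟫ := by simp [cmap]

lemma cmap_continuous (e₁ e₂ : E3) : Continuous (cmap e₁ e₂) := by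
  unfold cmap
  apply (PiLp.continuous_toLp 2 _).comp
  apply continuous_pi
  intro i
  fin_cases i
  · simpa using continuous_const.inner continuous_id
  · simpa using continuous_const.inner continuous_id

lemma ext_E2 {x y : E2} (h0 : x 0 = y 0) (h1 : x 1 = y 1) : x = y := by
  ext i
  fin_cases i
  · exact h0
  · exact h1

lemma cmap_add_smul (e₁ e₂ x y : E3) (a c : ℝ) :
    cmap e₁ e₂ (a • x + c • y) = a • cmap e₁ e₂ x + c • cmap e₁ e₂ y := by
  apply ext_E2 <;> simp [inner_add_right, inner_smul_right]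

lemma cmap_image_compact {K : Set E3} (hK : IsCompact K) (e₁ e₂ : E3) :
    IsCompact (cmap e₁ e₂ '' K) := hK.image (cmap_continuous e₁ e₂)

lemma cmap_image_convex {K : Set E3} (hK : Convex ℝ K) (e₁ e₂ : E3) :
    Convex ℝ (cmap e₁ e₂ '' K) := by
  rintro _ ⟨x, hx, rfl⟩ _ ⟨y, hy, rfl⟩ a c ha hc hac
  exact ⟨a • x + c • y, hK hx hy ha hc hac, cmap_add_smul _ _ _ _ _ _⟩

/-- The projected area in orthonormal coordinates of the plane `u^⊥`. -/
theorem projArea_eq {K : Set E3} (hK : IsCompact K) {e₁ e₂ u : E3} (h11 : ‖e₁‖ = 1) (h22 : ‖e₂‖ = 1)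
    (hu : ‖u‖ = 1) (h12 : ⟪e₁, e₂⟫ = 0) (h1u : ⟪e₁, u⟫ = 0) (h2u : ⟪e₂, u⟫ = 0) :
    projArea K u = (volume (cmap e₁ e₂ '' K)).toReal := by
  have hu0 : u ≠ 0 := by
    intro h
    rw [h, norm_zero] at hu
    exact zero_ne_one hu
  have mem1 : e₁ ∈ (ℝ ∙ u)ᗮ := by
    rw [Submodule.mem_orthogonal_singleton_iff_inner_right, real_inner_comm]
    exact h1u
  have mem2 : e₂ ∈ (ℝ ∙ u)ᗮ := by
    rw [Submodule.mem_orthogonal_singleton_iff_inner_right, real_inner_comm]
    exact h2u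
  have : Fact (finrank ℝ E3 = 2 + 1) := ⟨by simp⟩
  have hfin : finrank ℝ (ℝ ∙ u)ᗮ = 2 := Submodule.finrank_orthogonal_span_singleton hu0
  let v : Fin 2 → (ℝ ∙ u)ᗮ := ![⟨e₁, mem1⟩, ⟨e₂, mem2⟩]
  have hv2 : ∀ i j : Fin 2, i ≠ j → ⟪v i, v j⟫ = 0 := by
    intro i j hij
    match i, j, hij with
    | 0, 0, h => exact absurd rfl h
    | 0, 1, _ => simpa [v] using h12
    | 1, 0, _ => simpa [v, real_inner_comm] using h12
    | 1, 1, h => exact absurd rfl h
  have hv : Orthonormal ℝ ((univ : Set (Fin 2)).domRestrict v) := by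
    constructor
    · rintro ⟨i, -⟩
      fin_cases i
      · simpa [v] using h11
      · simpa [v] using h22
    · intro a c hac
      exact hv2 a.1 c.1 (fun h => hac (Subtype.ext h))
  obtain ⟨f, hf⟩ := hv.exists_orthonormalBasis_extension_of_card_eq (by simpa using hfin)
  have key : ∀ x : E3, f.repr ((ℝ ∙ u)ᗮ.orthogonalProjectionOnto x) = cmap e₁ e₂ x := by
    intro x
    apply ext_E2
    · rw [OrthonormalBasis.repr_apply_apply, hf 0 (mem_univ _),
        Submodule.inner_orthogonalProjectionOnto_eq_of_mem_left]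
      simp [v]
    · rw [OrthonormalBasis.repr_apply_apply, hf 1 (mem_univ _),
        Submodule.inner_orthogonalProjectionOnto_eq_of_mem_left]
      simp [v]
  have hPc : IsCompact ((ℝ ∙ u)ᗮ.orthogonalProjectionOnto '' K) :=
    hK.image (ContinuousLinearMap.continuous _)
  have himg : cmap e₁ e₂ '' K = f.repr.symm ⁻¹' ((ℝ ∙ u)ᗮ.orthogonalProjectionOnto '' K) := by
    ext q
    constructor
    · rintro ⟨x, hx, rfl⟩
      refine ⟨x, hx, ?_⟩
      rw [← key x, LinearIsometryEquiv.symm_apply_apply]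
    · rintro ⟨x, hx, hxq⟩
      refine ⟨x, hx, ?_⟩
      rw [← key x, hxq, LinearIsometryEquiv.apply_symm_apply]
  unfold projArea
  rw [himg, f.measurePreserving_repr_symm.measure_preimage hPc.measurableSet.nullMeasurableSet]

end

end Vale.Agent.Lib.P237.Petty
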