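import Vale.Agent.Lib.P237.PettySec

open MeasureTheory Set Module
open scoped RealInnerProductSpace Pointwise ENNReal

namespace Vale.Agent.Lib.P237.Petty

open Vale.Agent.Lib.P237 Vale.Agent.Lib.P227

noncomputable section

lemma rootArea_mono' {A B : Set E2} (hB : IsCompact B) (hAB : A ⊆ B) :
    rootArea A ≤ rootArea B := by
  apply Real.sqrt_le_sqrt
  exact ENNReal.toReal_mono hB.measure_lt_top.ne (measure_mono hAB)

/-- Brunn-Minkowski in the plane for a sum `A + c B`. -/
lemma bm_add {A B C : Set E2} (hA : IsCompact A) (hB : IsCompact B) (hC : IsCompact C)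
    (hA' : A.Nonempty) (hB' : B.Nonempty) {c : ℝ} (hc : 0 ≤ c)
    (H : ∀ x ∈ A, ∀ y ∈ B, x + c • y ∈ C) : rootArea A + c * rootArea B ≤ rootArea C := by
  have hs : 0 < 1 + c := by linarith
  set s := 1 + c with hsdef
  have hC' : IsCompact ((fun z : E2 => s⁻¹ • z) '' C) := hC.image (continuous_const_smul _)
  have h1 := bm_plane hA hB hC' hA' hB' (l := c / s) (by positivity)
    (by rw [div_le_one hs]; linarith) (fun x hx y hy => by
      refine ⟨x + c • y, H x hx y hy, ?_⟩
      have e : 1 - c / s = s⁻¹ := by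
        rw [hsdef]; field_simp; ring
      show s⁻¹ • (x + c • y) = _
      rw [e, smul_add, smul_smul, div_eq_inv_mul])
  have h2 := scaled_le hC' hC hs.le (0 : E2) (fun y hy => by
    obtain ⟨z, hz, rfl⟩ := hy
    simp only [add_zero, smul_smul, mul_inv_cancel₀ hs.ne', one_smul]
    exact hz)
  have e : 1 - c / s = s⁻¹ := by
    rw [hsdef]; field_simp; ring
  rw [e] at h1
  have h3 : s * (s⁻¹ * rootArea A + c / s * rootArea B) ≤ s * rootArea ((fun z : E2 => s⁻¹ • z) '' C) :=
    mul_le_mul_of_nonneg_left h1 hs.le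
  have h4 : s * (s⁻¹ * rootArea A + c / s * rootArea B) = rootArea A + c * rootArea B := by
    field_simp
  linarith

/-- The difference set. -/
def Dset (X : Set E2) : Set E2 := (fun p : E2 × E2 => p.1 - p.2) '' (X ×ˢ X)

lemma Dset_compact {X : Set E2} (hX : IsCompact X) : IsCompact (Dset X) :=
  (hX.prod hX).image (by fun_prop)

lemma Dset_nonempty {X : Set E2} (hX : X.Nonempty) : (Dset X).Nonempty :=
  (hX.prod hX).image _

lemma rootArea_Dset {X : Set E2} (hX : IsCompact X) (hX' : X.Nonempty) :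
    2 * rootArea X ≤ rootArea (Dset X) := by
  have hn : IsCompact (-X) := hX.neg
  have := bm_add hX hn (Dset_compact hX) hX' hX'.neg (c := 1) zero_le_one (fun x hx y hy => by
    refine ⟨(x, -y), ⟨hx, by simpa using hy⟩, ?_⟩
    simp)
  rw [rootArea_neg] at this
  linarith

/-- Iterated Minkowski sums. -/
def TT (c : ℝ) (D : ℕ → Set E2) : ℕ → Set E2
  | 0 => {0}
  | n + 1 => (fun p : E2 × E2 => p.1 + c • p.2) '' (TT c D n ×ˢ D n)

lemma TT_compact (c : ℝ) {D : ℕ → Set E2} (n : ℕ) (hD : ∀ k < n, IsCompact (D k)) :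
    IsCompact (TT c D n) := by
  induction n with
  | zero => exact isCompact_singleton
  | succ n ih =>
    exact ((ih fun k hk => hD k (by omega)).prod (hD n (by omega))).image (by fun_prop)

lemma TT_nonempty (c : ℝ) {D : ℕ → Set E2} (n : ℕ) (hD : ∀ k < n, (D k).Nonempty) :
    (TT c D n).Nonempty := by
  induction n with
  | zero => exact singleton_nonempty _
  | succ n ih => exact ((ih fun k hk => hD k (by omega)).prod (hD n (by omega))).image _

lemma TT_bm {c : ℝ} (hc : 0 ≤ c) {D : ℕ → Set E2} (n : ℕ) (hD : ∀ k < n, IsCompact (D k))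
    (hD' : ∀ k < n, (D k).Nonempty) :
    c * ∑ k ∈ Finset.range n, rootArea (D k) ≤ rootArea (TT c D n) := by
  induction n with
  | zero => simpa using rootArea_nonneg _
  | succ n ih =>
    have h1 := ih (fun k hk => hD k (by omega)) (fun k hk => hD' k (by omega))
    have := bm_add (TT_compact c n fun k hk => hD k (by omega)) (hD n (by omega))
      (TT_compact c (n + 1) hD) (TT_nonempty c n fun k hk => hD' k (by omega))
      (hD' n (by omega)) hc (fun x hx y hy => ⟨(x, y), ⟨hx, hy⟩, rfl⟩)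
    rw [Finset.sum_range_succ, mul_add]
    linarith

lemma TT_bound {c : ℝ} (hc : 0 ≤ c) {D : ℕ → Set E2} (w : E2) {φ : ℕ → ℝ} (n : ℕ)
    (hφ : ∀ k < n, ∀ d ∈ D k, ⟪d, w⟫ ≤ φ k) :
    ∀ x ∈ TT c D n, ⟪x, w⟫ ≤ c * ∑ k ∈ Finset.range n, φ k := by
  induction n with
  | zero =>
    intro x hx
    have : x = 0 := hx
    simp [this]
  | succ n ih =>
    rintro _ ⟨⟨x, d⟩, ⟨hx, hd⟩, rfl⟩
    have h1 := ih (fun k hk => hφ k (by omega)) x hx
    have h2 := hφ n (by omega) d hd
    simp only [inner_add_left, inner_smul_left, Finset.sum_range_succ, mul_add]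
    simp only [RCLike.conj_to_real]
    have := mul_le_mul_of_nonneg_left h2 hc
    linarith

variable (b : OrthonormalBasis (Fin 3) ℝ E3) {K : Set E3}

/-- Nestedness of the difference sets of the sections. -/
lemma nested (hKc : Convex ℝ K) (hsym : ∀ x ∈ K, -x ∈ K) {s T : ℝ} (hT : 0 < T) (hs : |s| ≤ T)
    {a a' : E2} (ha : a ∈ sec b K T) (ha' : a' ∈ sec b K T) :
    ∃ c ∈ sec b K s, ∃ c' ∈ sec b K s, c - c' = a - a' := by
  have hs' := abs_le.mp hs
  set θ := (T - s) / (2 * T) with hθ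
  have h0 : 0 ≤ θ := div_nonneg (by linarith) (by linarith)
  have h1 : 0 ≤ 1 - θ := by
    rw [hθ, sub_nonneg, div_le_one (by linarith)]
    linarith
  have e : (1 - θ) * T + θ * -T = s := by
    rw [hθ]; field_simp; ring
  refine ⟨(1 - θ) • a + θ • (-a'), ?_, (1 - θ) • a' + θ • (-a), ?_, ?_⟩
  · have := sec_comb b hKc h1 h0 (by ring) ha (sec_neg b hsym ha')
    rwa [e] at this
  · have := sec_comb b hKc h1 h0 (by ring) ha' (sec_neg b hsym ha)
    rwa [e] at this
  · simp only [smul_neg]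
    have : (1 - θ) • a + -(θ • a') - ((1 - θ) • a' + -(θ • a)) = ((1 - θ) + θ) • a - ((1 - θ) + θ) • a' := by
      simp only [add_smul]
      abel
    rw [this]
    simp

/-- Lower bound for a line integral by a step function. -/
lemma lintegral_steps (F : ℝ → ℝ≥0∞) {a h : ℝ} (hh : 0 ≤ h) (δ : ℕ → ℝ≥0∞) (n : ℕ)
    (H : ∀ k < n, ∀ τ ∈ Ioc (a + k * h) (a + (k + 1) * h), δ k ≤ F τ) :
    (∑ k ∈ Finset.range n, δ k) * ENNReal.ofReal h ≤ ∫⁻ τ in Ioc a (a + n * h), F τ := by
  induction n with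
  | zero => simp
  | succ n ih =>
    have h1 := ih (fun k hk => H k (by omega))
    have hcast : a + ((n + 1 : ℕ) : ℝ) * h = a + ((n : ℝ) + 1) * h := by push_cast; ring
    have hu : Ioc a (a + ((n + 1 : ℕ) : ℝ) * h) = Ioc a (a + n * h) ∪ Ioc (a + n * h) (a + ((n : ℝ) + 1) * h) := by
      rw [hcast, Ioc_union_Ioc_eq_Ioc]
      · have : 0 ≤ (n : ℝ) * h := by positivity
        linarith
      · nlinarith
    have hd : Disjoint (Ioc a (a + n * h)) (Ioc (a + n * h) (a + ((n : ℝ) + 1) * h)) :=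
      Ioc_disjoint_Ioc_of_le le_rfl
    rw [hu, lintegral_union measurableSet_Ioc hd, Finset.sum_range_succ, add_mul]
    refine add_le_add h1 ?_
    have hvol : volume (Ioc (a + n * h) (a + ((n : ℝ) + 1) * h)) = ENNReal.ofReal h := by
      rw [Real.volume_Ioc]
      congr 1
      ring
    calc δ n * ENNReal.ofReal h = ∫⁻ _ in Ioc (a + n * h) (a + ((n : ℝ) + 1) * h), δ n := by
          rw [setLIntegral_const, hvol]
      _ ≤ _ := setLIntegral_mono' measurableSet_Ioc (H n (by omega))

end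

end Vale.Agent.Lib.P237.Petty
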