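import Vale.Agent.Lib.P237.PettySlice2

open MeasureTheory Set Module
open scoped RealInnerProductSpace Pointwise ENNReal

namespace Vale.Agent.Lib.P237.Petty

open Vale.Agent.Lib.P237 Vale.Agent.Lib.P227

noncomputable section

variable (b : OrthonormalBasis (Fin 3) ℝ E3) {K : Set E3}

/-- The horizontal vector with coordinates `n`. -/
def nu (n : E2) : E3 := n 0 • b 0 + n 1 • b 1

/-- The horizontal vector with coordinates `n` turned by a quarter. -/
def uu (n : E2) : E3 := n 0 • b 1 - n 1 • b 0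

lemma inner_nu_pt (n p : E2) (t : ℝ) : ⟪nu b n, pt b p t⟫ = ⟪p, n⟫ := by
  unfold nu
  rw [inner_add_left, real_inner_smul_left, real_inner_smul_left, inner_pt_zero, inner_pt_one,
    inner_two]
  ring

lemma inner_uu (n : E2) (x : E3) :
    ⟪uu b n, x⟫ = ⟪cmap (b 1) (-b 0) x, n⟫ := by
  unfold uu
  rw [inner_sub_left, real_inner_smul_left, real_inner_smul_left, inner_two]
  simp [inner_neg_left]
  ring

lemma cmap_nu_pt (n p : E2) (t : ℝ) :
    cmap (nu b n) (b 2) (pt b p t) = !₂[⟪p, n⟫, t] := by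
  apply ext_E2
  · simp [inner_nu_pt]
  · simp [inner_pt_two]

/-- Horizontal chords: a difference of two points of a section above `τ` gives a chord of the
projection at height `τ`. -/
lemma fiber_lower (hKc : Convex ℝ K) (hsym : ∀ x ∈ K, -x ∈ K) (n : E2) {τ T : ℝ} (hT : 0 < T)
    (hτ : |τ| ≤ T) {d : E2} (hd : d ∈ Dset (sec b K T)) :
    ENNReal.ofReal ⟪d, n⟫ ≤ volume {s : ℝ | (!₂[s, τ] : E2) ∈ cmap (nu b n) (b 2) '' K} := by
  obtain ⟨⟨a, a'⟩, ⟨ha, ha'⟩, rfl⟩ := hd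
  obtain ⟨c, hc, c', hc', hcc⟩ := nested b hKc hsym hT hτ ha ha'
  have hconv : Convex ℝ {s : ℝ | (!₂[s, τ] : E2) ∈ cmap (nu b n) (b 2) '' K} :=
    fiber_convex (cmap_image_convex hKc _ _) τ
  have m1 : ⟪c, n⟫ ∈ {s : ℝ | (!₂[s, τ] : E2) ∈ cmap (nu b n) (b 2) '' K} :=
    ⟨pt b c τ, hc, cmap_nu_pt b n c τ⟩
  have m2 : ⟪c', n⟫ ∈ {s : ℝ | (!₂[s, τ] : E2) ∈ cmap (nu b n) (b 2) '' K} :=
    ⟨pt b c' τ, hc', cmap_nu_pt b n c' τ⟩
  have hsub := hconv.ordConnected.out m2 m1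
  have hv := measure_mono (μ := volume) hsub
  rw [Real.volume_Icc] at hv
  have e : ⟪c, n⟫ - ⟪c', n⟫ = ⟪(a, a').1 - (a, a').2, n⟫ := by
    show _ = ⟪a - a', n⟫
    rw [← hcc, inner_sub_left]
  rwa [e] at hv

/-- Heights of the partition. -/
def hgt (m k : ℕ) : ℝ := ((k : ℝ) + 1) / m

lemma hgt_pos {m : ℕ} (hm : m ≠ 0) (k : ℕ) : 0 < hgt m k := by
  unfold hgt
  have : (0 : ℝ) < m := by positivity
  positivity

lemma hgt_le_one {m k : ℕ} (hk : k < m) : hgt m k ≤ 1 := by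
  unfold hgt
  have hm : (0 : ℝ) < m := by
    have : 0 < m := by omega
    positivity
  rw [div_le_one hm]
  have : ((k + 1 : ℕ) : ℝ) ≤ m := by exact_mod_cast hk
  push_cast at this
  exact this

/-- Area of the projection from below by a Riemann sum of the widths. -/
lemma area_lower (hK : IsCompact K) (hKc : Convex ℝ K) (hsym : ∀ x ∈ K, -x ∈ K) (n : E2) {m : ℕ}
    (hm : m ≠ 0) {φ : ℕ → ℝ} (hφ0 : ∀ k < m, 0 ≤ φ k)
    (hφ : ∀ k < m, ∃ d ∈ Dset (sec b K (hgt m k)), φ k = ⟪d, n⟫) :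
    2 / (m : ℝ) * ∑ k ∈ Finset.range m, φ k ≤ (volume (cmap (nu b n) (b 2) '' K)).toReal := by
  have hmr : (0 : ℝ) < m := by positivity
  set G := cmap (nu b n) (b 2) '' K with hG
  have hGc : IsCompact G := cmap_image_compact hK _ _
  set F : ℝ → ℝ≥0∞ := fun τ => volume {s : ℝ | (!₂[s, τ] : E2) ∈ G} with hF
  have hvol : volume G = ∫⁻ τ, F τ := vol_plane hGc.measurableSet
  set δ : ℕ → ℝ≥0∞ := fun k => ENNReal.ofReal (φ k) with hδ
  have h1h : (0 : ℝ) ≤ 1 / m := by positivity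
  have hmul : (m : ℝ) * (1 / m) = 1 := by field_simp
  have hpos := lintegral_steps F (a := 0) h1h δ m (fun k hk τ hτ => by
    obtain ⟨d, hd, e⟩ := hφ k hk
    rw [hδ]
    simp only [e]
    apply fiber_lower b hKc hsym n (hgt_pos hm k) _ hd
    have e1 : (0 : ℝ) + ((k : ℝ) + 1) * (1 / m) = hgt m k := by
      unfold hgt; ring
    have h2 : 0 ≤ (0 : ℝ) + (k : ℝ) * (1 / m) := by positivity
    rw [e1] at hτ
    rw [abs_le]
    constructor
    · have := hgt_pos hm k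
      linarith [hτ.1]
    · exact hτ.2)
  have hneg := lintegral_steps F (a := -1) h1h (fun k => δ (m - 1 - k)) m (fun k hk τ hτ => by
    have hk' : m - 1 - k < m := by omega
    obtain ⟨d, hd, e⟩ := hφ _ hk'
    simp only [hδ]
    rw [e]
    apply fiber_lower b hKc hsym n (hgt_pos hm _) _ hd
    have hc : ((m - 1 - k : ℕ) : ℝ) = (m : ℝ) - 1 - k := by
      have h1 : 1 ≤ m := by omega
      have h2 : k ≤ m - 1 := by omega
      rw [Nat.cast_sub h2, Nat.cast_sub h1]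
      simp
    have e1 : hgt m (m - 1 - k) = 1 - (k : ℝ) * (1 / m) := by
      unfold hgt
      rw [hc]
      field_simp
      ring
    have e2 : ((k : ℝ) + 1) * (1 / m) = (k : ℝ) * (1 / m) + 1 / m := by ring
    have hk3 : (k : ℝ) + 1 ≤ m := by exact_mod_cast hk
    have hk4 : ((k : ℝ) + 1) * (1 / m) ≤ 1 := by
      rw [mul_one_div, div_le_one hmr]
      exact hk3
    rw [e1, abs_le]
    rw [e2] at hk4 hτ
    have h5 := hτ.1
    have h6 := hτ.2
    have h7 : 0 ≤ (k : ℝ) * (1 / m) := by positivity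
    constructor <;> linarith)
  rw [hmul, zero_add] at hpos
  have hz : (-1 : ℝ) + 1 = 0 := by norm_num
  rw [hmul, hz, Finset.sum_range_reflect] at hneg
  have hsum : (∑ k ∈ Finset.range m, δ k) * ENNReal.ofReal (1 / m) +
      (∑ k ∈ Finset.range m, δ k) * ENNReal.ofReal (1 / m) ≤ volume G := by
    rw [hvol]
    calc _ ≤ (∫⁻ τ in Ioc (-1 : ℝ) 0, F τ) + ∫⁻ τ in Ioc (0 : ℝ) 1, F τ := add_le_add hneg hpos
      _ = ∫⁻ τ in Ioc (-1 : ℝ) 0 ∪ Ioc (0 : ℝ) 1, F τ :=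
          (lintegral_union measurableSet_Ioc (Ioc_disjoint_Ioc_of_le le_rfl)).symm
      _ ≤ _ := setLIntegral_le_lintegral _ _
  have hδsum : ∑ k ∈ Finset.range m, δ k = ENNReal.ofReal (∑ k ∈ Finset.range m, φ k) := by
    rw [ENNReal.ofReal_sum_of_nonneg (fun k hk => hφ0 k (Finset.mem_range.mp hk))]
  have hS0 : 0 ≤ ∑ k ∈ Finset.range m, φ k :=
    Finset.sum_nonneg fun k hk => hφ0 k (Finset.mem_range.mp hk)
  rw [hδsum, ← ENNReal.ofReal_mul hS0, ← ENNReal.ofReal_add (by positivity) (by positivity)] at hsum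
  have := (ENNReal.ofReal_le_iff_le_toReal hGc.measure_lt_top.ne).mp hsum
  calc _ = (∑ k ∈ Finset.range m, φ k) * (1 / m) + (∑ k ∈ Finset.range m, φ k) * (1 / m) := by
        field_simp
        ring
    _ ≤ _ := this

end

end Vale.Agent.Lib.P237.Petty
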