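import Vale.Agent.Lib.P237.Final

open MeasureTheory Set
open scoped ENNReal Pointwise

namespace Vale.Agent.Lib.P237

open Vale.Agent.Lib.P227

noncomputable section

set_option linter.unusedSectionVars false

variable {ι : Type*} [Fintype ι]

/-- The zonotope `∑ [-a i, a i]` in three dimensional Euclidean space. -/
def zonotope (a : ι → E3) : Set E3 := {x | ∃ r : ι → ℝ, (∀ i, |r i| ≤ 1) ∧ x = ∑ i, r i • a i}

/-- The map from three space to a plane times the line preserves volume. -/
lemma mp_tau : MeasurePreserving (fun x : E3 => (pl x, x 2)) volume volume := by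
  have m1 : MeasurePreserving (WithLp.ofLp : E3 → Fin 3 → ℝ) volume volume :=
    PiLp.volume_preserving_ofLp (Fin 3)
  have m2 := volume_preserving_piFinSuccAbove (fun _ : Fin 3 => ℝ) (Fin.last 2)
  have m3 : MeasurePreserving (Prod.swap : ℝ × (Fin 2 → ℝ) → (Fin 2 → ℝ) × ℝ) volume volume :=
    Measure.measurePreserving_swap
  have m4 : MeasurePreserving (Prod.map (WithLp.toLp 2 : (Fin 2 → ℝ) → E2) (id : ℝ → ℝ))
      volume volume := (PiLp.volume_preserving_toLp (Fin 2)).prod (MeasurePreserving.id _)
  have := m4.comp (m3.comp (m2.comp m1))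
  convert this using 1
  funext x
  ext1
  · apply ext_two
    · simp [pl, MeasurableEquiv.piFinSuccAbove]
      rfl
    · simp [pl, MeasurableEquiv.piFinSuccAbove]
      rfl
  · simp [MeasurableEquiv.piFinSuccAbove]

lemma coord3_sum {κ : Type*} (s : Finset κ) (f : κ → E3) (k : Fin 3) :
    (∑ i ∈ s, f i) k = ∑ i ∈ s, f i k := by
  have := map_sum (EuclideanSpace.proj k : E3 →L[ℝ] ℝ) f s
  simp

lemma pl_sum {κ : Type*} (s : Finset κ) (f : κ → E3) :
    pl (∑ i ∈ s, f i) = ∑ i ∈ s, pl (f i) := by
  apply ext_two
  · rw [coord_sum, pl_0, coord3_sum]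
    simp
  · rw [coord_sum, pl_1, coord3_sum]
    simp

lemma pl_smul (c : ℝ) (x : E3) : pl (c • x) = c • pl x := by
  apply ext_two <;> simp

lemma ext_three {x y : E3} (h0 : x 0 = y 0) (h1 : x 1 = y 1) (h2 : x 2 = y 2) : x = y := by
  ext i
  fin_cases i
  · exact h0
  · exact h1
  · exact h2

lemma preimage_Zon3 [DecidableEq ι] (a : ι → E3) :
    (fun x : E3 => (pl x, x 2)) ⁻¹' Zon3 (fun i => pl (a i)) (fun i => a i 2) Finset.univ
      = zonotope a := by
  ext x
  constructor
  · rintro ⟨r, hr, he⟩
    have e1 : pl x = ∑ i, r i • pl (a i) := congrArg Prod.fst he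
    have e2 : x 2 = ∑ i, r i * a i 2 := congrArg Prod.snd he
    refine ⟨r, hr, ?_⟩
    apply ext_three
    · have := congrArg (fun y : E2 => y 0) e1
      simp only [pl_0, coord_sum] at this
      rw [this, coord3_sum]
      simp
    · have := congrArg (fun y : E2 => y 1) e1
      simp only [pl_1, coord_sum] at this
      rw [this, coord3_sum]
      simp
    · rw [e2, coord3_sum]
      simp
  · rintro ⟨r, hr, rfl⟩
    refine ⟨r, hr, ?_⟩
    ext1
    · simp only [pl_sum, pl_smul]
    · simp only
      rw [coord3_sum]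
      simp

lemma tri_pl [DecidableEq ι] (a : ι → E3) (i k l : ι) :
    tri (fun i => pl (a i)) (fun i => a i 2) i k l = det3 (a i) (a k) (a l) := by
  simp only [tri, wd, det3, pl_0, pl_1]
  ring

/-- **The volume of a zonotope** in three dimensional Euclidean space. -/
theorem volume_zonotope [DecidableEq ι] (a : ι → E3) :
    volume (zonotope a) = ENNReal.ofReal ((4 / 3) * D3 a) := by
  rw [← preimage_Zon3, mp_tau.measure_preimage
    (Zon3_compact _ _ _).measurableSet.nullMeasurableSet, volume_Zon3]
  congr 2
  unfold DD D3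
  simp only [tri_pl]

lemma toReal_volume_zonotope [DecidableEq ι] (a : ι → E3) :
    (volume (zonotope a)).toReal = (4 / 3) * D3 a := by
  rw [volume_zonotope, ENNReal.toReal_ofReal]
  have := D3_nonneg a
  positivity

/-- The generators of the projection body of a zonotope. -/
def projGen (a : ι → E3) (p : ι × ι) : E3 := (2 : ℝ) • cross (a p.1) (a p.2)

lemma det3_smul (x y z : E3) :
    det3 ((2 : ℝ) • x) ((2 : ℝ) • y) ((2 : ℝ) • z) = 8 * det3 x y z := by
  simp only [det3, PiLp.smul_apply, smul_eq_mul]
  ring

lemma D3_projGen [DecidableEq ι] (a : ι → E3) : D3 (projGen a) = 8 * L3 a := by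
  unfold D3 L3 projGen
  simp only [Fintype.sum_prod_type, det3_smul, abs_mul, Finset.mul_sum]
  norm_num

/-- **Petty's inequality with constant six for zonotopes**, with the projection body of the
zonotope written through its generators. -/
theorem zonotope_six (a : ι → E3) :
    6 * (volume (zonotope a)).toReal ^ 2 ≤ (volume (zonotope (projGen a))).toReal := by
  classical
  rw [toReal_volume_zonotope, toReal_volume_zonotope, D3_projGen]
  have := D3_sq_le_L3 a
  nlinarith

end

end Vale.Agent.Lib.P237
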