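import Vale.Agent.Lib.P237.PettySlice1
import Vale.Agent.Lib.P237.Volume3
import Vale.Agent.Lib.P237.PettyJohn2

open MeasureTheory Set Module
open scoped RealInnerProductSpace Pointwise ENNReal

namespace Vale.Agent.Lib.P237.Petty

open Vale.Agent.Lib.P237 Vale.Agent.Lib.P227

noncomputable section

variable {ι κ : Type*} [Fintype ι] [Fintype κ]

lemma zon_compact (a : ι → E3) : IsCompact (zonotope a) := by
  have hbox : IsCompact (Set.pi univ fun _ : ι => Icc (-1 : ℝ) 1) :=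
    isCompact_univ_pi fun _ => isCompact_Icc
  have : zonotope a = (fun r : ι → ℝ => ∑ i, r i • a i) '' (Set.pi univ fun _ : ι => Icc (-1 : ℝ) 1) := by
    ext x
    constructor
    · rintro ⟨r, hr, rfl⟩
      exact ⟨r, fun i _ => abs_le.mp (hr i), rfl⟩
    · rintro ⟨r, hr, rfl⟩
      exact ⟨r, fun i => abs_le.mpr (hr i (mem_univ i)), rfl⟩
  rw [this]
  apply hbox.image
  fun_prop

lemma zon_convex (a : ι → E3) : Convex ℝ (zonotope a) := by
  rintro _ ⟨r, hr, rfl⟩ _ ⟨s, hs, rfl⟩ t c ht hc htc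
  refine ⟨fun i => t * r i + c * s i, fun i => ?_, ?_⟩
  · have h1 := abs_le.mp (hr i)
    have h2 := abs_le.mp (hs i)
    rw [abs_le]
    have e : c = 1 - t := by linarith
    subst e
    constructor <;> nlinarith
  · simp only [Finset.smul_sum, smul_smul, add_smul, ← Finset.sum_add_distrib]

lemma zon_neg (a : ι → E3) {x : E3} (hx : x ∈ zonotope a) : -x ∈ zonotope a := by
  obtain ⟨r, hr, rfl⟩ := hx
  refine ⟨fun i => - r i, fun i => by rw [abs_neg]; exact hr i, ?_⟩
  simp [Finset.sum_neg_distrib]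

lemma zon_zero (a : ι → E3) : (0 : E3) ∈ zonotope a :=
  ⟨fun _ => 0, fun _ => by simp, by simp⟩

lemma zon_image (M : M3) (a : ι → E3) :
    act M '' zonotope a = zonotope fun i => act M (a i) := by
  classical
  have hsum : ∀ (s : Finset ι) (r : ι → ℝ), act M (∑ i ∈ s, r i • a i) = ∑ i ∈ s, r i • act M (a i) := by
    intro s r
    induction s using Finset.induction_on with
    | empty => simp [act_zero]
    | insert j T hj ih =>
      rw [Finset.sum_insert hj, Finset.sum_insert hj, act_add, act_smul, ih]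
  ext x
  constructor
  · rintro ⟨_, ⟨r, hr, rfl⟩, rfl⟩
    exact ⟨r, hr, hsum _ r⟩
  · rintro ⟨r, hr, rfl⟩
    exact ⟨_, ⟨r, hr, rfl⟩, hsum _ r⟩

lemma zon_supp (p : ι → E3) (u : E3) : supp (zonotope p) u = ∑ i, |⟪p i, u⟫| := by
  unfold supp
  apply IsGreatest.csSup_eq
  constructor
  · refine ⟨∑ i, (if 0 ≤ ⟪p i, u⟫ then (1 : ℝ) else -1) • p i, ⟨_, fun i => ?_, rfl⟩, ?_⟩
    · split_ifs <;> simp
    · simp only [sum_inner, real_inner_smul_left]
      apply Finset.sum_congr rfl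
      intro i _
      split_ifs with h
      · rw [abs_of_nonneg h, one_mul]
      · rw [abs_of_neg (not_le.mp h)]
        ring
  · rintro _ ⟨_, ⟨r, hr, rfl⟩, rfl⟩
    simp only [sum_inner, real_inner_smul_left]
    apply Finset.sum_le_sum
    intro i _
    calc r i * ⟪p i, u⟫ ≤ |r i * ⟪p i, u⟫| := le_abs_self _
      _ = |r i| * |⟪p i, u⟫| := abs_mul _ _
      _ ≤ 1 * |⟪p i, u⟫| := by gcongr; exact hr i
      _ = _ := one_mul _

lemma inner_E3 (x y : E3) : ⟪x, y⟫ = x 0 * y 0 + x 1 * y 1 + x 2 * y 2 := by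
  simp only [PiLp.inner_apply, Fin.sum_univ_three, RCLike.inner_apply, conj_trivial]
  ring

lemma inner_cross (x y z : E3) : ⟪cross x y, z⟫ = det3 x y z := by
  rw [inner_E3]
  simp only [det3, cross_0, cross_1, cross_2]
  ring

lemma cauchy_binet (x y z p q r : E3) :
    det3 x y z * det3 p q r =
      ⟪p, x⟫ * (⟪q, y⟫ * ⟪r, z⟫ - ⟪q, z⟫ * ⟪r, y⟫)
      - ⟪p, y⟫ * (⟪q, x⟫ * ⟪r, z⟫ - ⟪q, z⟫ * ⟪r, x⟫)
      + ⟪p, z⟫ * (⟪q, x⟫ * ⟪r, y⟫ - ⟪q, y⟫ * ⟪r, x⟫) := by
  simp only [inner_E3, det3]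
  ring

lemma abs_det3_basis (b : OrthonormalBasis (Fin 3) ℝ E3) :
    |det3 (b 0) (b 1) (b 2)| = 1 := by
  have h := cauchy_binet (b 0) (b 1) (b 2) (b 0) (b 1) (b 2)
  have hs : ∀ i, ⟪b i, b i⟫ = 1 := fun i => by
    rw [real_inner_self_eq_norm_sq, b.norm_eq_one]; norm_num
  have hn : ∀ i j, i ≠ j → ⟪b i, b j⟫ = 0 := fun i j hij => b.orthonormal.2 hij
  rw [hs 0, hs 1, hs 2, hn 0 1 (by decide), hn 0 2 (by decide), hn 1 0 (by decide),
    hn 1 2 (by decide), hn 2 0 (by decide), hn 2 1 (by decide)] at h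
  have h2 : det3 (b 0) (b 1) (b 2) ^ 2 = 1 := by nlinarith
  rw [← sq_abs] at h2
  exact (pow_eq_one_iff_of_nonneg (abs_nonneg _) two_ne_zero).mp h2

lemma abs_det3_eq (b : OrthonormalBasis (Fin 3) ℝ E3) (x y : E3) :
    |det3 x y (b 2)| = |⟪b 0, x⟫ * ⟪b 1, y⟫ - ⟪b 1, x⟫ * ⟪b 0, y⟫| := by
  have h := cauchy_binet x y (b 2) (b 0) (b 1) (b 2)
  have hs : ⟪b 2, b 2⟫ = 1 := by
    rw [real_inner_self_eq_norm_sq, b.norm_eq_one]; norm_num
  have hn : ∀ i j, i ≠ j → ⟪b i, b j⟫ = 0 := fun i j hij => b.orthonormal.2 hij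
  rw [hs, hn 0 2 (by decide), hn 1 2 (by decide)] at h
  have e : ⟪b 0, x⟫ * (⟪b 1, y⟫ * 1 - 0 * ⟪b 2, y⟫) - ⟪b 0, y⟫ * (⟪b 1, x⟫ * 1 - 0 * ⟪b 2, x⟫)
      + 0 * (⟪b 1, x⟫ * ⟪b 2, y⟫ - ⟪b 1, y⟫ * ⟪b 2, x⟫)
      = ⟪b 0, x⟫ * ⟪b 1, y⟫ - ⟪b 1, x⟫ * ⟪b 0, y⟫ := by ring
  rw [e] at h
  rw [← h, abs_mul, abs_det3_basis, mul_one]

lemma cmap_sum (e₁ e₂ : E3) (s : Finset ι) (r : ι → ℝ) (a : ι → E3) :
    cmap e₁ e₂ (∑ i ∈ s, r i • a i) = ∑ i ∈ s, r i • cmap e₁ e₂ (a i) := by
  classical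
  induction s using Finset.induction_on with
  | empty =>
    apply ext_E2 <;> simp
  | insert j T hj ih =>
    rw [Finset.sum_insert hj, Finset.sum_insert hj]
    have := cmap_add_smul e₁ e₂ (a j) (∑ i ∈ T, r i • a i) (r j) 1
    rw [one_smul, one_smul] at this
    rw [this, ih]

/-- **Cauchy's projection formula for zonotopes.** -/
lemma projArea_zonotope (a : ι → E3) {u : E3} (hu : ‖u‖ = 1) :
    projArea (zonotope a) u = ∑ p : ι × ι, |⟪projGen a p, u⟫| := by
  classical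
  obtain ⟨b, rfl⟩ := exists_basis hu
  have hn : ∀ i j, i ≠ j → ⟪b i, b j⟫ = 0 := fun i j hij => b.orthonormal.2 hij
  rw [projArea_eq (zon_compact a) (b.norm_eq_one 0) (b.norm_eq_one 1) (b.norm_eq_one 2)
    (hn 0 1 (by decide)) (hn 0 2 (by decide)) (hn 1 2 (by decide))]
  set g : ι → E2 := fun i => cmap (b 0) (b 1) (a i) with hg
  have himg : cmap (b 0) (b 1) '' zonotope a = sumZ {0} g Finset.univ := by
    ext x
    constructor
    · rintro ⟨_, ⟨r, hr, rfl⟩, rfl⟩
      exact ⟨0, rfl, r, hr, by rw [cmap_sum, zero_add]⟩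
    · rintro ⟨_, rfl, r, hr, rfl⟩
      exact ⟨_, ⟨r, hr, rfl⟩, by rw [cmap_sum, zero_add]⟩
  rw [himg, volume_zon, ENNReal.toReal_ofReal (by have := pairSum_nonneg g Finset.univ; positivity)]
  unfold pairSum
  rw [Fintype.sum_prod_type, Finset.mul_sum]
  apply Finset.sum_congr rfl
  intro i _
  rw [Finset.mul_sum]
  apply Finset.sum_congr rfl
  intro k _
  have e1 : inner ℝ (g i) (rot (g k)) = -(⟪b 0, a i⟫ * ⟪b 1, a k⟫ - ⟪b 1, a i⟫ * ⟪b 0, a k⟫) := by
    rw [inner_two]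
    simp [hg]
    ring
  have e2 : ⟪projGen a (i, k), b 2⟫ = 2 * det3 (a i) (a k) (b 2) := by
    unfold projGen
    rw [real_inner_smul_left, inner_cross]
  rw [e1, e2, abs_neg, abs_mul, abs_det3_eq]
  norm_num

/-- The projection body of a zonotope. -/
theorem isProjBody_zonotope (a : ι → E3) : IsProjBody (zonotope a) (zonotope (projGen a)) where
  compact := zon_compact _
  convex := zon_convex _
  nonempty := ⟨0, zon_zero _⟩
  support := fun u hu => by
    rw [zon_supp, projArea_zonotope a hu]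

lemma det3_swap12 (x y z : E3) : det3 y x z = - det3 x y z := by
  simp only [det3]
  ring

lemma det3_swap23 (x y z : E3) : det3 x z y = - det3 x y z := by
  simp only [det3]
  ring

lemma det3_smul_right (c : ℝ) (x y z : E3) : det3 x y (c • z) = c * det3 x y z := by
  simp only [det3, PiLp.smul_apply, smul_eq_mul]
  ring

lemma det3_smul_mid (c : ℝ) (x y z : E3) : det3 x (c • y) z = c * det3 x y z := by
  simp only [det3, PiLp.smul_apply, smul_eq_mul]
  ring

lemma det3_smul_left (c : ℝ) (x y z : E3) : det3 (c • x) y z = c * det3 x y z := by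
  simp only [det3, PiLp.smul_apply, smul_eq_mul]
  ring

/-- The mixed sum of determinants of two families. -/
def EE (a : ι → E3) (d : κ → E3) : ℝ := ∑ i, ∑ j, ∑ l, |det3 (a i) (a j) (d l)|

lemma EE_nonneg (a : ι → E3) (d : κ → E3) : 0 ≤ EE a d :=
  Finset.sum_nonneg fun _ _ => Finset.sum_nonneg fun _ _ => Finset.sum_nonneg fun _ _ => abs_nonneg _

lemma D3_sum (a : ι → E3) (d : κ → E3) :
    D3 (Sum.elim a d) = D3 a + 3 * EE a d + 3 * EE d a + D3 d := by
  unfold D3 EE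
  simp only [Fintype.sum_sum_type, Sum.elim_inl, Sum.elim_inr, Finset.sum_add_distrib]
  have h1 : ∑ i, ∑ l, ∑ j, |det3 (a i) (d l) (a j)| = ∑ i, ∑ j, ∑ l, |det3 (a i) (a j) (d l)| := by
    apply Finset.sum_congr rfl
    intro i _
    rw [Finset.sum_comm]
    apply Finset.sum_congr rfl
    intro j _
    apply Finset.sum_congr rfl
    intro l _
    rw [det3_swap23, abs_neg]
  have h2 : ∑ l, ∑ i, ∑ j, |det3 (d l) (a i) (a j)| = ∑ i, ∑ j, ∑ l, |det3 (a i) (a j) (d l)| := by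
    rw [Finset.sum_comm]
    apply Finset.sum_congr rfl
    intro i _
    rw [Finset.sum_comm]
    apply Finset.sum_congr rfl
    intro j _
    apply Finset.sum_congr rfl
    intro l _
    rw [det3_swap12, abs_neg, det3_swap23, abs_neg]
  have h3 : ∑ i, ∑ l, ∑ m, |det3 (a i) (d l) (d m)| = ∑ l, ∑ m, ∑ i, |det3 (d l) (d m) (a i)| := by
    rw [Finset.sum_comm]
    apply Finset.sum_congr rfl
    intro l _
    rw [Finset.sum_comm]
    apply Finset.sum_congr rfl
    intro m _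
    apply Finset.sum_congr rfl
    intro i _
    rw [det3_swap12, abs_neg, det3_swap23, abs_neg]
  have h4 : ∑ l, ∑ i, ∑ m, |det3 (d l) (a i) (d m)| = ∑ l, ∑ m, ∑ i, |det3 (d l) (d m) (a i)| := by
    apply Finset.sum_congr rfl
    intro l _
    rw [Finset.sum_comm]
    apply Finset.sum_congr rfl
    intro m _
    apply Finset.sum_congr rfl
    intro i _
    rw [det3_swap23, abs_neg]
  rw [h1, h2, h3, h4]
  ring

lemma EE_smul_right (a : ι → E3) (d : κ → E3) {c : ℝ} (hc : 0 ≤ c) :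
    EE a (fun l => c • d l) = c * EE a d := by
  unfold EE
  simp only [Finset.mul_sum, det3_smul_right, abs_mul, abs_of_nonneg hc]

lemma EE_smul_left (a : ι → E3) (d : κ → E3) {c : ℝ} (hc : 0 ≤ c) :
    EE (fun l => c • d l) a = c ^ 2 * EE d a := by
  unfold EE
  simp only [Finset.mul_sum, det3_smul_left, det3_smul_mid, abs_mul, abs_of_nonneg hc]
  apply Finset.sum_congr rfl
  intro _ _
  apply Finset.sum_congr rfl
  intro _ _
  apply Finset.sum_congr rfl
  intro _ _
  ring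

lemma D3_smul (d : κ → E3) {c : ℝ} (hc : 0 ≤ c) :
    D3 (fun l => c • d l) = c ^ 3 * D3 d := by
  unfold D3
  simp only [Finset.mul_sum, det3_smul_left, det3_smul_mid, det3_smul_right, abs_mul, abs_of_nonneg hc]
  apply Finset.sum_congr rfl
  intro _ _
  apply Finset.sum_congr rfl
  intro _ _
  apply Finset.sum_congr rfl
  intro _ _
  ring

/-- The Minkowski sum `A + c M`. -/
def msum (A : Set E3) (c : ℝ) (M : Set E3) : Set E3 := {x | ∃ y ∈ A, ∃ m ∈ M, x = y + c • m}

lemma zon_sum (a : ι → E3) (d : κ → E3) (c : ℝ) :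
    zonotope (Sum.elim a fun l => c • d l) = msum (zonotope a) c (zonotope d) := by
  ext x
  constructor
  · rintro ⟨r, hr, rfl⟩
    refine ⟨_, ⟨fun i => r (Sum.inl i), fun i => hr _, rfl⟩, _, ⟨fun l => r (Sum.inr l), fun l => hr _, rfl⟩, ?_⟩
    simp only [Fintype.sum_sum_type, Sum.elim_inl, Sum.elim_inr, Finset.smul_sum, smul_smul]
    congr 1
    apply Finset.sum_congr rfl
    intro l _
    rw [mul_comm]
  · rintro ⟨_, ⟨r, hr, rfl⟩, _, ⟨s, hs, rfl⟩, rfl⟩
    refine ⟨Sum.elim r s, ?_, ?_⟩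
    · rintro (i | l)
      · exact hr i
      · exact hs l
    · simp only [Fintype.sum_sum_type, Sum.elim_inl, Sum.elim_inr, Finset.smul_sum, smul_smul]
      congr 1
      apply Finset.sum_congr rfl
      intro l _
      rw [mul_comm]

/-- The volume of the zonotope `Z(a) + c Z(d)` is a cubic polynomial in `c`. -/
theorem volume_msum (a : ι → E3) (d : κ → E3) {c : ℝ} (hc : 0 ≤ c) :
    (volume (msum (zonotope a) c (zonotope d))).toReal =
      4 / 3 * (D3 a + 3 * c * EE a d + 3 * c ^ 2 * EE d a + c ^ 3 * D3 d) := by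
  classical
  rw [← zon_sum, toReal_volume_zonotope, D3_sum, EE_smul_right _ _ hc, EE_smul_left _ _ hc, D3_smul _ hc]
  ring

lemma det3_cross_sw (x y u v : E3) :
    det3 x y ((2 : ℝ) • cross u v) = det3 ((2 : ℝ) • cross x y) u v := by
  simp only [det3, PiLp.smul_apply, smul_eq_mul, cross_0, cross_1, cross_2]
  ring

/-- The key identity behind Petty's `R(Π K) ≤ R(K)`. -/
theorem EE_projGen (a : ι → E3) : EE a (projGen (projGen a)) = D3 (projGen a) := by
  unfold EE D3
  rw [Fintype.sum_prod_type]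
  apply Finset.sum_congr rfl
  intro i _
  apply Finset.sum_congr rfl
  intro j _
  rw [Fintype.sum_prod_type]
  apply Finset.sum_congr rfl
  intro k _
  apply Finset.sum_congr rfl
  intro m _
  have : det3 (a i) (a j) (projGen (projGen a) (k, m)) =
      det3 (projGen a (i, j)) (projGen a k) (projGen a m) := by
    exact det3_cross_sw _ _ _ _
  rw [this]

lemma act_coord (M : M3) (x : E3) (i : Fin 3) :
    act M x i = M i 0 * x 0 + M i 1 * x 1 + M i 2 * x 2 := by
  simp [act, Matrix.mulVec, dotProduct, Fin.sum_univ_three]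

lemma det3_act (M : M3) (x y z : E3) : det3 (act M x) (act M y) (act M z) = M.det * det3 x y z := by
  simp only [det3, act_coord, Matrix.det_fin_three]
  ring

lemma D3_act (M : M3) (a : ι → E3) : D3 (fun i => act M (a i)) = |M.det| * D3 a := by
  unfold D3
  simp only [det3_act, abs_mul, Finset.mul_sum]

lemma D3_projGen_act (M : M3) (a : ι → E3) :
    D3 (projGen fun i => act M (a i)) = M.det ^ 2 * D3 (projGen a) := by
  classical
  have key : ∀ A B C E : ℝ, |M.det * A * (M.det * B) - M.det * C * (M.det * E)|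
      = M.det ^ 2 * |A * B - C * E| := by
    intro A B C E
    have : M.det * A * (M.det * B) - M.det * C * (M.det * E) = M.det ^ 2 * (A * B - C * E) := by ring
    rw [this, abs_mul, abs_of_nonneg (sq_nonneg _)]
  have hL : L3 (fun i => act M (a i)) = M.det ^ 2 * L3 a := by
    unfold L3
    simp only [det3_cross, det3_act, key, Finset.mul_sum]
  rw [D3_projGen, D3_projGen, hL]
  ring

end

end Vale.Agent.Lib.P237.Petty
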