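import Vale.Agent.Lib.P237.BM
import Vale.Agent.Lib.P237.Berwald

open MeasureTheory Set
open scoped ENNReal Pointwise

namespace Vale.Agent.Lib.P237

open Vale.Agent.Lib.P227

noncomputable section

set_option linter.unusedSectionVars false

variable {ι : Type*} [Fintype ι]

/-- Coefficient vectors at height `t`. -/
def Box (h : ι → ℝ) (t : ℝ) : Set (ι → ℝ) := {r | (∀ i, |r i| ≤ 1) ∧ ∑ i, r i * h i = t}

/-- The linear combination with coefficients `r`. -/
def combo (b : ι → E2) (r : ι → ℝ) : E2 := ∑ i, r i • b i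

lemma combo_continuous (b : ι → E2) : Continuous (combo b) := by
  unfold combo
  fun_prop

lemma Box_compact (h : ι → ℝ) (t : ℝ) : IsCompact (Box h t) := by
  have hbox : IsCompact (Set.pi univ fun _ : ι => Icc (-1 : ℝ) 1) :=
    isCompact_univ_pi fun _ => isCompact_Icc
  apply hbox.of_isClosed_subset
  · have h1 : IsClosed {r : ι → ℝ | ∀ i, |r i| ≤ 1} := by
      have : {r : ι → ℝ | ∀ i, |r i| ≤ 1} = ⋂ i, {r : ι → ℝ | |r i| ≤ 1} := by
        ext r
        simp
      rw [this]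
      exact isClosed_iInter fun i => isClosed_le (by fun_prop) continuous_const
    have h2 : IsClosed {r : ι → ℝ | ∑ i, r i * h i = t} :=
      isClosed_eq (by fun_prop) continuous_const
    exact h1.inter h2
  · intro r hr i _
    exact abs_le.mp (hr.1 i)

lemma Box_convex (h : ι → ℝ) (t : ℝ) : Convex ℝ (Box h t) := by
  rintro r ⟨hr1, hr2⟩ r' ⟨hr1', hr2'⟩ a c ha hc hac
  refine ⟨fun i => ?_, ?_⟩
  · simp only [Pi.add_apply, Pi.smul_apply, smul_eq_mul]
    have h1 := abs_le.mp (hr1 i)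
    have h2 := abs_le.mp (hr1' i)
    rw [abs_le]
    constructor <;> nlinarith [h1.1, h1.2, h2.1, h2.2]
  · simp only [Pi.add_apply, Pi.smul_apply, smul_eq_mul, add_mul, Finset.sum_add_distrib]
    have e1 : ∑ i, a * r i * h i = a * ∑ i, r i * h i := by
      rw [Finset.mul_sum]
      exact Finset.sum_congr rfl fun i _ => by ring
    have e2 : ∑ i, c * r' i * h i = c * ∑ i, r' i * h i := by
      rw [Finset.mul_sum]
      exact Finset.sum_congr rfl fun i _ => by ring
    rw [e1, e2, hr2, hr2', ← add_mul, hac, one_mul]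

/-- The section of the zonotope at height `t`. -/
def Sec (b : ι → E2) (h : ι → ℝ) (t : ℝ) : Set E2 := combo b '' Box h t

lemma Sec_compact (b : ι → E2) (h : ι → ℝ) (t : ℝ) : IsCompact (Sec b h t) :=
  (Box_compact h t).image (combo_continuous b)

lemma combo_add_smul (b : ι → E2) (r r' : ι → ℝ) (a c : ℝ) :
    combo b (a • r + c • r') = a • combo b r + c • combo b r' := by
  unfold combo
  rw [Finset.smul_sum, Finset.smul_sum, ← Finset.sum_add_distrib]
  apply Finset.sum_congr rfl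
  intro i _
  simp only [Pi.add_apply, Pi.smul_apply, smul_eq_mul, add_smul, mul_smul]

lemma combo_neg (b : ι → E2) (r : ι → ℝ) : combo b (-r) = -combo b r := by
  unfold combo
  rw [← Finset.sum_neg_distrib]
  apply Finset.sum_congr rfl
  intro i _
  simp only [Pi.neg_apply, neg_smul]

/-- Combination of sections. -/
lemma Sec_comb (b : ι → E2) (h : ι → ℝ) {s t a c : ℝ} (ha : 0 ≤ a) (hc : 0 ≤ c) (hac : a + c = 1)
    {x y : E2} (hx : x ∈ Sec b h s) (hy : y ∈ Sec b h t) :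
    a • x + c • y ∈ Sec b h (a * s + c * t) := by
  obtain ⟨r, ⟨hr1, hr2⟩, rfl⟩ := hx
  obtain ⟨r', ⟨hr1', hr2'⟩, rfl⟩ := hy
  refine ⟨a • r + c • r', ⟨fun i => ?_, ?_⟩, combo_add_smul b r r' a c⟩
  · simp only [Pi.add_apply, Pi.smul_apply, smul_eq_mul]
    have h1 := abs_le.mp (hr1 i)
    have h2 := abs_le.mp (hr1' i)
    rw [abs_le]
    constructor <;> nlinarith [h1.1, h1.2, h2.1, h2.2]
  · simp only [Pi.add_apply, Pi.smul_apply, smul_eq_mul, add_mul, Finset.sum_add_distrib]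
    have e1 : ∑ i, a * r i * h i = a * ∑ i, r i * h i := by
      rw [Finset.mul_sum]
      exact Finset.sum_congr rfl fun i _ => by ring
    have e2 : ∑ i, c * r' i * h i = c * ∑ i, r' i * h i := by
      rw [Finset.mul_sum]
      exact Finset.sum_congr rfl fun i _ => by ring
    rw [e1, e2, hr2, hr2']

lemma Sec_neg (b : ι → E2) (h : ι → ℝ) {t : ℝ} {x : E2} (hx : x ∈ Sec b h t) :
    -x ∈ Sec b h (-t) := by
  obtain ⟨r, ⟨hr1, hr2⟩, rfl⟩ := hx
  refine ⟨-r, ⟨fun i => ?_, ?_⟩, combo_neg b r⟩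
  · simpa using hr1 i
  · simp only [Pi.neg_apply, neg_mul, Finset.sum_neg_distrib, hr2]

/-- The total height. -/
def height (h : ι → ℝ) : ℝ := ∑ i, h i

lemma height_pos [Nonempty ι] {h : ι → ℝ} (hh : ∀ i, 0 < h i) : 0 < height h :=
  Finset.sum_pos (fun i _ => hh i) Finset.univ_nonempty

/-- Heights that are nonnegative with a positive sum. -/
structure Hgood (h : ι → ℝ) : Prop where
  nn : ∀ i, 0 ≤ h i
  pos : 0 < height h

lemma Hgood.of_pos [Nonempty ι] {h : ι → ℝ} (hh : ∀ i, 0 < h i) : Hgood h :=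
  ⟨fun i => (hh i).le, height_pos hh⟩

lemma Sec_nonempty (b : ι → E2) {h : ι → ℝ} (hh : Hgood h) {t : ℝ}
    (ht : |t| ≤ height h) : (Sec b h t).Nonempty := by
  have hm := hh.pos
  refine ⟨combo b fun _ => t / height h, fun _ => t / height h, ⟨fun _ => ?_, ?_⟩, rfl⟩
  · rw [abs_div, abs_of_pos hm, div_le_one hm]
    exact ht
  · rw [← Finset.mul_sum]
    change t / height h * height h = t
    field_simp

lemma Sec_height {b : ι → E2} {h : ι → ℝ} (hh : Hgood h) {t : ℝ} {x : E2}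
    (hx : x ∈ Sec b h t) : |t| ≤ height h := by
  obtain ⟨r, ⟨hr1, hr2⟩, rfl⟩ := hx
  rw [← hr2]
  calc |∑ i, r i * h i| ≤ ∑ i, |r i * h i| := Finset.abs_sum_le_sum_abs _ _
    _ ≤ ∑ i, h i := by
        apply Finset.sum_le_sum
        intro i _
        rw [abs_mul, abs_of_nonneg (hh.nn i)]
        have := mul_le_mul_of_nonneg_right (hr1 i) (hh.nn i)
        linarith

/-- Half the difference body of the section at height `t`. -/
def Lb (b : ι → E2) (h : ι → ℝ) (t : ℝ) : Set E2 :=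
  {x | ∃ y ∈ Sec b h t, ∃ z ∈ Sec b h t, x = (1 / 2 : ℝ) • (y - z)}

lemma Lb_compact (b : ι → E2) (h : ι → ℝ) (t : ℝ) : IsCompact (Lb b h t) := by
  have : Lb b h t = (fun p : E2 × E2 => (1 / 2 : ℝ) • (p.1 - p.2)) '' (Sec b h t ×ˢ Sec b h t) := by
    ext x
    constructor
    · rintro ⟨y, hy, z, hz, rfl⟩
      exact ⟨(y, z), ⟨hy, hz⟩, rfl⟩
    · rintro ⟨⟨y, z⟩, ⟨hy, hz⟩, rfl⟩
      exact ⟨y, hy, z, hz, rfl⟩
  rw [this]
  apply ((Sec_compact b h t).prod (Sec_compact b h t)).image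
  fun_prop

lemma Lb_comb (b : ι → E2) (h : ι → ℝ) {s t a c : ℝ} (ha : 0 ≤ a) (hc : 0 ≤ c) (hac : a + c = 1)
    {x y : E2} (hx : x ∈ Lb b h s) (hy : y ∈ Lb b h t) :
    a • x + c • y ∈ Lb b h (a * s + c * t) := by
  obtain ⟨x1, hx1, x2, hx2, rfl⟩ := hx
  obtain ⟨y1, hy1, y2, hy2, rfl⟩ := hy
  refine ⟨a • x1 + c • y1, Sec_comb b h ha hc hac hx1 hy1, a • x2 + c • y2,
    Sec_comb b h ha hc hac hx2 hy2, ?_⟩
  simp only [smul_sub, smul_add, smul_smul]
  rw [mul_comm a, mul_comm c]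
  abel

lemma Lb_symm (b : ι → E2) (h : ι → ℝ) (t : ℝ) : ∀ x ∈ Lb b h t, -x ∈ Lb b h t := by
  rintro _ ⟨y, hy, z, hz, rfl⟩
  refine ⟨z, hz, y, hy, ?_⟩
  rw [← smul_neg, neg_sub]

lemma Lb_neg_sub (b : ι → E2) (h : ι → ℝ) (t : ℝ) : Lb b h t ⊆ Lb b h (-t) := by
  rintro _ ⟨y, hy, z, hz, rfl⟩
  refine ⟨-z, Sec_neg b h hz, -y, Sec_neg b h hy, ?_⟩
  congr 1
  abel

lemma Lb_neg (b : ι → E2) (h : ι → ℝ) (t : ℝ) : Lb b h (-t) = Lb b h t := by
  apply Subset.antisymm
  · have := Lb_neg_sub b h (-t)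
    rwa [neg_neg] at this
  · exact Lb_neg_sub b h t

lemma Lb_nonempty (b : ι → E2) {h : ι → ℝ} (hh : Hgood h) {t : ℝ}
    (ht : |t| ≤ height h) : (Lb b h t).Nonempty := by
  obtain ⟨y, hy⟩ := Sec_nonempty b hh ht
  exact ⟨_, y, hy, y, hy, rfl⟩

lemma Lb_convex (b : ι → E2) (h : ι → ℝ) (t : ℝ) : Convex ℝ (Lb b h t) := by
  intro x hx y hy a c ha hc hac
  have := Lb_comb b h ha hc hac hx hy
  rwa [← add_mul, hac, one_mul] at this

lemma Lb_good (b : ι → E2) {h : ι → ℝ} (hh : Hgood h) {t : ℝ}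
    (ht : |t| ≤ height h) : GoodSet (Lb b h t) where
  compact := Lb_compact b h t
  convex := Lb_convex b h t
  symm := Lb_symm b h t
  nonempty := Lb_nonempty b hh ht

/-- The sets `Lb` decrease with the height. -/
lemma Lb_anti (b : ι → E2) (h : ι → ℝ) {s t : ℝ} (hs : 0 ≤ s) (hst : s ≤ t) :
    Lb b h t ⊆ Lb b h s := by
  intro x hx
  rcases (hs.trans hst).eq_or_lt with ht0 | ht0
  · have : s = t := by linarith
    rw [this]
    exact hx
  have hx' : x ∈ Lb b h (-t) := by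
    rw [Lb_neg]
    exact hx
  set c := (t - s) / (2 * t) with hc
  have hc0 : 0 ≤ c := div_nonneg (by linarith) (by linarith)
  have hc1 : c ≤ 1 := by
    rw [hc, div_le_one (by linarith)]
    linarith
  have h1 := Lb_comb b h (by linarith : 0 ≤ 1 - c) hc0 (by ring) hx hx'
  have h2 : (1 - c) * t + c * (-t) = s := by
    rw [hc]
    field_simp
    ring
  have h3 : (1 - c) • x + c • x = x := by
    rw [← add_smul]
    simp
  rwa [h2, h3] at h1

/-- The profile `t ↦ √|Lb t|`. -/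
def profile (b : ι → E2) (h : ι → ℝ) (t : ℝ) : ℝ := rootArea (Lb b h t)

lemma profile_nonneg (b : ι → E2) (h : ι → ℝ) (t : ℝ) : 0 ≤ profile b h t := rootArea_nonneg _

lemma rootArea_mono {A B : Set E2} (hB : IsCompact B) (hAB : A ⊆ B) :
    rootArea A ≤ rootArea B := by
  apply Real.sqrt_le_sqrt
  exact ENNReal.toReal_mono hB.measure_lt_top.ne (measure_mono hAB)

lemma profile_anti (b : ι → E2) (h : ι → ℝ) : AntitoneOn (profile b h) (Icc 0 (height h)) := by
  intro s hs t _ hst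
  exact rootArea_mono (Lb_compact b h s) (Lb_anti b h hs.1 hst)

lemma abs_le_height_of_mem {h : ι → ℝ} {t : ℝ} (ht : t ∈ Icc 0 (height h)) : |t| ≤ height h := by
  rw [abs_of_nonneg ht.1]
  exact ht.2

lemma profile_concave (b : ι → E2) {h : ι → ℝ} (hh : Hgood h) :
    ConcaveOn ℝ (Icc 0 (height h)) (profile b h) := by
  refine ⟨convex_Icc _ _, ?_⟩
  intro s hs t ht a c ha hc hac
  simp only [smul_eq_mul]
  have hl : a = 1 - c := by linarith
  have := bm_plane (Lb_compact b h s) (Lb_compact b h t) (Lb_compact b h (a * s + c * t))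
    (Lb_nonempty b hh (abs_le_height_of_mem hs)) (Lb_nonempty b hh (abs_le_height_of_mem ht))
    hc (by linarith) (l := c) (by
      intro x hx y hy
      rw [← hl]
      exact Lb_comb b h ha hc hac hx hy)
  rw [← hl] at this
  exact this

/-- The area of a section is at most the area of `Lb`. -/
lemma rootArea_Sec_le (b : ι → E2) {h : ι → ℝ} (hh : Hgood h) {t : ℝ}
    (ht : |t| ≤ height h) : rootArea (Sec b h t) ≤ rootArea (Lb b h t) := by
  have hc := Sec_compact b h t
  have hne := Sec_nonempty b hh ht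
  have hnegc : IsCompact ((-1 : ℝ) • Sec b h t) := hc.smul _
  have hvol : rootArea ((-1 : ℝ) • Sec b h t) = rootArea (Sec b h t) := by
    unfold rootArea
    rw [volume_smul_plane]
    simp
  have := bm_plane hc hnegc (Lb_compact b h t) hne (hne.smul_set) (l := 1 / 2)
    (by norm_num) (by norm_num) (by
      rintro x hx _ ⟨z, hz, rfl⟩
      refine ⟨x, hx, z, hz, ?_⟩
      simp only [smul_sub, smul_smul]
      norm_num
      abel)
  rw [hvol] at this
  linarith

end

end Vale.Agent.Lib.P237
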