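import Vale.Agent.Lib.P237.Final
import Vale.Agent.Lib.P237.Moment

open MeasureTheory Set
open scoped ENNReal Pointwise

namespace Vale.Agent.Lib.P237

open Vale.Agent.Lib.P227

noncomputable section

set_option linter.unusedSectionVars false

variable {ι : Type*} [Fintype ι] [DecidableEq ι]

/-- The first absolute moment of the zonotope in the last coordinate. -/
def JJ (b : ι → E2) (h : ι → ℝ) : ℝ≥0∞ := ∫⁻ x in Zon3 b h Finset.univ, ENNReal.ofReal |x.2|

lemma measurable_JJ_integrand (b : ι → E2) (h : ι → ℝ) :
    Measurable ((Zon3 b h Finset.univ).indicator fun x : E2 × ℝ => ENNReal.ofReal |x.2|) := by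
  apply Measurable.indicator _ (Zon3_compact b h Finset.univ).measurableSet
  apply Measurable.ennreal_ofReal
  exact (continuous_abs.comp continuous_snd).measurable

lemma JJ_eq (b : ι → E2) (h : ι → ℝ) :
    JJ b h = ∫⁻ s, ENNReal.ofReal |s| * volume (Sec b h s) := by
  have hm := (Zon3_compact b h Finset.univ).measurableSet
  unfold JJ
  rw [← lintegral_indicator hm, Measure.volume_eq_prod,
    lintegral_prod_symm _ (measurable_JJ_integrand b h).aemeasurable]
  apply lintegral_congr
  intro s
  have key : ∀ y : E2,
      (Zon3 b h Finset.univ).indicator (fun x : E2 × ℝ => ENNReal.ofReal |x.2|) (y, s)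
        = (Sec b h s).indicator (fun _ => ENNReal.ofReal |s|) y := by
    intro y
    by_cases hy : y ∈ Sec b h s
    · have h1 : (y, s) ∈ Zon3 b h Finset.univ := by
        rw [← section_Zon3] at hy
        exact hy
      rw [indicator_of_mem h1, indicator_of_mem hy]
    · have h1 : (y, s) ∉ Zon3 b h Finset.univ := by
        rw [← section_Zon3] at hy
        exact hy
      rw [indicator_of_notMem h1, indicator_of_notMem hy]
  simp only [key]
  rw [lintegral_indicator (Sec_compact b h s).measurableSet, setLIntegral_const]

lemma t_profile_integrable (b : ι → E2) {h : ι → ℝ} (hh : Hgood h) :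
    IntervalIntegrable (fun t => t * profile b h t ^ 2) volume 0 (height h) :=
  (profile_sq_integrable b hh).continuousOn_mul continuousOn_id

/-- The first moment is bounded through the profile. -/
lemma JJ_le (b : ι → E2) {h : ι → ℝ} (hh : Hgood h) :
    JJ b h ≤ ENNReal.ofReal (2 * ∫ t in (0 : ℝ)..height h, t * profile b h t ^ 2) := by
  have hm := hh.pos
  rw [JJ_eq, lintegral_even (fun τ => by rw [abs_neg, volume_Sec_even])]
  have hI := t_profile_integrable b hh
  rw [intervalIntegrable_iff_integrableOn_Ioc_of_le hm.le] at hI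
  have hnn : 0 ≤ᵐ[volume.restrict (Ioc 0 (height h))] fun t => t * profile b h t ^ 2 := by
    filter_upwards [ae_restrict_mem measurableSet_Ioc] with t ht
    have := ht.1.le
    simp only [Pi.zero_apply]
    positivity
  have hle : ∫⁻ τ in Ioi (0 : ℝ), ENNReal.ofReal |τ| * volume (Sec b h τ)
      ≤ ∫⁻ t in Ioc 0 (height h), ENNReal.ofReal (t * profile b h t ^ 2) := by
    have hsplit : Ioi (0 : ℝ) = Ioc 0 (height h) ∪ Ioi (height h) :=
      (Ioc_union_Ioi_eq_Ioi hm.le).symm
    rw [hsplit, lintegral_union measurableSet_Ioi (by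
      rw [Set.disjoint_left]
      intro x hx hx'
      exact absurd hx.2 (not_le.mpr hx'))]
    have hz : ∫⁻ τ in Ioi (height h), ENNReal.ofReal |τ| * volume (Sec b h τ) = 0 := by
      have : ∀ τ ∈ Ioi (height h), ENNReal.ofReal |τ| * volume (Sec b h τ) = 0 := by
        intro τ hτ
        have : Sec b h τ = ∅ := by
          rw [eq_empty_iff_forall_notMem]
          intro x hx
          have h1 := Sec_height hh hx
          have h2 := le_abs_self τ
          exact absurd (h2.trans h1) (not_le.mpr hτ)
        rw [this]
        simp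
      rw [setLIntegral_congr_fun measurableSet_Ioi this]
      simp
    rw [hz, add_zero]
    apply setLIntegral_mono' measurableSet_Ioc
    intro t ht
    have ht' : |t| ≤ height h := abs_le_height_of_mem ⟨ht.1.le, ht.2⟩
    rw [volume_eq_rootArea (Sec_compact b h t), abs_of_pos ht.1,
      ← ENNReal.ofReal_mul' (by positivity)]
    apply ENNReal.ofReal_le_ofReal
    exact mul_le_mul_of_nonneg_left
      (pow_le_pow_left₀ (rootArea_nonneg _) (rootArea_Sec_le b hh ht') 2) ht.1.le
  rw [← ofReal_integral_eq_lintegral_ofReal hI hnn, ← intervalIntegral.integral_of_le hm.le] at hle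
  set T := ∫ t in (0 : ℝ)..height h, t * profile b h t ^ 2 with hT
  have e : (2 : ℝ≥0∞) * ENNReal.ofReal T = ENNReal.ofReal (2 * T) := by
    rw [ENNReal.ofReal_mul (by norm_num : (0 : ℝ) ≤ 2)]
    simp
  rw [← e]
  gcongr

lemma JJ_ne_top (b : ι → E2) {h : ι → ℝ} (hh : Hgood h) : JJ b h ≠ ⊤ :=
  ne_top_of_le_ne_top ENNReal.ofReal_ne_top (JJ_le b hh)

/-- **The improved slice inequality** for nonnegative heights. -/
theorem slice1 (b : ι → E2) {h : ι → ℝ} (hh : Hgood h) :
    height h * ((2 / 3) * DD b h Finset.univ) + (JJ b h).toReal ≤ vSum b h := by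
  have hm := hh.pos
  have hP0 := vSum_nonneg b h
  rcases hP0.eq_or_lt with hP | hP
  · have hD := DD_eq_zero_of_vSum b h hP.symm
    have hnull : volume (Zon3 b h Finset.univ) = 0 := by
      rw [volume_Zon3, hD]
      simp
    have hJ : JJ b h = 0 := setLIntegral_measure_zero _ _ hnull
    rw [hD, hJ]
    simpa using hP0
  set P := vSum b h with hPd
  set I := ∫ t in (0 : ℝ)..height h, profile b h t with hId
  set J := ∫ t in (0 : ℝ)..height h, profile b h t ^ 2 with hJd
  set T := ∫ t in (0 : ℝ)..height h, t * profile b h t ^ 2 with hTd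
  have h1 : 2 * I ^ 2 ≤ P := two_integral_sq_le b hh hP
  have h2 : ∫ t in (0 : ℝ)..height h, (height h / 2 + t) * profile b h t ^ 2 ≤ I ^ 2 :=
    moment_bound hm (profile_concave b hh) (profile_anti b h) fun t _ => profile_nonneg _ _ _
  have h3 : (4 / 3) * DD b h Finset.univ ≤ 2 * J := DD_le_integral b hh
  have h4 : (JJ b h).toReal ≤ 2 * T := by
    have hT0 : 0 ≤ T := by
      apply intervalIntegral.integral_nonneg hm.le
      intro t ht
      have := ht.1
      positivity
    have := ENNReal.toReal_mono ENNReal.ofReal_ne_top (JJ_le b hh)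
    rwa [ENNReal.toReal_ofReal (by positivity)] at this
  have hsplit : ∫ t in (0 : ℝ)..height h, (height h / 2 + t) * profile b h t ^ 2
      = (height h / 2) * J + T := by
    rw [hJd, hTd, ← intervalIntegral.integral_const_mul,
      ← intervalIntegral.integral_add ((profile_sq_integrable b hh).const_mul _)
        (t_profile_integrable b hh)]
    apply intervalIntegral.integral_congr
    intro t _
    simp only
    ring
  rw [hsplit] at h2
  have h6 : height h * ((4 / 3) * DD b h Finset.univ) ≤ height h * (2 * J) :=
    mul_le_mul_of_nonneg_left h3 hm.le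
  nlinarith

lemma Zon3_flip (b : ι → E2) (h : ι → ℝ) :
    Zon3 (fun i => sgn1 (h i) • b i) (fun i => sgn1 (h i) * h i) Finset.univ
      = Zon3 b h Finset.univ := by
  have hss : ∀ i, sgn1 (h i) * sgn1 (h i) = 1 := by
    intro i
    unfold sgn1
    split_ifs <;> norm_num
  ext x
  constructor
  · rintro ⟨r, hr, rfl⟩
    refine ⟨fun i => r i * sgn1 (h i), fun i => ?_, ?_⟩
    · rw [abs_mul, abs_sgn1, mul_one]
      exact hr i
    · ext1
      · simp only
        apply Finset.sum_congr rfl
        intro i _
        rw [smul_smul]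
      · simp only
        apply Finset.sum_congr rfl
        intro i _
        ring
  · rintro ⟨r, hr, rfl⟩
    refine ⟨fun i => r i * sgn1 (h i), fun i => ?_, ?_⟩
    · rw [abs_mul, abs_sgn1, mul_one]
      exact hr i
    · ext1
      · simp only
        apply Finset.sum_congr rfl
        intro i _
        rw [smul_smul, mul_assoc, hss, mul_one]
      · simp only
        apply Finset.sum_congr rfl
        intro i _
        have := hss i
        calc r i * h i = r i * h i * (sgn1 (h i) * sgn1 (h i)) := by rw [this, mul_one]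
          _ = _ := by ring

/-- The improved slice inequality for arbitrary heights. -/
theorem slice1_all (b : ι → E2) (h : ι → ℝ) :
    (∑ i, |h i|) * ((2 / 3) * DD b h Finset.univ) + (JJ b h).toReal ≤ NN b h := by
  have hN0 : 0 ≤ NN b h := by
    rw [← vSum_eq]
    exact vSum_nonneg b h
  have hS0 : 0 ≤ ∑ i, |h i| := Finset.sum_nonneg fun _ _ => abs_nonneg _
  rcases hS0.eq_or_lt with hS | hS
  · have hz : ∀ i, h i = 0 := by
      intro i
      have := (Finset.sum_eq_zero_iff_of_nonneg (fun _ _ => abs_nonneg _)).mp hS.symm i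
        (Finset.mem_univ i)
      exact abs_eq_zero.mp this
    have hJ : JJ b h = 0 := by
      unfold JJ
      apply setLIntegral_eq_zero (Zon3_compact b h Finset.univ).measurableSet
      rintro x ⟨r, _, rfl⟩
      simp [hz]
    rw [← hS, hJ]
    simpa using hN0
  set b' : ι → E2 := fun i => sgn1 (h i) • b i with hb'
  set h' : ι → ℝ := fun i => sgn1 (h i) * h i with hh'
  have hheight : height h' = ∑ i, |h i| := by
    apply Finset.sum_congr rfl
    intro i _
    simp only [hh', sgn1_mul_self]
  have hg : Hgood h' := ⟨fun i => by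
    simp only [hh']
    rw [sgn1_mul_self]
    exact abs_nonneg _, by rw [hheight]; exact hS⟩
  have := slice1 b' hg
  rw [hheight, vSum_eq, hb', hh', DD_flip, NN_flip] at this
  have hJ : JJ (fun i => sgn1 (h i) • b i) (fun i => sgn1 (h i) * h i) = JJ b h := by
    unfold JJ
    rw [Zon3_flip]
  rwa [hJ] at this

end

end Vale.Agent.Lib.P237
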