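import Vale.Agent.Lib.P237.Volume3
import Vale.Agent.Lib.P237.Slice1

open MeasureTheory Set Filter Topology
open scoped ENNReal Pointwise

namespace Vale.Agent.Lib.P237

open Vale.Agent.Lib.P227

noncomputable section

set_option linter.unusedSectionVars false

variable {ι : Type*} [Fintype ι]

lemma zonotope_compact (a : ι → E3) : IsCompact (zonotope a) := by
  have hbox : IsCompact (Set.pi univ fun _ : ι => Icc (-1 : ℝ) 1) :=
    isCompact_univ_pi fun _ => isCompact_Icc
  have : zonotope a = (fun r : ι → ℝ => ∑ i, r i • a i) '' (Set.pi univ fun _ : ι => Icc (-1 : ℝ) 1) := by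
    ext x
    constructor
    · rintro ⟨r, hr, rfl⟩
      exact ⟨r, fun i _ => abs_le.mp (hr i), rfl⟩
    · rintro ⟨r, hr, rfl⟩
      exact ⟨r, fun i => abs_le.mpr (hr i (mem_univ i)), rfl⟩
  rw [this]
  apply hbox.image
  fun_prop

/-- Scaling and translating the line in a lower integral. -/
lemma lintegral_line_scale {φ : ℝ → ℝ≥0∞} (hφ : Measurable φ) (c : ℝ) {w : ℝ} (hw : w ≠ 0) :
    ENNReal.ofReal |w| * ∫⁻ s, φ (c + w * s) = ∫⁻ s, φ s := by
  have h1 := Real.smul_map_volume_mul_left hw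
  have hφ' : Measurable fun s => φ (c + s) := hφ.comp (measurable_const_add c)
  calc ENNReal.ofReal |w| * ∫⁻ s, φ (c + w * s)
      = ENNReal.ofReal |w| * ∫⁻ z, φ (c + z) ∂(Measure.map (w * ·) volume) := by
        rw [lintegral_map hφ' (measurable_const_mul w)]
    _ = ∫⁻ z, φ (c + z) ∂(ENNReal.ofReal |w| • Measure.map (w * ·) volume) := by
        rw [lintegral_smul_measure]
        rfl
    _ = ∫⁻ z, φ (c + z) := by rw [h1]
    _ = ∫⁻ s, φ s := lintegral_add_left_eq_self φ c

lemma lin3_sum (w0 w1 w2 : ℝ) (a : ι → E3) (r : ι → ℝ) :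
    lin3 w0 w1 w2 (∑ i, r i • a i) = ∑ i, r i * lin3 w0 w1 w2 (a i) := by
  simp only [lin3, coord3_sum, PiLp.smul_apply, smul_eq_mul, Finset.mul_sum,
    ← Finset.sum_add_distrib]
  apply Finset.sum_congr rfl
  intro i _
  ring

lemma mem_Zon3_lin3 [DecidableEq ι] (a : ι → E3) (w0 w1 : ℝ) {w2 : ℝ} (hw : w2 ≠ 0) (x : E3) :
    (pl x, lin3 w0 w1 w2 x) ∈ Zon3 (fun i => pl (a i)) (fun i => lin3 w0 w1 w2 (a i)) Finset.univ
      ↔ x ∈ zonotope a := by
  constructor
  · rintro ⟨r, hr, he⟩
    have e1 : pl x = ∑ i, r i • pl (a i) := congrArg Prod.fst he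
    have e2 : lin3 w0 w1 w2 x = ∑ i, r i * lin3 w0 w1 w2 (a i) := congrArg Prod.snd he
    refine ⟨r, hr, ?_⟩
    have e3 : pl x = pl (∑ i, r i • a i) := by
      rw [e1, pl_sum]
      simp only [pl_smul]
    have e4 : lin3 w0 w1 w2 x = lin3 w0 w1 w2 (∑ i, r i • a i) := by
      rw [e2, lin3_sum]
    have e5 := congrArg (fun y : E2 => y 0) e3
    have e6 := congrArg (fun y : E2 => y 1) e3
    simp only [pl_0, pl_1] at e5 e6
    apply ext_three e5 e6
    simp only [lin3] at e4
    rw [e5, e6] at e4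
    have : w2 * x 2 = w2 * (∑ i, r i • a i) 2 := by linarith
    exact mul_left_cancel₀ hw this
  · rintro ⟨r, hr, rfl⟩
    refine ⟨r, hr, ?_⟩
    ext1
    · simp only [pl_sum, pl_smul]
    · exact lin3_sum w0 w1 w2 a r

/-- The first absolute moment of a linear functional on the zonotope. -/
def MM (a : ι → E3) (w0 w1 w2 : ℝ) : ℝ≥0∞ := ∫⁻ x in zonotope a, ENNReal.ofReal |lin3 w0 w1 w2 x|

/-- The first absolute moment of a linear functional on the zonotope, as a real number. -/
def MR (a : ι → E3) (w0 w1 w2 : ℝ) : ℝ := ∫ x in zonotope a, |lin3 w0 w1 w2 x|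

lemma continuous_lin3 : Continuous fun p : (ℝ × ℝ × ℝ) × E3 => lin3 p.1.1 p.1.2.1 p.1.2.2 p.2 := by
  unfold lin3
  fun_prop

lemma MM_toReal (a : ι → E3) (w0 w1 w2 : ℝ) : (MM a w0 w1 w2).toReal = MR a w0 w1 w2 := by
  unfold MM MR
  rw [integral_eq_lintegral_of_nonneg_ae]
  · exact Filter.Eventually.of_forall fun x => abs_nonneg _
  · apply Continuous.aestronglyMeasurable
    unfold lin3
    fun_prop

lemma JJ_lin3 [DecidableEq ι] (a : ι → E3) (w0 w1 : ℝ) {w2 : ℝ} (hw : w2 ≠ 0) :
    JJ (fun i => pl (a i)) (fun i => lin3 w0 w1 w2 (a i)) = ENNReal.ofReal |w2| * MM a w0 w1 w2 := by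
  set b : ι → E2 := fun i => pl (a i) with hb
  set h : ι → ℝ := fun i => lin3 w0 w1 w2 (a i) with hh
  set G := (Zon3 b h Finset.univ).indicator fun x : E2 × ℝ => ENNReal.ofReal |x.2| with hG
  have hGm : Measurable G := measurable_JJ_integrand b h
  set c : E2 → ℝ := fun y => w0 * y 0 + w1 * y 1 with hc
  set H : E2 × ℝ → ℝ≥0∞ := fun p => G (p.1, c p.1 + w2 * p.2) with hH
  have hHm : Measurable H := by
    apply hGm.comp
    apply Continuous.measurable
    simp only [hc]
    fun_prop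
  have hMM : MM a w0 w1 w2 = ∫⁻ p, H p := by
    unfold MM
    rw [← lintegral_indicator (zonotope_compact a).measurableSet, ← mp_tau.lintegral_comp hHm]
    apply lintegral_congr
    intro x
    have e : c (pl x) + w2 * x 2 = lin3 w0 w1 w2 x := by
      simp [hc, lin3]
    simp only [hH, e]
    by_cases hx : x ∈ zonotope a
    · rw [indicator_of_mem hx, hG, indicator_of_mem ((mem_Zon3_lin3 a w0 w1 hw x).mpr hx)]
    · rw [indicator_of_notMem hx, hG,
        indicator_of_notMem (mt (mem_Zon3_lin3 a w0 w1 hw x).mp hx)]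
  rw [hMM]
  unfold JJ
  rw [← lintegral_indicator (Zon3_compact b h Finset.univ).measurableSet, Measure.volume_eq_prod,
    lintegral_prod _ hGm.aemeasurable, lintegral_prod _ hHm.aemeasurable,
    ← lintegral_const_mul' _ _ ENNReal.ofReal_ne_top]
  apply lintegral_congr
  intro y
  exact (lintegral_line_scale (hGm.comp measurable_prodMk_left) (c y) hw).symm

/-- The improved slice inequality for a functional with nonzero last coefficient. -/
lemma slice1_lin3_of_ne [DecidableEq ι] (a : ι → E3) (w0 w1 : ℝ) {w2 : ℝ} (hw : w2 ≠ 0) :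
    (∑ c, |lin3 w0 w1 w2 (a c)|) * ((2 / 3) * D3 a) + MR a w0 w1 w2
      ≤ ∑ c, ∑ d, ∑ e, ∑ f, |lin3 w0 w1 w2 (a c) * det3 (a d) (a e) (a f)
          - lin3 w0 w1 w2 (a d) * det3 (a c) (a e) (a f)| := by
  have h := slice1_all (fun i => pl (a i)) (fun i => lin3 w0 w1 w2 (a i))
  rw [DD_lin3, NN_lin3, JJ_lin3 a w0 w1 hw, ENNReal.toReal_mul, ENNReal.toReal_ofReal (abs_nonneg _),
    MM_toReal] at h
  have hw' : 0 < |w2| := abs_pos.mpr hw
  refine le_of_mul_le_mul_left ?_ hw'
  calc _ = (∑ c, |lin3 w0 w1 w2 (a c)|) * ((2 / 3) * (|w2| * D3 a)) + |w2| * MR a w0 w1 w2 := by ring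
    _ ≤ _ := h

lemma continuous_MR (a : ι → E3) (w0 w1 : ℝ) : Continuous fun t => MR a w0 w1 t := by
  unfold MR
  apply continuous_parametric_integral_of_continuous (f := fun t x => |lin3 w0 w1 t x|) _
    (zonotope_compact a)
  unfold lin3
  simp only [Function.uncurry_def]
  fun_prop

/-- The improved slice inequality for an arbitrary linear functional. -/
theorem slice1_lin3 [DecidableEq ι] (a : ι → E3) (w0 w1 w2 : ℝ) :
    (∑ c, |lin3 w0 w1 w2 (a c)|) * ((2 / 3) * D3 a) + MR a w0 w1 w2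
      ≤ ∑ c, ∑ d, ∑ e, ∑ f, |lin3 w0 w1 w2 (a c) * det3 (a d) (a e) (a f)
          - lin3 w0 w1 w2 (a d) * det3 (a c) (a e) (a f)| := by
  by_cases hw : w2 ≠ 0
  · exact slice1_lin3_of_ne a w0 w1 hw
  have hw0 : w2 = 0 := not_not.mp hw
  subst hw0
  set F : ℝ → ℝ := fun t => (∑ c, |lin3 w0 w1 t (a c)|) * ((2 / 3) * D3 a) + MR a w0 w1 t with hF
  set G : ℝ → ℝ := fun t => ∑ c, ∑ d, ∑ e, ∑ f, |lin3 w0 w1 t (a c) * det3 (a d) (a e) (a f)
          - lin3 w0 w1 t (a d) * det3 (a c) (a e) (a f)| with hG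
  have hFc : Continuous F := by
    apply Continuous.add _ (continuous_MR a w0 w1)
    simp only [lin3]
    fun_prop
  have hGc : Continuous G := by
    simp only [hG, lin3]
    fun_prop
  apply le_of_tendsto_of_tendsto (hFc.continuousWithinAt (s := Ioi 0) (x := 0)).tendsto
    (hGc.continuousWithinAt (s := Ioi 0) (x := 0)).tendsto
  filter_upwards [self_mem_nhdsWithin] with ε hε
  have hε' : 0 < ε := hε
  exact slice1_lin3_of_ne a w0 w1 hε'.ne'

lemma inner_projGen (a : ι → E3) (p : ι × ι) (x : E3) :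
    inner ℝ (projGen a p) x = 2 * det3 (a p.1) (a p.2) x := by
  unfold projGen
  rw [real_inner_smul_left]
  congr 1
  simp only [PiLp.inner_apply, Fin.sum_univ_three, RCLike.inner_apply, conj_trivial, cross_0, cross_1,
    cross_2, det3]
  ring

/-- The support function of the projection body of the zonotope. -/
def suppPi (a : ι → E3) (x : E3) : ℝ := ∑ p, |inner ℝ (projGen a p) x|

lemma continuous_det3 (u v : E3) : Continuous fun x : E3 => det3 u v x := by
  unfold det3
  fun_prop

lemma suppPi_eq (a : ι → E3) (x : E3) :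
    suppPi a x = 2 * ∑ i, ∑ j, |det3 (a i) (a j) x| := by
  unfold suppPi
  rw [Fintype.sum_prod_type, Finset.mul_sum]
  apply Finset.sum_congr rfl
  intro i _
  rw [Finset.mul_sum]
  apply Finset.sum_congr rfl
  intro j _
  rw [inner_projGen, abs_mul]
  norm_num

lemma continuous_suppPi (a : ι → E3) : Continuous (suppPi a) := by
  have : suppPi a = fun x => 2 * ∑ i, ∑ j, |det3 (a i) (a j) x| := by
    funext x
    exact suppPi_eq a x
  rw [this]
  have hc := continuous_det3
  fun_prop

lemma integral_suppPi (a : ι → E3) :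
    ∫ x in zonotope a, suppPi a x = 2 * ∑ i, ∑ j, ∫ x in zonotope a, |det3 (a i) (a j) x| := by
  have hint : ∀ i j, IntegrableOn (fun x => |det3 (a i) (a j) x|) (zonotope a) := by
    intro i j
    exact ((continuous_det3 _ _).abs).continuousOn.integrableOn_compact (zonotope_compact a)
  simp only [suppPi_eq]
  rw [integral_const_mul, integral_finsetSum]
  · congr 1
    apply Finset.sum_congr rfl
    intro i _
    rw [integral_finsetSum]
    intro j _
    exact hint i j
  · intro i _
    exact integrable_finsetSum _ fun j _ => hint i j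

lemma MR_cross (a : ι → E3) (i j : ι) :
    MR a (cross (a i) (a j) 0) (cross (a i) (a j) 1) (cross (a i) (a j) 2)
      = ∫ x in zonotope a, |det3 (a i) (a j) x| := by
  unfold MR
  simp only [lin3_cross]

/-- The sum over all pairs of the improved slice inequality. -/
theorem moment_L3 [DecidableEq ι] (a : ι → E3) :
    (2 / 3) * D3 a ^ 2 + ∑ i, ∑ j, ∫ x in zonotope a, |det3 (a i) (a j) x| ≤ L3 a := by
  have hstep : ∀ i j, (∑ c, |det3 (a i) (a j) (a c)|) * ((2 / 3) * D3 a)
        + ∫ x in zonotope a, |det3 (a i) (a j) x|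
      ≤ ∑ c, ∑ d, ∑ e, ∑ f,
        |det3 (cross (a i) (a j)) (cross (a c) (a d)) (cross (a e) (a f))| := by
    intro i j
    have := slice1_lin3 a (cross (a i) (a j) 0) (cross (a i) (a j) 1) (cross (a i) (a j) 2)
    rw [MR_cross] at this
    simp only [lin3_cross] at this
    refine this.trans (le_of_eq ?_)
    apply Finset.sum_congr rfl
    intro c _
    apply Finset.sum_congr rfl
    intro d _
    apply Finset.sum_congr rfl
    intro e _
    apply Finset.sum_congr rfl
    intro f _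
    rw [det3_cross, ← abs_neg]
    congr 1
    ring
  have e1 : (2 / 3) * D3 a ^ 2 = ∑ i, ∑ j, (∑ c, |det3 (a i) (a j) (a c)|) * ((2 / 3) * D3 a) := by
    simp only [← Finset.sum_mul]
    unfold D3
    ring
  rw [e1, ← Finset.sum_add_distrib]
  unfold L3
  apply Finset.sum_le_sum
  intro i _
  rw [← Finset.sum_add_distrib]
  apply Finset.sum_le_sum
  intro j _
  exact hstep i j

/-- **The moment inequality** `|ΠZ| ≥ 4 |Z|² + (16/3) ∫_Z h_{ΠZ}` for zonotopes in three dimensional
Euclidean space. -/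
theorem zonotope_star (a : ι → E3) :
    4 * (volume (zonotope a)).toReal ^ 2 + (16 / 3) * ∫ x in zonotope a, suppPi a x
      ≤ (volume (zonotope (projGen a))).toReal := by
  classical
  rw [toReal_volume_zonotope, toReal_volume_zonotope, D3_projGen, integral_suppPi]
  have := moment_L3 a
  nlinarith

/-- The sublevel sets of a homogeneous function. -/
lemma volume_sublevel {H : E3 → ℝ} (hs : ∀ (s : ℝ) (x : E3), 0 ≤ s → H (s • x) = s * H x) {t : ℝ}
    (ht : 0 < t) :
    volume {x | H x ≤ t} = ENNReal.ofReal (t ^ 3) * volume {x | H x ≤ 1} := by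
  have e : {x | H x ≤ t} = t • {x | H x ≤ 1} := by
    ext x
    rw [mem_smul_set_iff_inv_smul_mem₀ ht.ne']
    simp only [mem_ofPred_eq]
    rw [hs _ _ (inv_nonneg.mpr ht.le), inv_mul_le_iff₀ ht, mul_one]
  rw [e, Measure.addHaar_smul, finrank_euclideanSpace_fin, abs_of_pos (by positivity)]

/-- **The bathtub step**: a polar volume bound gives a lower bound for the integral. -/
theorem bathtub_petty {Z : Set E3} (hZ : IsCompact Z) {H : E3 → ℝ} (hHc : Continuous H)
    (hH0 : ∀ x, 0 ≤ H x) (hs : ∀ (s : ℝ) (x : E3), 0 ≤ s → H (s • x) = s * H x)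
    (hP : volume {x | H x ≤ 1} * volume Z ^ 2 ≤ ENNReal.ofReal (64 / 27)) :
    (9 / 16) * (volume Z).toReal ^ 2 ≤ ∫ x in Z, H x := by
  have hI0 : 0 ≤ ∫ x in Z, H x := integral_nonneg fun x => hH0 x
  have hZt : volume Z ≠ ⊤ := hZ.measure_lt_top.ne
  set V := (volume Z).toReal with hV
  have hVn : 0 ≤ V := ENNReal.toReal_nonneg
  rcases hVn.eq_or_lt with hV0 | hVpos
  · rw [← hV0]
    simpa using hI0
  have hV0 : 0 < V := hVpos
  have hZ0 : volume Z ≠ 0 := by
    intro h
    rw [hV, h] at hV0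
    simp at hV0
  have hLt : volume {x | H x ≤ 1} ≠ ⊤ := by
    intro h
    rw [h] at hP
    have : (⊤ : ℝ≥0∞) * volume Z ^ 2 = ⊤ := ENNReal.top_mul (pow_ne_zero 2 hZ0)
    rw [this] at hP
    simp at hP
  set l := (volume {x | H x ≤ 1}).toReal with hl
  have hl0 : 0 ≤ l := ENNReal.toReal_nonneg
  have hPr : l * V ^ 2 ≤ 64 / 27 := by
    have := ENNReal.toReal_mono ENNReal.ofReal_ne_top hP
    rw [ENNReal.toReal_ofReal (by norm_num), ENNReal.toReal_mul, ENNReal.toReal_pow] at this
    exact this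
  set lam := (3 / 4) * V with hlam
  have hlam0 : 0 < lam := by positivity
  have hpos : ∀ t ∈ Ioc 0 lam, 0 ≤ V - t ^ 3 * l := by
    intro t ht
    have h1 : t ^ 3 ≤ lam ^ 3 := pow_le_pow_left₀ ht.1.le ht.2 3
    have h2 : lam ^ 3 * l ≤ V := by
      rw [hlam]
      have : ((3 / 4) * V) ^ 3 * l = (27 / 64) * V * (l * V ^ 2) := by ring
      rw [this]
      have h3 : (27 / 64) * V * (l * V ^ 2) ≤ (27 / 64) * V * (64 / 27) :=
        mul_le_mul_of_nonneg_left hPr (by positivity)
      linarith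
    have h4 := mul_le_mul_of_nonneg_right h1 hl0
    linarith
  have hfin : ∀ t ∈ Ioc 0 lam,
      ENNReal.ofReal (V - t ^ 3 * l) ≤ (volume.restrict Z) {x | t < H x} := by
    intro t ht
    rw [Measure.restrict_apply (isOpen_lt continuous_const hHc).measurableSet]
    have hcov : Z ⊆ ({x | t < H x} ∩ Z) ∪ {x | H x ≤ t} := by
      intro x hx
      by_cases h : t < H x
      · exact Or.inl ⟨h, hx⟩
      · exact Or.inr (not_lt.mp h)
    have h1 : volume Z ≤ volume ({x | t < H x} ∩ Z) + volume {x | H x ≤ t} :=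
      (measure_mono hcov).trans (measure_union_le _ _)
    rw [volume_sublevel hs ht.1] at h1
    have hne : ENNReal.ofReal (t ^ 3) * volume {x | H x ≤ 1} ≠ ⊤ :=
      ENNReal.mul_ne_top ENNReal.ofReal_ne_top hLt
    have hA : volume ({x | t < H x} ∩ Z) ≠ ⊤ :=
      ne_top_of_le_ne_top hZt (measure_mono inter_subset_right)
    apply ENNReal.ofReal_le_of_le_toReal
    have h2 := ENNReal.toReal_mono (ENNReal.add_ne_top.mpr ⟨hA, hne⟩) h1
    rw [ENNReal.toReal_add hA hne, ENNReal.toReal_mul,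
      ENNReal.toReal_ofReal (pow_nonneg ht.1.le 3)] at h2
    linarith
  have hlay := lintegral_eq_lintegral_meas_lt (volume.restrict Z) (f := H)
    (Filter.Eventually.of_forall hH0) hHc.aemeasurable
  have hgI : IntegrableOn (fun t : ℝ => V - t ^ 3 * l) (Ioc 0 lam) := by
    apply Continuous.integrableOn_Ioc
    fun_prop
  have hnn : 0 ≤ᵐ[volume.restrict (Ioc 0 lam)] fun t : ℝ => V - t ^ 3 * l := by
    filter_upwards [ae_restrict_mem measurableSet_Ioc] with t ht
    exact hpos t ht
  have hbig : ∫⁻ t in Ioc 0 lam, ENNReal.ofReal (V - t ^ 3 * l)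
      ≤ ∫⁻ t in Ioi 0, (volume.restrict Z) {x | t < H x} := by
    calc ∫⁻ t in Ioc 0 lam, ENNReal.ofReal (V - t ^ 3 * l)
        ≤ ∫⁻ t in Ioc 0 lam, (volume.restrict Z) {x | t < H x} :=
          setLIntegral_mono' measurableSet_Ioc hfin
      _ ≤ _ := lintegral_mono_set Ioc_subset_Ioi_self
  rw [← hlay, ← ofReal_integral_eq_lintegral_ofReal hgI hnn,
    ← ofReal_integral_eq_lintegral_ofReal (hHc.continuousOn.integrableOn_compact hZ)
      (Filter.Eventually.of_forall hH0), ENNReal.ofReal_le_ofReal_iff hI0,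
    ← intervalIntegral.integral_of_le hlam0.le] at hbig
  have hval : ∫ t in (0 : ℝ)..lam, (V - t ^ 3 * l) = lam * V - lam ^ 4 * l / 4 := by
    have : ∀ t ∈ uIcc (0 : ℝ) lam, HasDerivAt (fun t : ℝ => t * V - t ^ 4 * l / 4)
        (V - t ^ 3 * l) t := by
      intro t _
      have h1 : HasDerivAt (fun t : ℝ => t * V) V t := by
        simpa using (hasDerivAt_id t).mul_const V
      have h2 : HasDerivAt (fun t : ℝ => t ^ 4 * l / 4) (4 * t ^ 3 * l / 4) t := by
        have := ((hasDerivAt_pow 4 t).mul_const l).div_const 4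
        simpa using this
      exact (h1.fun_sub h2).congr_deriv (by ring)
    rw [intervalIntegral.integral_eq_sub_of_hasDerivAt this
      (Continuous.intervalIntegrable (by fun_prop) _ _)]
    ring
  rw [hval] at hbig
  have h5 : lam * V - lam ^ 4 * l / 4 = (3 / 4) * V ^ 2 - (81 / 1024) * V ^ 2 * (l * V ^ 2) := by
    rw [hlam]
    ring
  have h6 : (81 / 1024) * V ^ 2 * (l * V ^ 2) ≤ (81 / 1024) * V ^ 2 * (64 / 27) :=
    mul_le_mul_of_nonneg_left hPr (by positivity)
  rw [h5] at hbig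
  linarith

lemma suppPi_nonneg (a : ι → E3) (x : E3) : 0 ≤ suppPi a x :=
  Finset.sum_nonneg fun _ _ => abs_nonneg _

lemma suppPi_smul (a : ι → E3) (s : ℝ) (x : E3) (hs : 0 ≤ s) : suppPi a (s • x) = s * suppPi a x := by
  unfold suppPi
  rw [Finset.mul_sum]
  apply Finset.sum_congr rfl
  intro p _
  rw [real_inner_smul_right, abs_mul, abs_of_nonneg hs]

/-- **Seven**, from the moment inequality and Petty's projection inequality for the zonotope. -/
theorem zonotope_seven (a : ι → E3)
    (hP : volume {x | suppPi a x ≤ 1} * volume (zonotope a) ^ 2 ≤ ENNReal.ofReal (64 / 27)) :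
    7 * (volume (zonotope a)).toReal ^ 2 ≤ (volume (zonotope (projGen a))).toReal := by
  have h1 := zonotope_star a
  have h2 := bathtub_petty (zonotope_compact a) (continuous_suppPi a) (suppPi_nonneg a)
    (suppPi_smul a) hP
  nlinarith

end

end Vale.Agent.Lib.P237
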