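import Vale.Agent.Lib.P237.Fiber

open MeasureTheory Set
open scoped ENNReal Pointwise

namespace Vale.Agent.Lib.P237

open Vale.Agent.Lib.P227

noncomputable section

set_option linter.unusedSectionVars false

variable {ι : Type*} [Fintype ι] [DecidableEq ι]

/-- The zonotope in `ℝ² × ℝ` with generators `(b i, h i)`, `i ∈ T`. -/
def Zon3 (b : ι → E2) (h : ι → ℝ) (T : Finset ι) : Set (E2 × ℝ) :=
  {x | ∃ r : ι → ℝ, (∀ i, |r i| ≤ 1) ∧ x = (∑ i ∈ T, r i • b i, ∑ i ∈ T, r i * h i)}

lemma Zon3_compact (b : ι → E2) (h : ι → ℝ) (T : Finset ι) : IsCompact (Zon3 b h T) := by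
  have hbox : IsCompact (Set.pi univ fun _ : ι => Icc (-1 : ℝ) 1) :=
    isCompact_univ_pi fun _ => isCompact_Icc
  have : Zon3 b h T = (fun r : ι → ℝ => (∑ i ∈ T, r i • b i, ∑ i ∈ T, r i * h i)) ''
      (Set.pi univ fun _ : ι => Icc (-1 : ℝ) 1) := by
    ext x
    constructor
    · rintro ⟨r, hr, rfl⟩
      exact ⟨r, fun i _ => abs_le.mp (hr i), rfl⟩
    · rintro ⟨r, hr, rfl⟩
      exact ⟨r, fun i => abs_le.mpr (hr i (mem_univ i)), rfl⟩
  rw [this]
  apply hbox.image
  fun_prop

lemma Zon3_convex (b : ι → E2) (h : ι → ℝ) (T : Finset ι) : Convex ℝ (Zon3 b h T) := by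
  rintro _ ⟨r, hr, rfl⟩ _ ⟨r', hr', rfl⟩ a c ha hc hac
  refine ⟨fun i => a * r i + c * r' i, fun i => ?_, ?_⟩
  · have h1 := abs_le.mp (hr i)
    have h2 := abs_le.mp (hr' i)
    rw [abs_le]
    constructor <;> nlinarith [h1.1, h1.2, h2.1, h2.2]
  · ext1
    · simp only [Prod.fst_add, Prod.smul_fst, Finset.smul_sum, ← Finset.sum_add_distrib]
      apply Finset.sum_congr rfl
      intro i _
      simp only [add_smul, mul_smul]
    · simp only [Prod.snd_add, Prod.smul_snd, Finset.smul_sum, ← Finset.sum_add_distrib]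
      apply Finset.sum_congr rfl
      intro i _
      simp only [smul_eq_mul]
      ring

/-- Adding a vertical segment to a set. -/
def thickV (C : Set (E2 × ℝ)) (η : ℝ) : Set (E2 × ℝ) :=
  {x | ∃ y ∈ C, ∃ r ∈ Icc (-1 : ℝ) 1, x = (y.1, y.2 + r * η)}

lemma thickV_compact {C : Set (E2 × ℝ)} (hC : IsCompact C) (η : ℝ) : IsCompact (thickV C η) := by
  have : thickV C η = (fun p : (E2 × ℝ) × ℝ => (p.1.1, p.1.2 + p.2 * η)) '' (C ×ˢ Icc (-1 : ℝ) 1) := by
    ext x
    constructor
    · rintro ⟨y, hy, r, hr, rfl⟩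
      exact ⟨(y, r), ⟨hy, hr⟩, rfl⟩
    · rintro ⟨⟨y, r⟩, ⟨hy, hr⟩, rfl⟩
      exact ⟨y, hy, r, hr, rfl⟩
  rw [this]
  apply (hC.prod isCompact_Icc).image
  fun_prop

/-- Volume of a compact convex subset of the line after adding an interval. -/
lemma vol_line_thick' {S : Set ℝ} (hc : IsCompact S) (hv : Convex ℝ S) (hne : S.Nonempty)
    {η : ℝ} (hη : 0 ≤ η) :
    volume {s : ℝ | ∃ y ∈ S, ∃ r ∈ Icc (-1 : ℝ) 1, s = y + r * η}
      = volume S + ENNReal.ofReal (2 * η) := by
  have hconn : IsConnected S := ⟨hne, hv.isPreconnected⟩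
  have hS := eq_Icc_of_connected_compact hconn hc
  set p := sInf S
  set q := sSup S
  have hpq : p ≤ q := by
    rw [hS] at hne
    exact nonempty_Icc.mp hne
  have h1 : {s : ℝ | ∃ y ∈ S, ∃ r ∈ Icc (-1 : ℝ) 1, s = y + r * η} = Icc (p - η) (q + η) := by
    ext s
    rw [hS]
    constructor
    · rintro ⟨y, hy, r, hr, rfl⟩
      have h2 : r * η ≤ η := by nlinarith [hr.2]
      have h3 : -η ≤ r * η := by nlinarith [hr.1]
      exact ⟨by linarith [hy.1], by linarith [hy.2]⟩
    · rintro ⟨h1, h2⟩
      rcases hη.eq_or_lt with h0 | h0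
      · have hs : s ∈ Icc p q := by
          rw [← h0] at h1 h2
          exact ⟨by linarith, by linarith⟩
        exact ⟨s, hs, 0, ⟨by norm_num, by norm_num⟩, by ring⟩
      by_cases hs : s ≤ p
      · refine ⟨p, ⟨le_refl _, hpq⟩, (s - p) / η, ⟨?_, ?_⟩, ?_⟩
        · rw [le_div_iff₀ h0]
          linarith
        · rw [div_le_iff₀ h0]
          linarith
        · field_simp
          ring
      · by_cases hs' : q ≤ s
        · refine ⟨q, ⟨hpq, le_refl _⟩, (s - q) / η, ⟨?_, ?_⟩, ?_⟩
          · rw [le_div_iff₀ h0]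
            linarith
          · rw [div_le_iff₀ h0]
            linarith
          · field_simp
            ring
        · exact ⟨s, ⟨(not_le.mp hs).le, (not_le.mp hs').le⟩, 0, ⟨by norm_num, by norm_num⟩, by ring⟩
  rw [h1, hS, Real.volume_Icc, Real.volume_Icc, ← ENNReal.ofReal_add (by linarith) (by positivity)]
  congr 1
  ring

lemma fib3_compact {C : Set (E2 × ℝ)} (hC : IsCompact C) (y : E2) :
    IsCompact (Prod.mk y ⁻¹' C) := by
  have : Prod.mk y ⁻¹' C = Prod.snd '' (C ∩ (Prod.fst ⁻¹' {y})) := by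
    ext s
    constructor
    · intro hs
      exact ⟨(y, s), ⟨hs, rfl⟩, rfl⟩
    · rintro ⟨⟨y', s'⟩, ⟨hs, hy⟩, rfl⟩
      have : y' = y := hy
      rw [this] at hs
      exact hs
  rw [this]
  apply (hC.inter_right (isClosed_singleton.preimage continuous_fst)).image continuous_snd

lemma fib3_convex {C : Set (E2 × ℝ)} (hC : Convex ℝ C) (y : E2) : Convex ℝ (Prod.mk y ⁻¹' C) := by
  intro s hs s' hs' a c ha hc hac
  have := hC hs hs' ha hc hac
  have e : a • (y, s) + c • (y, s') = (y, a • s + c • s') := by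
    ext1
    · simp only [Prod.fst_add, Prod.smul_fst, ← add_smul, hac, one_smul]
    · simp
  rw [e] at this
  exact this

/-- **Steiner formula** for a vertical segment. -/
lemma steinerV {C : Set (E2 × ℝ)} (hc : IsCompact C) (hv : Convex ℝ C) {η : ℝ} (hη : 0 ≤ η) :
    volume (thickV C η) = volume C + ENNReal.ofReal (2 * η) * volume (Prod.fst '' C) := by
  have hmT := (thickV_compact hc η).measurableSet
  have hmF : MeasurableSet (Prod.fst '' C) := (hc.image continuous_fst).measurableSet
  rw [Measure.volume_eq_prod, Measure.prod_apply hmT, Measure.prod_apply hc.measurableSet]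
  have key : ∀ y : E2, volume (Prod.mk y ⁻¹' thickV C η)
      = volume (Prod.mk y ⁻¹' C)
        + (Prod.fst '' C).indicator (fun _ => ENNReal.ofReal (2 * η)) y := by
    intro y
    have hfib : Prod.mk y ⁻¹' thickV C η
        = {s : ℝ | ∃ s' ∈ Prod.mk y ⁻¹' C, ∃ r ∈ Icc (-1 : ℝ) 1, s = s' + r * η} := by
      ext s
      constructor
      · rintro ⟨⟨y', s'⟩, hy', r, hr, he⟩
        have e1 : y = y' := congrArg Prod.fst he
        have e2 : s = s' + r * η := congrArg Prod.snd he
        subst e1
        exact ⟨s', hy', r, hr, e2⟩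
      · rintro ⟨s', hs', r, hr, rfl⟩
        exact ⟨(y, s'), hs', r, hr, rfl⟩
    rw [hfib]
    by_cases hy : y ∈ Prod.fst '' C
    · rw [indicator_of_mem hy]
      obtain ⟨⟨y', s0⟩, hs0, rfl⟩ := hy
      exact vol_line_thick' (fib3_compact hc _) (fib3_convex hv _) ⟨s0, hs0⟩ hη
    · rw [indicator_of_notMem hy, add_zero]
      have hem : Prod.mk y ⁻¹' C = ∅ := by
        rw [eq_empty_iff_forall_notMem]
        intro s hs
        exact hy ⟨(y, s), hs, rfl⟩
      rw [hem]
      simp
  simp only [key]
  rw [lintegral_add_right _ (measurable_const.indicator hmF), lintegral_indicator hmF,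
    setLIntegral_const]

/-- Horizontal shear along the height preserves volume. -/
lemma volume_shearH {X : Set (E2 × ℝ)} (hX : MeasurableSet X) (a : E2) :
    volume {x : E2 × ℝ | (x.1 + x.2 • a, x.2) ∈ X} = volume X := by
  have hmeas : MeasurableSet {x : E2 × ℝ | (x.1 + x.2 • a, x.2) ∈ X} := by
    have hcont : Continuous fun x : E2 × ℝ => (x.1 + x.2 • a, x.2) := by fun_prop
    exact hcont.measurable hX
  rw [Measure.volume_eq_prod, Measure.prod_apply_symm hmeas, Measure.prod_apply_symm hX]
  apply lintegral_congr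
  intro s
  have : (fun y : E2 => (y, s)) ⁻¹' {x : E2 × ℝ | (x.1 + x.2 • a, x.2) ∈ X}
      = (fun y : E2 => y + s • a) ⁻¹' ((fun y : E2 => (y, s)) ⁻¹' X) := rfl
  rw [this, measure_preimage_add_right]

/-- Vertical shear preserves volume. -/
lemma volume_shearV {X : Set (E2 × ℝ)} (hX : MeasurableSet X) (c : E2) :
    volume {x : E2 × ℝ | (x.1, x.2 + inner ℝ c x.1) ∈ X} = volume X := by
  have hmeas : MeasurableSet {x : E2 × ℝ | (x.1, x.2 + inner ℝ c x.1) ∈ X} := by
    have hcont : Continuous fun x : E2 × ℝ => (x.1, x.2 + inner ℝ c x.1) := by fun_prop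
    exact hcont.measurable hX
  rw [Measure.volume_eq_prod, Measure.prod_apply hmeas, Measure.prod_apply hX]
  apply lintegral_congr
  intro y
  have : Prod.mk y ⁻¹' {x : E2 × ℝ | (x.1, x.2 + inner ℝ c x.1) ∈ X}
      = (fun s : ℝ => s + inner ℝ c y) ⁻¹' (Prod.mk y ⁻¹' X) := rfl
  rw [this, measure_preimage_add_right]

/-- The plane determinant. -/
def wd (x y : E2) : ℝ := x 0 * y 1 - x 1 * y 0

lemma inner_rot_eq (x y : E2) : inner ℝ x (rot y) = - wd x y := by
  rw [inner_two]
  simp [wd]
  ring

/-- The three dimensional determinant in terms of the plane part and the heights. -/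
def tri (b : ι → E2) (h : ι → ℝ) (i k l : ι) : ℝ :=
  h l * wd (b i) (b k) + h i * wd (b k) (b l) + h k * wd (b l) (b i)

/-- The first projection of the zonotope is a zonogon. -/
lemma fst_Zon3 (b : ι → E2) (h : ι → ℝ) (T : Finset ι) :
    Prod.fst '' Zon3 b h T = sumZ {0} b T := by
  ext x
  constructor
  · rintro ⟨_, ⟨r, hr, rfl⟩, rfl⟩
    exact ⟨0, rfl, r, hr, by simp⟩
  · rintro ⟨y, hy, r, hr, rfl⟩
    rw [mem_singleton_iff.mp hy, zero_add]
    exact ⟨_, ⟨r, hr, rfl⟩, rfl⟩

/-- One step of the volume formula, for a generator with nonzero height. -/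
lemma volume_insert_of_ne (b : ι → E2) (h : ι → ℝ) {T : Finset ι} {j : ι} (hj : j ∉ T)
    (hne : h j ≠ 0) :
    volume (Zon3 b h (insert j T))
      = volume (Zon3 b h T) + ENNReal.ofReal (4 * ∑ i ∈ T, ∑ k ∈ T, |tri b h i k j|) := by
  set a : E2 := (h j)⁻¹ • b j with ha
  set b' : ι → E2 := fun i => b i - h i • a with hb'
  have hbj : b j = h j • a := by
    rw [ha, smul_smul, mul_inv_cancel₀ hne, one_smul]
  have hpre : {x : E2 × ℝ | (x.1 + x.2 • a, x.2) ∈ Zon3 b h T} = Zon3 b' h T := by
    ext ⟨y, s⟩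
    constructor
    · rintro ⟨r, hr, he⟩
      have e1 : y + s • a = ∑ i ∈ T, r i • b i := congrArg Prod.fst he
      have e2 : s = ∑ i ∈ T, r i * h i := congrArg Prod.snd he
      refine ⟨r, hr, ?_⟩
      ext1
      · have hS : ∑ i ∈ T, (r i * h i) • a = s • a := by
          rw [e2, Finset.sum_smul]
        simp only [hb', smul_sub, Finset.sum_sub_distrib, smul_smul]
        rw [hS, ← e1]
        abel
      · exact e2
    · rintro ⟨r, hr, he⟩
      have e1 : y = ∑ i ∈ T, r i • b' i := congrArg Prod.fst he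
      have e2 : s = ∑ i ∈ T, r i * h i := congrArg Prod.snd he
      refine ⟨r, hr, ?_⟩
      ext1
      · simp only [e1, e2, hb', smul_sub, Finset.sum_sub_distrib, smul_smul]
        rw [Finset.sum_smul]
        abel
      · exact e2
  have hpre2 : {x : E2 × ℝ | (x.1 + x.2 • a, x.2) ∈ Zon3 b h (insert j T)}
      = thickV (Zon3 b' h T) |h j| := by
    ext ⟨y, s⟩
    constructor
    · rintro ⟨r, hr, he⟩
      have e1 : y + s • a = ∑ i ∈ insert j T, r i • b i := congrArg Prod.fst he
      have e2 : s = ∑ i ∈ insert j T, r i * h i := congrArg Prod.snd he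
      rw [Finset.sum_insert hj] at e1 e2
      refine ⟨(∑ i ∈ T, r i • b' i, ∑ i ∈ T, r i * h i), ⟨r, hr, rfl⟩,
        r j * SignType.sign (h j), ?_, ?_⟩
      · have h1 := abs_le.mp (hr j)
        rcases lt_or_gt_of_ne hne with h0 | h0
        · rw [sign_neg h0]
          simp only [SignType.coe_neg, SignType.coe_one, mul_neg, mul_one, mem_Icc]
          constructor <;> linarith [h1.1, h1.2]
        · rw [sign_pos h0]
          simp only [SignType.coe_one, mul_one, mem_Icc]
          exact h1
      · ext1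
        · simp only [hb', smul_sub, Finset.sum_sub_distrib, smul_smul]
          have hS : ∑ i ∈ T, (r i * h i) • a = (∑ i ∈ T, r i * h i) • a := by
            rw [Finset.sum_smul]
          rw [hS]
          have e3 : y = r j • b j + ∑ i ∈ T, r i • b i - s • a := by
            rw [← e1]
            abel
          rw [e3, e2, add_smul, hbj, smul_smul]
          abel
        · simp only
          rw [e2, mul_assoc, sign_mul_abs]
          ring
    · rintro ⟨⟨y', s'⟩, ⟨r, hr, he⟩, ρ, hρ, he2⟩
      have e1 : y' = ∑ i ∈ T, r i • b' i := congrArg Prod.fst he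
      have e2 : s' = ∑ i ∈ T, r i * h i := congrArg Prod.snd he
      have e3 : y = y' := congrArg Prod.fst he2
      have e4 : s = s' + ρ * |h j| := congrArg Prod.snd he2
      set ρ' : ℝ := ρ * SignType.sign (h j) with hρ'
      have hρ'h : ρ' * h j = ρ * |h j| := by
        rw [hρ', mul_assoc, sign_mul_self]
      have hρ'1 : |ρ'| ≤ 1 := by
        have hsgn : |(SignType.sign (h j) : ℝ)| = 1 := by
          rcases lt_or_gt_of_ne hne with h0 | h0
          · simp [sign_neg h0]
          · simp [sign_pos h0]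
        rw [hρ', abs_mul, hsgn, mul_one]
        exact abs_le.mpr hρ
      refine ⟨Function.update r j ρ', ?_, ?_⟩
      · intro i
        by_cases hi : i = j
        · subst hi
          simpa using hρ'1
        · simpa [Function.update_of_ne hi] using hr i
      · have hs1 : ∑ i ∈ T, Function.update r j ρ' i • b i = ∑ i ∈ T, r i • b i := by
          apply Finset.sum_congr rfl
          intro i hi
          have : i ≠ j := fun h => hj (h ▸ hi)
          rw [Function.update_of_ne this]
        have hs2 : ∑ i ∈ T, Function.update r j ρ' i * h i = ∑ i ∈ T, r i * h i := by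
          apply Finset.sum_congr rfl
          intro i hi
          have : i ≠ j := fun h => hj (h ▸ hi)
          rw [Function.update_of_ne this]
        ext1
        · simp only
          rw [Finset.sum_insert hj, Function.update_self, hs1, e3, e1, e4, e2]
          simp only [hb', smul_sub, Finset.sum_sub_distrib, smul_smul]
          rw [← Finset.sum_smul, add_smul, ← hρ'h, mul_smul, ← hbj]
          abel
        · simp only
          rw [Finset.sum_insert hj, Function.update_self, hs2, e4, e2, hρ'h]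
          ring
  have hmT := (Zon3_compact b h T).measurableSet
  have hmI := (Zon3_compact b h (insert j T)).measurableSet
  have hv1 := volume_shearH hmT a
  have hv2 := volume_shearH hmI a
  rw [hpre] at hv1
  rw [hpre2] at hv2
  rw [← hv2, ← hv1, steinerV (Zon3_compact b' h T) (Zon3_convex b' h T) (abs_nonneg _),
    fst_Zon3, volume_zon, ← ENNReal.ofReal_mul (by positivity)]
  congr 2
  have hsum : |h j| * pairSum b' T = ∑ i ∈ T, ∑ k ∈ T, |tri b h i k j| := by
    unfold pairSum
    rw [Finset.mul_sum]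
    apply Finset.sum_congr rfl
    intro i _
    rw [Finset.mul_sum]
    apply Finset.sum_congr rfl
    intro k _
    rw [← abs_mul, inner_rot_eq, mul_neg, abs_neg]
    congr 1
    simp only [wd, tri, hb', ha, PiLp.sub_apply, PiLp.smul_apply, smul_eq_mul]
    field_simp
    ring
  rw [← hsum]
  ring

end

end Vale.Agent.Lib.P237
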