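import Vale.Agent.Lib.P237.Vol3

open MeasureTheory Set
open scoped ENNReal Pointwise

namespace Vale.Agent.Lib.P237

open Vale.Agent.Lib.P227

noncomputable section

set_option linter.unusedSectionVars false

variable {ι : Type*} [Fintype ι] [DecidableEq ι]

lemma wd_self (x : E2) : wd x x = 0 := by
  simp [wd]
  ring

lemma wd_anti (x y : E2) : wd y x = - wd x y := by
  simp [wd]
  ring

lemma tri_cycl (b : ι → E2) (h : ι → ℝ) (i k l : ι) : tri b h i k l = tri b h k l i := by
  simp only [tri]
  ring

lemma tri_swap (b : ι → E2) (h : ι → ℝ) (i k l : ι) : tri b h k i l = - tri b h i k l := by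
  simp only [tri]
  rw [wd_anti (b i) (b k), wd_anti (b k) (b l), wd_anti (b l) (b i)]
  ring

lemma tri_self (b : ι → E2) (h : ι → ℝ) (i l : ι) : tri b h i i l = 0 := by
  simp only [tri]
  rw [wd_self, wd_anti (b l) (b i)]
  ring

/-- The sum of absolute triple determinants. -/
def DD (b : ι → E2) (h : ι → ℝ) (T : Finset ι) : ℝ :=
  ∑ i ∈ T, ∑ k ∈ T, ∑ l ∈ T, |tri b h i k l|

lemma DD_nonneg (b : ι → E2) (h : ι → ℝ) (T : Finset ι) : 0 ≤ DD b h T :=
  Finset.sum_nonneg fun _ _ => Finset.sum_nonneg fun _ _ => Finset.sum_nonneg fun _ _ => abs_nonneg _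

lemma DD_insert (b : ι → E2) (h : ι → ℝ) {T : Finset ι} {j : ι} (hj : j ∉ T) :
    DD b h (insert j T) = DD b h T + 3 * ∑ i ∈ T, ∑ k ∈ T, |tri b h i k j| := by
  have z1 : ∀ l, |tri b h j j l| = 0 := fun l => by rw [tri_self, abs_zero]
  have z2 : ∀ k, |tri b h j k j| = 0 := fun k => by
    rw [tri_cycl b h j k j, tri_cycl b h k j j, tri_self, abs_zero]
  have z3 : ∀ i, |tri b h i j j| = 0 := fun i => by
    rw [tri_cycl b h i j j, tri_self, abs_zero]
  unfold DD
  simp only [Finset.sum_insert hj, z1, z2, z3, zero_add, Finset.sum_const_zero, Finset.sum_add_distrib]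
  have e1 : ∑ k ∈ T, ∑ l ∈ T, |tri b h j k l| = ∑ i ∈ T, ∑ k ∈ T, |tri b h i k j| := by
    apply Finset.sum_congr rfl
    intro k _
    apply Finset.sum_congr rfl
    intro l _
    rw [tri_cycl]
  have e2 : ∑ i ∈ T, ∑ l ∈ T, |tri b h i j l| = ∑ i ∈ T, ∑ k ∈ T, |tri b h i k j| := by
    rw [Finset.sum_comm]
    apply Finset.sum_congr rfl
    intro k _
    apply Finset.sum_congr rfl
    intro l _
    rw [tri_cycl b h l j k, tri_cycl b h j k l]
  rw [e1, e2]
  ring

/-- One step of the volume formula. -/
lemma volume_insert (b : ι → E2) (h : ι → ℝ) {T : Finset ι} {j : ι} (hj : j ∉ T) :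
    volume (Zon3 b h (insert j T))
      = volume (Zon3 b h T) + ENNReal.ofReal (4 * ∑ i ∈ T, ∑ k ∈ T, |tri b h i k j|) := by
  by_cases hne : h j ≠ 0
  · exact volume_insert_of_ne b h hj hne
  have hne' : h j = 0 := not_not.mp hne
  by_cases hb : b j = 0
  · have e : Zon3 b h (insert j T) = Zon3 b h T := by
      ext x
      constructor
      · rintro ⟨r, hr, rfl⟩
        refine ⟨r, hr, ?_⟩
        rw [Finset.sum_insert hj, Finset.sum_insert hj, hb, hne']
        simp
      · rintro ⟨r, hr, rfl⟩
        refine ⟨r, hr, ?_⟩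
        rw [Finset.sum_insert hj, Finset.sum_insert hj, hb, hne']
        simp
    have z : ∀ i k, tri b h i k j = 0 := by
      intro i k
      simp only [tri, hb, hne']
      simp [wd]
    rw [e]
    simp [z]
  -- shear so that the new height is nonzero
  set c := b j with hc
  set h' : ι → ℝ := fun i => h i + inner ℝ c (b i) with hh'
  have hshear : ∀ S : Finset ι, {x : E2 × ℝ | (x.1, x.2 + inner ℝ c x.1) ∈ Zon3 b h' S} = Zon3 b h S := by
    intro S
    ext ⟨y, s⟩
    constructor
    · rintro ⟨r, hr, he⟩
      have e1 : y = ∑ i ∈ S, r i • b i := congrArg Prod.fst he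
      have e2 : s + inner ℝ c y = ∑ i ∈ S, r i * h' i := congrArg Prod.snd he
      refine ⟨r, hr, ?_⟩
      ext1
      · exact e1
      · simp only [hh', mul_add, Finset.sum_add_distrib] at e2
        have e3 : inner ℝ c y = ∑ i ∈ S, r i * inner ℝ c (b i) := by
          rw [e1, inner_sum]
          apply Finset.sum_congr rfl
          intro i _
          rw [real_inner_smul_right]
        change s = _
        linarith
    · rintro ⟨r, hr, he⟩
      have e1 : y = ∑ i ∈ S, r i • b i := congrArg Prod.fst he
      have e2 : s = ∑ i ∈ S, r i * h i := congrArg Prod.snd he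
      refine ⟨r, hr, ?_⟩
      ext1
      · exact e1
      · simp only [hh', mul_add, Finset.sum_add_distrib]
        have e3 : inner ℝ c y = ∑ i ∈ S, r i * inner ℝ c (b i) := by
          rw [e1, inner_sum]
          apply Finset.sum_congr rfl
          intro i _
          rw [real_inner_smul_right]
        change s + inner ℝ c y = _
        linarith
  have hv : ∀ S : Finset ι, volume (Zon3 b h' S) = volume (Zon3 b h S) := by
    intro S
    rw [← volume_shearV (Zon3_compact b h' S).measurableSet c, hshear]
  have hjne : h' j ≠ 0 := by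
    simp only [hh', hne', zero_add, ← hc]
    exact (inner_self_ne_zero (𝕜 := ℝ)).mpr hb
  have htri : ∀ i k, tri b h' i k j = tri b h i k j := by
    intro i k
    simp only [tri, hh', inner_two, hc, wd]
    ring
  rw [← hv, ← hv, volume_insert_of_ne b h' hj hjne]
  simp only [htri]

/-- **The volume of a three dimensional zonotope**. -/
theorem volume_Zon3 (b : ι → E2) (h : ι → ℝ) (T : Finset ι) :
    volume (Zon3 b h T) = ENNReal.ofReal ((4 / 3) * DD b h T) := by
  induction T using Finset.induction_on with
  | empty =>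
    have : Zon3 b h ∅ ⊆ ({0} : Set E2) ×ˢ ({0} : Set ℝ) := by
      rintro _ ⟨r, _, rfl⟩
      simp
    have h0 : volume (({0} : Set E2) ×ˢ ({0} : Set ℝ)) = 0 := by
      rw [Measure.volume_eq_prod, Measure.prod_prod]
      simp
    have h1 : volume (Zon3 b h ∅) = 0 := measure_mono_null this h0
    rw [h1]
    simp [DD]
  | insert j T hj ih =>
    rw [volume_insert b h hj, ih, DD_insert b h hj,
      ← ENNReal.ofReal_add (by have := DD_nonneg b h T; positivity)
        (by
          have := Finset.sum_nonneg (s := T) fun i _ =>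
            Finset.sum_nonneg (s := T) fun k _ => abs_nonneg (tri b h i k j)
          positivity)]
    congr 1
    ring

lemma section_Zon3 (b : ι → E2) (h : ι → ℝ) (τ : ℝ) :
    (fun y : E2 => (y, τ)) ⁻¹' Zon3 b h Finset.univ = Sec b h τ := by
  ext y
  constructor
  · rintro ⟨r, hr, he⟩
    have e1 : y = ∑ i, r i • b i := congrArg Prod.fst he
    have e2 : τ = ∑ i, r i * h i := congrArg Prod.snd he
    exact ⟨r, ⟨hr, e2.symm⟩, e1.symm⟩
  · rintro ⟨r, ⟨hr, e2⟩, rfl⟩
    exact ⟨r, hr, by rw [← e2]; rfl⟩

lemma volume_Sec_even (b : ι → E2) (h : ι → ℝ) (τ : ℝ) :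
    volume (Sec b h (-τ)) = volume (Sec b h τ) := by
  have : Sec b h (-τ) = Neg.neg ⁻¹' Sec b h τ := by
    ext x
    constructor
    · intro hx
      have := Sec_neg b h hx
      rwa [neg_neg] at this
    · intro hx
      have := Sec_neg b h hx
      rwa [mem_preimage, neg_neg] at *
  rw [this, Measure.measure_preimage_neg]

lemma profile_sq_integrable (b : ι → E2) {h : ι → ℝ} (hh : Hgood h) :
    IntervalIntegrable (fun t => profile b h t ^ 2) volume 0 (height h) := by
  apply AntitoneOn.intervalIntegrable
  rw [uIcc_of_le (hh.pos).le]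
  intro x hx y hy hxy
  exact pow_le_pow_left₀ (profile_nonneg _ _ _) (profile_anti b h hx hy hxy) 2

/-- The volume of the zonotope is bounded by the integrated profile. -/
theorem DD_le_integral (b : ι → E2) {h : ι → ℝ} (hh : Hgood h) :
    (4 / 3) * DD b h Finset.univ ≤ 2 * ∫ t in (0 : ℝ)..height h, profile b h t ^ 2 := by
  have hm := hh.pos
  have hvol := volume_Zon3 b h Finset.univ
  rw [Measure.volume_eq_prod, Measure.prod_apply_symm (Zon3_compact b h _).measurableSet] at hvol
  simp only [section_Zon3] at hvol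
  rw [lintegral_even (volume_Sec_even b h)] at hvol
  have hI := profile_sq_integrable b hh
  rw [intervalIntegrable_iff_integrableOn_Ioc_of_le hm.le] at hI
  have hnn : 0 ≤ᵐ[volume.restrict (Ioc 0 (height h))] fun t => profile b h t ^ 2 :=
    Filter.Eventually.of_forall fun t => by positivity
  have hle : ∫⁻ τ in Ioi (0 : ℝ), volume (Sec b h τ)
      ≤ ∫⁻ t in Ioc 0 (height h), ENNReal.ofReal (profile b h t ^ 2) := by
    have hsplit : Ioi (0 : ℝ) = Ioc 0 (height h) ∪ Ioi (height h) :=
      (Ioc_union_Ioi_eq_Ioi hm.le).symm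
    rw [hsplit, lintegral_union measurableSet_Ioi (by
      rw [Set.disjoint_left]
      intro x hx hx'
      exact absurd hx.2 (not_le.mpr hx'))]
    have hz : ∫⁻ τ in Ioi (height h), volume (Sec b h τ) = 0 := by
      have : ∀ τ ∈ Ioi (height h), volume (Sec b h τ) = 0 := by
        intro τ hτ
        have : Sec b h τ = ∅ := by
          rw [eq_empty_iff_forall_notMem]
          intro x hx
          have h1 := Sec_height hh hx
          have h2 := le_abs_self τ
          exact absurd (h2.trans h1) (not_le.mpr hτ)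
        rw [this]
        simp
      rw [setLIntegral_congr_fun measurableSet_Ioi this]
      simp
    rw [hz, add_zero]
    apply setLIntegral_mono' measurableSet_Ioc
    intro t ht
    have ht' : |t| ≤ height h := abs_le_height_of_mem ⟨ht.1.le, ht.2⟩
    rw [volume_eq_rootArea (Sec_compact b h t)]
    apply ENNReal.ofReal_le_ofReal
    exact pow_le_pow_left₀ (rootArea_nonneg _) (rootArea_Sec_le b hh ht') 2
  rw [← ofReal_integral_eq_lintegral_ofReal hI hnn, ← intervalIntegral.integral_of_le hm.le] at hle
  set J := ∫ t in (0 : ℝ)..height h, profile b h t ^ 2 with hJ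
  have hJ0 : 0 ≤ J := by
    apply intervalIntegral.integral_nonneg hm.le
    intro t _
    positivity
  have h2 : 2 * ∫⁻ τ in Ioi (0 : ℝ), volume (Sec b h τ) ≤ 2 * ENNReal.ofReal J := by
    gcongr
  rw [hvol] at h2
  have e : (2 : ℝ≥0∞) * ENNReal.ofReal J = ENNReal.ofReal (2 * J) := by
    rw [ENNReal.ofReal_mul (by norm_num : (0 : ℝ) ≤ 2)]
    simp
  rw [e, ENNReal.ofReal_le_ofReal_iff (by positivity)] at h2
  exact h2

/-- The fundamental identity: `wd (vgen (c, d)) (vgen (e, f))` in terms of triple determinants. -/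
lemma wd_vgen (b : ι → E2) (h : ι → ℝ) (c d e f : ι) :
    wd (vgen b h (c, d)) (vgen b h (e, f))
      = - (h c * tri b h d e f - h d * tri b h c e f) := by
  simp only [wd, vgen, tri, PiLp.sub_apply, PiLp.smul_apply, smul_eq_mul]
  ring

/-- If the generator sum vanishes then so does the determinant sum. -/
lemma DD_eq_zero_of_vSum (b : ι → E2) (h : ι → ℝ) (hP : vSum b h = 0) : DD b h Finset.univ = 0 := by
  have hz : ∀ p q, wd (vgen b h p) (vgen b h q) = 0 := by
    intro p q
    have h1 : pairSum (vgen b h) Finset.univ = 0 := hP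
    unfold pairSum at h1
    rw [Finset.sum_eq_zero_iff_of_nonneg (fun _ _ => Finset.sum_nonneg fun _ _ => abs_nonneg _)] at h1
    have h2 := h1 p (Finset.mem_univ p)
    rw [Finset.sum_eq_zero_iff_of_nonneg (fun _ _ => abs_nonneg _)] at h2
    have h3 := h2 q (Finset.mem_univ q)
    rw [abs_eq_zero, inner_rot_eq, neg_eq_zero] at h3
    exact h3
  have htri0 : ∀ d e f, h e * tri b h d e f = 0 := by
    intro d e f
    have h1 := wd_vgen b h e d e f
    rw [hz, tri_self] at h1
    linarith
  have htri : ∀ d e f, tri b h d e f = 0 := by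
    intro d e f
    by_cases he : h e = 0
    · by_cases hf : h f = 0
      · by_cases hd : h d = 0
        · simp [tri, he, hf, hd]
        · have h2 := htri0 f d e
          rw [tri_cycl b h f d e] at h2
          exact (mul_eq_zero.mp h2).resolve_left hd
      · have h2 := htri0 e f d
        rw [tri_cycl b h e f d, tri_cycl b h f d e] at h2
        exact (mul_eq_zero.mp h2).resolve_left hf
    · exact (mul_eq_zero.mp (htri0 d e f)).resolve_left he
  simp [DD, htri]

/-- The integrated profile against the generator sum. -/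
lemma two_integral_sq_le (b : ι → E2) {h : ι → ℝ} (hh : Hgood h) (hP : 0 < vSum b h) :
    2 * (∫ t in (0 : ℝ)..height h, profile b h t) ^ 2 ≤ vSum b h := by
  have hm := hh.pos
  set P := vSum b h with hPd
  set I := ∫ t in (0 : ℝ)..height h, profile b h t with hId
  have hI0 : 0 ≤ I := by
    apply intervalIntegral.integral_nonneg hm.le
    intro t _
    exact profile_nonneg _ _ _
  have h1 : Real.sqrt (2 * P) * I ≤ P := integral_profile_le b hh
  have h4 : 2 * P * I ^ 2 ≤ P ^ 2 := by
    have := pow_le_pow_left₀ (mul_nonneg (Real.sqrt_nonneg _) hI0) h1 2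
    rw [mul_pow, Real.sq_sqrt (by positivity)] at this
    exact this
  have : P * (2 * I ^ 2) ≤ P * P := by nlinarith
  exact le_of_mul_le_mul_left this hP

/-- **The slice inequality** for positive heights. -/
theorem slice_pos (b : ι → E2) {h : ι → ℝ} (hh : Hgood h) :
    height h * DD b h Finset.univ ≤ vSum b h := by
  have hm := hh.pos
  have hP0 := vSum_nonneg b h
  rcases hP0.eq_or_lt with hP | hP
  · rw [DD_eq_zero_of_vSum b h hP.symm, mul_zero]
    exact hP0
  set P := vSum b h with hPd
  set I := ∫ t in (0 : ℝ)..height h, profile b h t with hId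
  set J := ∫ t in (0 : ℝ)..height h, profile b h t ^ 2 with hJd
  have hI0 : 0 ≤ I := by
    apply intervalIntegral.integral_nonneg hm.le
    intro t _
    exact profile_nonneg _ _ _
  have h2 : (3 / 4) * height h * J ≤ I ^ 2 :=
    berwald hm (profile_concave b hh) (profile_anti b h) fun t _ => profile_nonneg _ _ _
  have h3 : (4 / 3) * DD b h Finset.univ ≤ 2 * J := DD_le_integral b hh
  have h5 : 2 * I ^ 2 ≤ P := two_integral_sq_le b hh hP
  have h6 : height h * ((4 / 3) * DD b h Finset.univ) ≤ height h * (2 * J) :=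
    mul_le_mul_of_nonneg_left h3 hm.le
  nlinarith

end

end Vale.Agent.Lib.P237
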